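import Crest.Agent.R163.Cls
import Crest.Agent.R163.Data3

/-!
# The three-state certificate (ferromagnetic side)

`g = T - (245/1024) x^2` in terms of the central moments `x, T` of the posterior.
-/

set_option autoImplicit false
set_option linter.unusedSimpArgs false
set_option maxRecDepth 100000

namespace Crest.Agent.R163.D3

open Crest.Agent.R163.Poly

theorem hA : withB (2 ^ 20) (fun B B1 B2 B3 => chkCols B B1 B2 B3 EX cell3 LA) = true := by
  decide +kernel
theorem hN : withB (2 ^ 32) (fun B B1 B2 B3 => dat.all (fun t => chkN3 B B1 B2 B3 t.1 t.2.1))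
    = true := by decide +kernel
theorem hpos : dat.all (fun t => decide (dg3 t.1 ≠ 0)) = true := by decide +kernel
theorem hF : chkF 100 LA funs = true := by decide +kernel
theorem hQA : chkQ 100 LA LA QA = true := by decide +kernel
theorem hQB : chkQ 100 LA LA QB = true := by decide +kernel
theorem eQA : form termsA = QA := by decide +kernel
theorem eQB : form termsB = QB := by decide +kernel
theorem ePA : upoly utermsA = PA := by decide +kernel
theorem ePB : upoly utermsB = PB := by decide +kernel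

end Crest.Agent.R163.D3

namespace Crest.Agent.R163

open Crest.Agent.R163.Poly Crest.Agent.R163.D3 Crest.ProbabilityR.Broadcast

noncomputable def gF3 (x T : ℝ) : ℝ := T + (-245 / 1024) * x ^ 2
noncomputable def aF3 (x T : ℝ) : ℝ :=
  (3187 / 4096) * x + (-541 / 2048) * T + (-41 / 512) * x ^ 2 + (-9 / 128) * (x * T)
    + (-9 / 256) * x ^ 3 + (1 / 256) * T ^ 2
noncomputable def bF3 (x T : ℝ) : ℝ :=
  1 + (-1093 / 512) * x + (4815 / 4096) * T + (4277 / 4096) * x ^ 2 + (-2091 / 2048) * (x * T)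
    + (795 / 4096) * x ^ 3 + (-703 / 4096) * T ^ 2

noncomputable def g3 (p : Fin 3 → ℝ) : ℝ := gF3 (chi p) (thr p)
noncomputable def a3 (p : Fin 3 → ℝ) : ℝ := aF3 (chi p) (thr p)
noncomputable def b3 (p : Fin 3 → ℝ) : ℝ := bF3 (chi p) (thr p)

noncomputable def muF3 (x T : ℝ) : List ℝ := monR3 3 (3 - 3 / 2 * x) (1 - 3 / 2 * x + T)

theorem mu3_spx {p : Fin 3 → ℝ} (hp : p ∈ Spx 3) : mu3 p = muF3 (chi p) (thr p) := by
  have hs : p 2 = 3 - p 0 - p 1 := by
    have := hp.2; rw [Fin.sum_univ_three] at this; push_cast at this; linarith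
  simp only [mu3, muR3, muF3, chi, thr, Fin.sum_univ_three, hs]
  push_cast
  congr 1 <;> ring

theorem dot3_v1 (x T : ℝ) : dotR v1 (muF3 x T) = 2985984 * 1 := by
  simp only [v1, muF3, monR3, J3, List.map_cons, List.map_nil, dotR_cons, dotR_nil]
  push_cast
  ring

theorem dot3_vx (x T : ℝ) : dotR vx (muF3 x T) = 2985984 * x := by
  simp only [vx, muF3, monR3, J3, List.map_cons, List.map_nil, dotR_cons, dotR_nil]
  push_cast
  ring

theorem dot3_vxx (x T : ℝ) : dotR vxx (muF3 x T) = 2985984 * x ^ 2 := by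
  simp only [vxx, muF3, monR3, J3, List.map_cons, List.map_nil, dotR_cons, dotR_nil]
  push_cast
  ring

theorem dot3_vg (x T : ℝ) : dotR vg (muF3 x T) = 2985984 * gF3 x T := by
  simp only [vg, muF3, monR3, J3, List.map_cons, List.map_nil, dotR_cons, dotR_nil, gF3]
  push_cast
  ring

theorem dot3_va (x T : ℝ) : dotR va (muF3 x T) = 2985984 * aF3 x T := by
  simp only [va, muF3, monR3, J3, List.map_cons, List.map_nil, dotR_cons, dotR_nil, aF3]
  push_cast
  ring

theorem dot3_vb (x T : ℝ) : dotR vb (muF3 x T) = 2985984 * bF3 x T := by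
  simp only [vb, muF3, monR3, J3, List.map_cons, List.map_nil, dotR_cons, dotR_nil, bF3]
  push_cast
  ring

theorem cov3 {p : Fin 3 → ℝ} (hp : p ∈ Spx 3) : Cov LA (mu3 p) := cov_mu3 hA hp.1

theorem fun_nonneg3 {p : Fin 3 → ℝ} (hp : p ∈ Spx 3) {c : List ℤ} (hc : c ∈ funs) :
    0 ≤ dotR c (mu3 p) := (cov3 hp).of_chkF hF hc

theorem dot_dat3 {p : Fin 3 → ℝ} (hp : p ∈ Spx 3) :
    ∀ t ∈ dat, dotR t.2.1 (mu3 p) = 729 * Nm (gam3 t.1) p := by
  have h := hN
  rw [withB_eq, List.all_eq_true] at h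
  exact fun t ht => Nm_of_chkN3 (h t ht) hp

theorem lev_nonneg3 {p : Fin 3 → ℝ} {Φ : List (List ℤ)}
    (h1 : ∀ c ∈ hsub 0 1 Φ, 0 ≤ dotR c (mu3 p)) (h2 : ∀ c ∈ hsub 1 2 Φ, 0 ≤ dotR c (mu3 p))
    (h3 : ∀ c ∈ hsub 2 3 Φ, 0 ≤ dotR c (mu3 p)) {w : ℝ} (h0 : 0 ≤ w) (h4 : w ≤ 3) :
    0 ≤ lev (fun v => dotR v (mu3 p)) w Φ := by
  rcases le_total w 1 with h | h
  · exact lev_nonneg_Icc (by norm_num) h1 (by exact_mod_cast h0) (by exact_mod_cast h)
  rcases le_total w 2 with h' | h'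
  · exact lev_nonneg_Icc (by norm_num) h2 (by exact_mod_cast h) (by exact_mod_cast h')
  · exact lev_nonneg_Icc (by norm_num) h3 (by exact_mod_cast h') (by exact_mod_cast h4)

abbrev Ent3 := (ℕ × ℕ × ℕ) × List ℤ × ℤ × ℤ

/-- the polynomial relaxation -/
noncomputable def SF3 (c : Ent3 → ℤ) (l : List Ent3) (u : Fin 3 → ℝ) : ℝ :=
  (l.map (fun t => (c t : ℝ) * Nm (gam3 t.1) u)).sum

theorem sum_SF3 (c : Ent3 → ℤ) (p p' : Fin 3 → ℝ) : ∀ l : List Ent3,
    ∑ σ : Equiv.Perm (Fin 3), SF3 c l (fun i => p i * p' (σ i))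
      = (l.map (fun t => (c t : ℝ) * (Nm (gam3 t.1) p * Nm (gam3 t.1) p'))).sum
  | [] => by simp [SF3]
  | t :: l => by
    have h := sum_SF3 c p p' l
    simp only [SF3] at h
    simp only [SF3, List.map_cons, List.sum_cons, Finset.sum_add_distrib, h, ← Finset.mul_sum,
      sum_Nm_mul]

theorem SF3_zero (c : Ent3 → ℤ) {u : Fin 3 → ℝ} (hu : ∀ i, u i = 0) : SF3 c dat u = 0 := by
  refine List.sum_eq_zero fun a ha => ?_
  obtain ⟨t, ht, rfl⟩ := List.mem_map.1 ha
  have h := hpos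
  rw [List.all_eq_true] at h
  have h1 : dg3 t.1 ≠ 0 := of_decide_eq_true (h t ht)
  have h2 := Nm_smul (gam3 t.1) 0 u
  rw [sum_gam3, zero_pow h1, zero_mul] at h2
  have h3 : u = fun i => 0 * u i := by funext i; rw [hu i, zero_mul]
  rw [h3, h2, mul_zero]

theorem SF3_smul (c : Ent3 → ℤ) (s : ℤ) (w : ℝ) {p : Fin 3 → ℝ} (hp : p ∈ Spx 3) :
    (dat.map (fun t => w ^ dg3 t.1 * (((s * c t : ℤ) : ℝ) * dotR t.2.1 (mu3 p)))).sum
      = s * 729 * SF3 c dat (fun i => w * p i) := by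
  rw [SF3, ← List.sum_map_mul_left]
  refine congrArg List.sum (List.map_congr_left fun t ht => ?_)
  rw [dot_dat3 hp t ht, Nm_smul, sum_gam3]
  push_cast; ring

theorem SF3_bil (c : Ent3 → ℤ) (s : ℤ) {p p' : Fin 3 → ℝ} (hp : p ∈ Spx 3) (hp' : p' ∈ Spx 3) :
    (dat.map (fun t => ((s * c t : ℤ) : ℝ) * (dotR t.2.1 (mu3 p) * dotR t.2.1 (mu3 p')))).sum
      = s * 729 ^ 2 * ∑ σ : Equiv.Perm (Fin 3), SF3 c dat (fun i => p i * p' (σ i)) := by
  rw [sum_SF3, ← List.sum_map_mul_left]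
  refine congrArg List.sum (List.map_congr_left fun t ht => ?_)
  rw [dot_dat3 hp t ht, dot_dat3 hp' t ht]
  push_cast; ring

theorem relaxA3 {u : Fin 3 → ℝ} (hu : ∀ i, 0 ≤ u i) (h4 : av u ≤ 3) :
    (2985984 : ℝ) ^ 2 * 46656 * hat chi u ≤ 729 ^ 2 * SF3 (fun t => t.2.2.1) dat u := by
  by_cases h : av u = 0
  · rw [SF3_zero _ (eq_zero_of_av hu h), hat, h]; simp
  have hp := norm_mem hu h
  set p : Fin 3 → ℝ := fun i => u i / av u with hpd
  have hu' : u = fun i => av u * p i := by funext i; simp only [hpd]; field_simp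
  have h1 := lev_nonneg3 (p := p) (Φ := PA)
    (fun c hc => fun_nonneg3 hp (by simp [funs, hc]))
    (fun c hc => fun_nonneg3 hp (by simp [funs, hc]))
    (fun c hc => fun_nonneg3 hp (by simp [funs, hc])) (av_nonneg hu) h4
  rw [← ePA, lev_upoly, utermsA, List.map_append, List.sum_append, List.map_map] at h1
  have h2 := SF3_smul (fun t => t.2.2.1) 729 (av u) hp
  rw [← hu'] at h2
  have h3 : dotR vx (mu3 p) = 2985984 * chi p := by rw [mu3_spx hp, dot3_vx]
  simp only [Function.comp_def, h2, List.map_cons, List.map_nil, List.sum_cons, List.sum_nil, h3,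
    ME] at h1
  push_cast at h1
  unfold hat
  linarith

theorem relaxB3 {u : Fin 3 → ℝ} (hu : ∀ i, 0 ≤ u i) (h4 : av u ≤ 3) :
    729 ^ 2 * SF3 (fun t => t.2.2.2) dat u ≤ (2985984 : ℝ) ^ 2 * 46656 * hat g3 u := by
  by_cases h : av u = 0
  · rw [SF3_zero _ (eq_zero_of_av hu h), hat, h]; simp
  have hp := norm_mem hu h
  set p : Fin 3 → ℝ := fun i => u i / av u with hpd
  have hu' : u = fun i => av u * p i := by funext i; simp only [hpd]; field_simp
  have h1 := lev_nonneg3 (p := p) (Φ := PB)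
    (fun c hc => fun_nonneg3 hp (by simp [funs, hc]))
    (fun c hc => fun_nonneg3 hp (by simp [funs, hc]))
    (fun c hc => fun_nonneg3 hp (by simp [funs, hc])) (av_nonneg hu) h4
  rw [← ePB, lev_upoly, utermsB, List.map_append, List.sum_append, List.map_map] at h1
  have h2 := SF3_smul (fun t => t.2.2.2) (-729) (av u) hp
  rw [← hu'] at h2
  have h3 : dotR vg (mu3 p) = 2985984 * g3 p := by rw [mu3_spx hp, dot3_vg, g3]
  simp only [neg_mul] at h2
  simp only [Function.comp_def, h2, List.map_cons, List.map_nil, List.sum_cons, List.sum_nil, h3,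
    ME] at h1
  push_cast at h1
  unfold hat
  linarith

theorem mul_perm_nonneg3 {p p' : Fin 3 → ℝ} (hp : p ∈ Spx 3) (hp' : p' ∈ Spx 3)
    (σ : Equiv.Perm (Fin 3)) (i : Fin 3) : 0 ≤ p i * p' (σ i) := mul_nonneg (hp.1 i) (hp'.1 _)

theorem av_perm_le3 {p p' : Fin 3 → ℝ} (hp : p ∈ Spx 3) (hp' : p' ∈ Spx 3)
    (σ : Equiv.Perm (Fin 3)) : av (fun i => p i * p' (σ i)) ≤ 3 := by
  exact_mod_cast av_mul_le hp (perm_mem hp' σ)

theorem ptA3 {p p' : Fin 3 → ℝ} (hp : p ∈ Spx 3) (hp' : p' ∈ Spx 3) :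
    ∑ σ : Equiv.Perm (Fin 3), hat chi (fun i => p i * p' (σ i)) ≤
      6 * (chi p + chi p' - a3 p * g3 p' - g3 p * a3 p'
        - 1 / 128 * (chi p * chi p' * (chi p + chi p'))) := by
  have h1 : 0 ≤ bil QA (mu3 p) (mu3 p') := cov3 hp _ (chkQ_sound (cov3 hp') hQA)
  rw [← eQA, bil_form, termsA, List.map_append, List.sum_append, List.map_map] at h1
  have h2 := SF3_bil (fun t => t.2.2.1) (-1) hp hp'
  simp only [neg_mul, one_mul] at h2
  simp only [Function.comp_def, h2] at h1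
  simp only [List.map_cons, List.map_nil, List.sum_cons, List.sum_nil, mu3_spx hp, mu3_spx hp',
    dot3_v1, dot3_vx, dot3_vxx, dot3_vg, dot3_va, E6, e6] at h1
  have h3 := Finset.sum_le_sum fun σ (_ : σ ∈ (Finset.univ : Finset (Equiv.Perm (Fin 3)))) =>
    relaxA3 (mul_perm_nonneg3 hp hp' σ) (av_perm_le3 hp hp' σ)
  rw [← Finset.mul_sum, ← Finset.mul_sum] at h3
  push_cast at h1
  unfold a3 g3
  linarith

theorem ptB3 {p p' : Fin 3 → ℝ} (hp : p ∈ Spx 3) (hp' : p' ∈ Spx 3) :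
    6 * (b3 p * g3 p' + g3 p * b3 p') ≤
      ∑ σ : Equiv.Perm (Fin 3), hat g3 (fun i => p i * p' (σ i)) := by
  have h1 : 0 ≤ bil QB (mu3 p) (mu3 p') := cov3 hp _ (chkQ_sound (cov3 hp') hQB)
  rw [← eQB, bil_form, termsB, List.map_append, List.sum_append, List.map_map] at h1
  have h2 := SF3_bil (fun t => t.2.2.2) 1 hp hp'
  simp only [one_mul] at h2
  simp only [Function.comp_def, h2] at h1
  simp only [List.map_cons, List.map_nil, List.sum_cons, List.sum_nil, mu3_spx hp, mu3_spx hp',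
    dot3_vg, dot3_vb, E6] at h1
  have h3 := Finset.sum_le_sum fun σ (_ : σ ∈ (Finset.univ : Finset (Equiv.Perm (Fin 3)))) =>
    relaxB3 (mul_perm_nonneg3 hp hp' σ) (av_perm_le3 hp hp' σ)
  rw [← Finset.mul_sum, ← Finset.mul_sum] at h3
  push_cast at h1
  have e1 : b3 p * g3 p' + g3 p * b3 p' = bF3 (chi p) (thr p) * gF3 (chi p') (thr p')
    + gF3 (chi p) (thr p) * bF3 (chi p') (thr p') := rfl
  rw [e1]
  linarith

theorem g3_ch {lam : ℝ} (h0 : 0 ≤ lam) (h1 : lam ≤ 1) {p : Fin 3 → ℝ} (hp : p ∈ Spx 3) :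
    lam ^ 3 * g3 p ≤ g3 (ch lam p) := by
  have e2 : chi (ch lam p) = lam ^ 2 * chi p := by
    simp only [chi, ch_sub_one lam hp, mul_pow, ← Finset.mul_sum]; ring
  have e3 : thr (ch lam p) = lam ^ 3 * thr p := by
    simp only [thr, ch_sub_one lam hp, mul_pow, ← Finset.mul_sum]; ring
  have key : g3 (ch lam p) - lam ^ 3 * g3 p = 245 / 1024 * lam ^ 3 * (1 - lam) * chi p ^ 2 := by
    simp only [g3, gF3, e2, e3]; ring
  have h2 : 0 ≤ 1 - lam := by linarith
  rw [← sub_nonneg, key]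
  positivity

theorem cont_moments3 :
    Continuous (chi : (Fin 3 → ℝ) → ℝ) ∧ Continuous (thr : (Fin 3 → ℝ) → ℝ) := by
  refine ⟨?_, ?_⟩
  · unfold chi; fun_prop
  · unfold thr; fun_prop

theorem bd_g3 : Bd g3 := by
  obtain ⟨h1, h2⟩ := cont_moments3
  refine Bd.of_continuous ?_
  unfold g3 gF3; fun_prop

theorem bd_a3 : Bd a3 := by
  obtain ⟨h1, h2⟩ := cont_moments3
  refine Bd.of_continuous ?_
  unfold a3 aF3; fun_prop

theorem bd_b3 : Bd b3 := by
  obtain ⟨h1, h2⟩ := cont_moments3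
  refine Bd.of_continuous ?_
  unfold b3 bF3; fun_prop

theorem a3_nonneg {p : Fin 3 → ℝ} (hp : p ∈ Spx 3) : 0 ≤ a3 p := by
  have k := fun_nonneg3 hp (c := va) (by simp [funs])
  rw [mu3_spx hp, dot3_va] at k
  exact (mul_nonneg_iff_of_pos_left (by norm_num : (0 : ℝ) < 2985984)).1 k

theorem b3_nonneg {p : Fin 3 → ℝ} (hp : p ∈ Spx 3) : 0 ≤ b3 p := by
  have k := fun_nonneg3 hp (c := vb) (by simp [funs])
  rw [mu3_spx hp, dot3_vb] at k
  exact (mul_nonneg_iff_of_pos_left (by norm_num : (0 : ℝ) < 2985984)).1 k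

theorem g3_vtx (o : Fin 3) : 0 ≤ g3 (vtx o) := by
  have e2 : chi (vtx o) = 2 := by
    fin_cases o <;> (simp [chi, vtx, Fin.sum_univ_three]; norm_num)
  have e3 : thr (vtx o) = 2 := by
    fin_cases o <;> (simp [thr, vtx, Fin.sum_univ_three]; norm_num)
  simp only [g3, gF3, e2, e3]
  norm_num

theorem cert3 {lam : ℝ} (h0 : 0 ≤ lam) (h1 : lam ≤ 1) : Nonempty (Cert 3 lam) :=
  ⟨{ g := g3, h := g3, a := a3, a' := a3, b := b3, b' := b3, eps := 1 / 128, be := 0, be' := 0,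
     c := lam ^ 3, eps_pos := by norm_num, be_nonneg := le_rfl, be'_nonneg := le_rfl,
     c_nonneg := by positivity, bd_g := bd_g3, bd_h := bd_g3, bd_a := bd_a3, bd_a' := bd_a3,
     bd_b := bd_b3, bd_b' := bd_b3, a_nonneg := fun _ => a3_nonneg, a'_nonneg := fun _ => a3_nonneg,
     b_nonneg := fun _ => b3_nonneg, b'_nonneg := fun _ => b3_nonneg,
     g_one := by simp [g3, gF3, chi, thr],
     g_vtx := g3_vtx, g_ch := fun _ hp => g3_ch h0 h1 hp,
     ptA := fun p hp p' hp' => by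
       have := ptA3 hp hp'
       norm_num [Nat.factorial] at this ⊢
       linarith,
     ptB := fun p hp p' hp' => by
       have := ptB3 hp hp'
       norm_num [Nat.factorial] at this ⊢
       linarith }⟩

end Crest.Agent.R163
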