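import Crest.Agent.R163.Data4

/-! # Kernel checks of the four-state certificate -/

set_option autoImplicit false
set_option maxRecDepth 100000

namespace Crest.Agent.R163.D4

open Crest.Agent.R163.Poly

theorem hA : withB (2 ^ 36) (fun B B1 B2 B3 => chkCols B B1 B2 B3 EX cellA LA) = true := by
  decide +kernel
theorem hB : withB (2 ^ 36) (fun B B1 B2 B3 => chkCols B B1 B2 B3 EX cellB LB) = true := by
  decide +kernel
theorem hN : withB (2 ^ 48) (fun B B1 B2 B3 => dat.all (fun t => chkN B B1 B2 B3 t.1 t.2.1))
    = true := by decide +kernel
theorem hpos : dat.all (fun t => decide (dg t.1 ≠ 0)) = true := by decide +kernel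
theorem hF : chkF 180 (LA ++ LB) funs = true := by decide +kernel
theorem hQA : chkQ 180 (LA ++ LB) (LA ++ LB) QA = true := by decide +kernel
theorem hQB : chkQ 180 (LA ++ LB) (LA ++ LB) QB = true := by decide +kernel
theorem eQA : form termsA = QA := by decide +kernel
theorem eQB : form termsB = QB := by decide +kernel
theorem ePA : upoly utermsA = PA := by decide +kernel
theorem ePB : upoly utermsB = PB := by decide +kernel

end Crest.Agent.R163.D4
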