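import Crest.Agent.R163.Cls
import Crest.Agent.R163.Chk4

/-!
# The four-state certificate

`g = 2T + G4 + G5 + G6` in terms of the central moments `x, T, Q` of the posterior.
-/

set_option autoImplicit false
set_option linter.unusedSimpArgs false

namespace Crest.Agent.R163

open Crest.Agent.R163.Poly Crest.Agent.R163.D4 Crest.ProbabilityR.Broadcast

noncomputable def fou (p : Fin 4 → ℝ) : ℝ := (∑ i, (p i - 1) ^ 4) / 4

noncomputable def G4 (x Q : ℝ) : ℝ :=
  (-4134885 / 4194304) * (x ^ 2)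
    + (-1941903 / 4194304) * (Q)
noncomputable def G5 (x T : ℝ) : ℝ :=
  (1667461 / 2097152) * (x * T)
noncomputable def G6 (x T Q : ℝ) : ℝ :=
  (1785165 / 2097152) * (x ^ 3)
    + (-917665 / 2097152) * (x * Q)
    + (-210121 / 18874368) * (T ^ 2)
noncomputable def gF (x T Q : ℝ) : ℝ := 2 * T + G4 x Q + G5 x T + G6 x T Q
noncomputable def aF (x T Q : ℝ) : ℝ :=
  (1 / 3) * (x)
    + (-102065 / 1572864) * (T)
    + (-309513 / 2097152) * (x ^ 2)
    + (42895 / 2097152) * (Q)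
    + (90587 / 2097152) * (x * T)
    + (394143 / 2097152) * (x ^ 3)
    + (-189769 / 2097152) * (x * Q)
    + (58019 / 9437184) * (T ^ 2)
noncomputable def bF (x T Q : ℝ) : ℝ :=
  (1)
    + (-1895717 / 1048576) * (x)
    + (-132367 / 6291456) * (T)
    + (-4422115 / 4194304) * (x ^ 2)
    + (5625079 / 4194304) * (Q)
    + (-7492819 / 6291456) * (x * T)
    + (705145 / 262144) * (x ^ 3)
    + (-1419537 / 1048576) * (x * Q)
    + (21027347 / 37748736) * (T ^ 2)

noncomputable def g4 (p : Fin 4 → ℝ) : ℝ := gF (chi p) (thr p) (fou p)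
noncomputable def a4 (p : Fin 4 → ℝ) : ℝ := aF (chi p) (thr p) (fou p)
noncomputable def b4 (p : Fin 4 → ℝ) : ℝ := bF (chi p) (thr p) (fou p)

noncomputable def muF (x T Q : ℝ) : List ℝ :=
  monR 4 (6 - 2 * x) (4 - 4 * x + 4 / 3 * T) (1 - 2 * x + 4 / 3 * T + 2 * x ^ 2 - Q)

theorem mu_spx {p : Fin 4 → ℝ} (hp : p ∈ Spx 4) : mu p = muF (chi p) (thr p) (fou p) := by
  have hs : p 3 = 4 - p 0 - p 1 - p 2 := by
    have := hp.2; rw [Fin.sum_univ_four] at this; push_cast at this; linarith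
  simp only [mu, mu4, muF, chi, thr, fou, Fin.sum_univ_four, hs]
  push_cast
  congr 1 <;> ring

theorem dot_v1 (x T Q : ℝ) : dotR v1 (muF x T Q) = 206158430208 * 1 := by
  simp only [v1, muF, monR, J4, List.map_cons, List.map_nil, dotR_cons, dotR_nil, gF, aF, bF,
    G4, G5, G6]
  push_cast
  ring

theorem dot_vx (x T Q : ℝ) : dotR vx (muF x T Q) = 206158430208 * x := by
  simp only [vx, muF, monR, J4, List.map_cons, List.map_nil, dotR_cons, dotR_nil, gF, aF, bF,
    G4, G5, G6]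
  push_cast
  ring

theorem dot_vxx (x T Q : ℝ) : dotR vxx (muF x T Q) = 206158430208 * x ^ 2 := by
  simp only [vxx, muF, monR, J4, List.map_cons, List.map_nil, dotR_cons, dotR_nil, gF, aF, bF,
    G4, G5, G6]
  push_cast
  ring

theorem dot_vg (x T Q : ℝ) : dotR vg (muF x T Q) = 206158430208 * gF x T Q := by
  simp only [vg, muF, monR, J4, List.map_cons, List.map_nil, dotR_cons, dotR_nil, gF, aF, bF,
    G4, G5, G6]
  push_cast
  ring

theorem dot_va (x T Q : ℝ) : dotR va (muF x T Q) = 206158430208 * aF x T Q := by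
  simp only [va, muF, monR, J4, List.map_cons, List.map_nil, dotR_cons, dotR_nil, gF, aF, bF,
    G4, G5, G6]
  push_cast
  ring

theorem dot_vb (x T Q : ℝ) : dotR vb (muF x T Q) = 206158430208 * bF x T Q := by
  simp only [vb, muF, monR, J4, List.map_cons, List.map_nil, dotR_cons, dotR_nil, gF, aF, bF,
    G4, G5, G6]
  push_cast
  ring

theorem dot_n0 (x T Q : ℝ) : dotR n0 (muF x T Q) = 206158430208 * (-(G4 x Q + G5 x T + G6 x T Q)) := by
  simp only [n0, muF, monR, J4, List.map_cons, List.map_nil, dotR_cons, dotR_nil, gF, aF, bF,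
    G4, G5, G6]
  push_cast
  ring

theorem dot_n1 (x T Q : ℝ) : dotR n1 (muF x T Q) = 206158430208 * (-(2 * G4 x Q + 3 * G5 x T + 3 * G6 x T Q)) := by
  simp only [n1, muF, monR, J4, List.map_cons, List.map_nil, dotR_cons, dotR_nil, gF, aF, bF,
    G4, G5, G6]
  push_cast
  ring

theorem dot_n2 (x T Q : ℝ) : dotR n2 (muF x T Q) = 206158430208 * (-(G4 x Q + 2 * G5 x T + 3 * G6 x T Q)) := by
  simp only [n2, muF, monR, J4, List.map_cons, List.map_nil, dotR_cons, dotR_nil, gF, aF, bF,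
    G4, G5, G6]
  push_cast
  ring

theorem cov {p : Fin 4 → ℝ} (hp : p ∈ Spx 4) : Cov (LA ++ LB) (mu p) := cov_mu hA hB hp.1

theorem fun_nonneg {p : Fin 4 → ℝ} (hp : p ∈ Spx 4) {c : List ℤ} (hc : c ∈ funs) :
    0 ≤ dotR c (mu p) := (cov hp).of_chkF hF hc

theorem dot_dat {p : Fin 4 → ℝ} (hp : p ∈ Spx 4) :
    ∀ t ∈ dat, dotR t.2.1 (mu p) = 65536 * Nm (gam t.1) p := by
  have h := hN
  rw [withB_eq, List.all_eq_true] at h
  exact fun t ht => Nm_of_chkN (h t ht) hp

theorem lev_nonneg4 {p : Fin 4 → ℝ} {Φ : List (List ℤ)}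
    (h1 : ∀ c ∈ hsub 0 1 Φ, 0 ≤ dotR c (mu p)) (h2 : ∀ c ∈ hsub 1 2 Φ, 0 ≤ dotR c (mu p))
    (h3 : ∀ c ∈ hsub 2 4 Φ, 0 ≤ dotR c (mu p)) {w : ℝ} (h0 : 0 ≤ w) (h4 : w ≤ 4) :
    0 ≤ lev (fun v => dotR v (mu p)) w Φ := by
  rcases le_total w 1 with h | h
  · exact lev_nonneg_Icc (by norm_num) h1 (by exact_mod_cast h0) (by exact_mod_cast h)
  rcases le_total w 2 with h' | h'
  · exact lev_nonneg_Icc (by norm_num) h2 (by exact_mod_cast h) (by exact_mod_cast h')
  · exact lev_nonneg_Icc (by norm_num) h3 (by exact_mod_cast h') (by exact_mod_cast h4)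

abbrev Ent := (ℕ × ℕ × ℕ × ℕ) × List ℤ × ℤ × ℤ

/-- the polynomial relaxation -/
noncomputable def SF (c : Ent → ℤ) (l : List Ent) (u : Fin 4 → ℝ) : ℝ :=
  (l.map (fun t => (c t : ℝ) * Nm (gam t.1) u)).sum

theorem sum_SF (c : Ent → ℤ) (p p' : Fin 4 → ℝ) : ∀ l : List Ent,
    ∑ σ : Equiv.Perm (Fin 4), SF c l (fun i => p i * p' (σ i))
      = (l.map (fun t => (c t : ℝ) * (Nm (gam t.1) p * Nm (gam t.1) p'))).sum
  | [] => by simp [SF]
  | t :: l => by
    have h := sum_SF c p p' l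
    simp only [SF] at h
    simp only [SF, List.map_cons, List.sum_cons, Finset.sum_add_distrib, h, ← Finset.mul_sum,
      sum_Nm_mul]

theorem SF_zero (c : Ent → ℤ) {u : Fin 4 → ℝ} (hu : ∀ i, u i = 0) : SF c dat u = 0 := by
  refine List.sum_eq_zero fun a ha => ?_
  obtain ⟨t, ht, rfl⟩ := List.mem_map.1 ha
  have h := hpos
  rw [List.all_eq_true] at h
  have h1 : dg t.1 ≠ 0 := of_decide_eq_true (h t ht)
  have h2 := Nm_smul (gam t.1) 0 u
  rw [sum_gam, zero_pow h1, zero_mul] at h2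
  have h3 : u = fun i => 0 * u i := by funext i; rw [hu i, zero_mul]
  rw [h3, h2, mul_zero]

theorem SF_smul (c : Ent → ℤ) (s : ℤ) (w : ℝ) {p : Fin 4 → ℝ} (hp : p ∈ Spx 4) :
    (dat.map (fun t => w ^ dg t.1 * (((s * c t : ℤ) : ℝ) * dotR t.2.1 (mu p)))).sum
      = s * 65536 * SF c dat (fun i => w * p i) := by
  rw [SF, ← List.sum_map_mul_left]
  refine congrArg List.sum (List.map_congr_left fun t ht => ?_)
  rw [dot_dat hp t ht, Nm_smul, sum_gam]
  push_cast; ring

theorem SF_bil (c : Ent → ℤ) (s : ℤ) {p p' : Fin 4 → ℝ} (hp : p ∈ Spx 4) (hp' : p' ∈ Spx 4) :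
    (dat.map (fun t => ((s * c t : ℤ) : ℝ) * (dotR t.2.1 (mu p) * dotR t.2.1 (mu p')))).sum
      = s * 65536 ^ 2 * ∑ σ : Equiv.Perm (Fin 4), SF c dat (fun i => p i * p' (σ i)) := by
  rw [sum_SF, ← List.sum_map_mul_left]
  refine congrArg List.sum (List.map_congr_left fun t ht => ?_)
  rw [dot_dat hp t ht, dot_dat hp' t ht]
  push_cast; ring

theorem relaxA {u : Fin 4 → ℝ} (hu : ∀ i, 0 ≤ u i) (h4 : av u ≤ 4) :
    (206158430208 : ℝ) ^ 2 * 32 * hat chi u ≤ 65536 ^ 2 * SF (fun t => t.2.2.1) dat u := by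
  by_cases h : av u = 0
  · rw [SF_zero _ (eq_zero_of_av hu h), hat, h]; simp
  have hp := norm_mem hu h
  set p : Fin 4 → ℝ := fun i => u i / av u with hpd
  have hu' : u = fun i => av u * p i := by funext i; simp only [hpd]; field_simp
  have h1 := lev_nonneg4 (p := p) (Φ := PA)
    (fun c hc => fun_nonneg hp (by simp [funs, hc])) (fun c hc => fun_nonneg hp (by simp [funs, hc]))
    (fun c hc => fun_nonneg hp (by simp [funs, hc])) (av_nonneg hu) h4
  rw [← ePA, lev_upoly, utermsA, List.map_append, List.sum_append, List.map_map] at h1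
  have h2 := SF_smul (fun t => t.2.2.1) 65536 (av u) hp
  rw [← hu'] at h2
  have h3 : dotR vx (mu p) = 206158430208 * chi p := by rw [mu_spx hp, dot_vx]
  simp only [Function.comp_def, h2, List.map_cons, List.map_nil, List.sum_cons, List.sum_nil, h3,
    ME] at h1
  push_cast at h1
  unfold hat
  linarith

theorem relaxB {u : Fin 4 → ℝ} (hu : ∀ i, 0 ≤ u i) (h4 : av u ≤ 4) :
    65536 ^ 2 * SF (fun t => t.2.2.2) dat u ≤ (206158430208 : ℝ) ^ 2 * 32 * hat g4 u := by
  by_cases h : av u = 0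
  · rw [SF_zero _ (eq_zero_of_av hu h), hat, h]; simp
  have hp := norm_mem hu h
  set p : Fin 4 → ℝ := fun i => u i / av u with hpd
  have hu' : u = fun i => av u * p i := by funext i; simp only [hpd]; field_simp
  have h1 := lev_nonneg4 (p := p) (Φ := PB)
    (fun c hc => fun_nonneg hp (by simp [funs, hc])) (fun c hc => fun_nonneg hp (by simp [funs, hc]))
    (fun c hc => fun_nonneg hp (by simp [funs, hc])) (av_nonneg hu) h4
  rw [← ePB, lev_upoly, utermsB, List.map_append, List.sum_append, List.map_map] at h1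
  have h2 := SF_smul (fun t => t.2.2.2) (-65536) (av u) hp
  rw [← hu'] at h2
  have h3 : dotR vg (mu p) = 206158430208 * g4 p := by rw [mu_spx hp, dot_vg, g4]
  simp only [neg_mul] at h2
  simp only [Function.comp_def, h2, List.map_cons, List.map_nil, List.sum_cons, List.sum_nil, h3,
    ME] at h1
  push_cast at h1
  unfold hat
  linarith

theorem mul_perm_nonneg {p p' : Fin 4 → ℝ} (hp : p ∈ Spx 4) (hp' : p' ∈ Spx 4)
    (σ : Equiv.Perm (Fin 4)) (i : Fin 4) : 0 ≤ p i * p' (σ i) := mul_nonneg (hp.1 i) (hp'.1 _)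

theorem av_perm_le {p p' : Fin 4 → ℝ} (hp : p ∈ Spx 4) (hp' : p' ∈ Spx 4)
    (σ : Equiv.Perm (Fin 4)) : av (fun i => p i * p' (σ i)) ≤ 4 := by
  exact_mod_cast av_mul_le hp (perm_mem hp' σ)

theorem ptA4 {p p' : Fin 4 → ℝ} (hp : p ∈ Spx 4) (hp' : p' ∈ Spx 4) :
    ∑ σ : Equiv.Perm (Fin 4), hat chi (fun i => p i * p' (σ i)) ≤
      24 * (chi p + chi p' - a4 p * g4 p' - g4 p * a4 p'
        - 1 / 256 * (chi p * chi p' * (chi p + chi p'))) := by
  have h1 : 0 ≤ bil QA (mu p) (mu p') := cov hp _ (chkQ_sound (cov hp') hQA)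
  rw [← eQA, bil_form, termsA, List.map_append, List.sum_append, List.map_map] at h1
  have h2 := SF_bil (fun t => t.2.2.1) (-1) hp hp'
  simp only [neg_mul, one_mul] at h2
  simp only [Function.comp_def, h2] at h1
  simp only [List.map_cons, List.map_nil, List.sum_cons, List.sum_nil, mu_spx hp, mu_spx hp',
    dot_v1, dot_vx, dot_vxx, dot_vg, dot_va, E24, e24] at h1
  have h3 := Finset.sum_le_sum fun σ (_ : σ ∈ (Finset.univ : Finset (Equiv.Perm (Fin 4)))) =>
    relaxA (mul_perm_nonneg hp hp' σ) (av_perm_le hp hp' σ)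
  rw [← Finset.mul_sum, ← Finset.mul_sum] at h3
  push_cast at h1
  unfold a4 g4
  linarith

theorem ptB4 {p p' : Fin 4 → ℝ} (hp : p ∈ Spx 4) (hp' : p' ∈ Spx 4) :
    24 * (b4 p * g4 p' + g4 p * b4 p') ≤
      ∑ σ : Equiv.Perm (Fin 4), hat g4 (fun i => p i * p' (σ i)) := by
  have h1 : 0 ≤ bil QB (mu p) (mu p') := cov hp _ (chkQ_sound (cov hp') hQB)
  rw [← eQB, bil_form, termsB, List.map_append, List.sum_append, List.map_map] at h1
  have h2 := SF_bil (fun t => t.2.2.2) 1 hp hp'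
  simp only [one_mul] at h2
  simp only [Function.comp_def, h2] at h1
  simp only [List.map_cons, List.map_nil, List.sum_cons, List.sum_nil, mu_spx hp, mu_spx hp',
    dot_vg, dot_vb, E24] at h1
  have h3 := Finset.sum_le_sum fun σ (_ : σ ∈ (Finset.univ : Finset (Equiv.Perm (Fin 4)))) =>
    relaxB (mul_perm_nonneg hp hp' σ) (av_perm_le hp hp' σ)
  rw [← Finset.mul_sum, ← Finset.mul_sum] at h3
  push_cast at h1
  have e1 : b4 p * g4 p' + g4 p * b4 p' = bF (chi p) (thr p) (fou p) * gF (chi p') (thr p') (fou p')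
    + gF (chi p) (thr p) (fou p) * bF (chi p') (thr p') (fou p') := rfl
  rw [e1]
  linarith

theorem g4_ch {lam : ℝ} (h0 : 0 ≤ lam) (h1 : lam ≤ 1) {p : Fin 4 → ℝ} (hp : p ∈ Spx 4) :
    lam ^ 3 * g4 p ≤ g4 (ch lam p) := by
  have e2 : chi (ch lam p) = lam ^ 2 * chi p := by
    simp only [chi, ch_sub_one lam hp, mul_pow, ← Finset.mul_sum]; ring
  have e3 : thr (ch lam p) = lam ^ 3 * thr p := by
    simp only [thr, ch_sub_one lam hp, mul_pow, ← Finset.mul_sum]; ring
  have e4 : fou (ch lam p) = lam ^ 4 * fou p := by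
    simp only [fou, ch_sub_one lam hp, mul_pow, ← Finset.mul_sum]; ring
  have k0 := fun_nonneg hp (c := n0) (by simp [funs])
  have k1 := fun_nonneg hp (c := n1) (by simp [funs])
  have k2 := fun_nonneg hp (c := n2) (by simp [funs])
  rw [mu_spx hp, dot_n0] at k0
  rw [mu_spx hp, dot_n1] at k1
  rw [mu_spx hp, dot_n2] at k2
  have key : g4 (ch lam p) - lam ^ 3 * g4 p = lam ^ 3 * (1 - lam) *
      ((1 - lam) ^ 2 * (-(G4 (chi p) (fou p) + G5 (chi p) (thr p) + G6 (chi p) (thr p) (fou p)))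
      + lam * (1 - lam) *
        (-(2 * G4 (chi p) (fou p) + 3 * G5 (chi p) (thr p) + 3 * G6 (chi p) (thr p) (fou p)))
      + lam ^ 2 *
        (-(G4 (chi p) (fou p) + 2 * G5 (chi p) (thr p) + 3 * G6 (chi p) (thr p) (fou p)))) := by
    simp only [g4, gF, e2, e3, e4, G4, G5, G6]; ring
  have j0 := (mul_nonneg_iff_of_pos_left (by norm_num : (0 : ℝ) < 206158430208)).1 k0
  have j1 := (mul_nonneg_iff_of_pos_left (by norm_num : (0 : ℝ) < 206158430208)).1 k1
  have j2 := (mul_nonneg_iff_of_pos_left (by norm_num : (0 : ℝ) < 206158430208)).1 k2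
  have h2 : 0 ≤ 1 - lam := by linarith
  rw [← sub_nonneg, key]
  positivity

theorem cont_moments : Continuous (chi : (Fin 4 → ℝ) → ℝ) ∧ Continuous (thr : (Fin 4 → ℝ) → ℝ) ∧
    Continuous fou := by
  refine ⟨?_, ?_, ?_⟩
  · unfold chi; fun_prop
  · unfold thr; fun_prop
  · unfold fou; fun_prop

theorem bd_g4 : Bd g4 := by
  obtain ⟨h1, h2, h3⟩ := cont_moments
  refine Bd.of_continuous ?_
  unfold g4 gF G4 G5 G6; fun_prop

theorem bd_a4 : Bd a4 := by
  obtain ⟨h1, h2, h3⟩ := cont_moments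
  refine Bd.of_continuous ?_
  unfold a4 aF; fun_prop

theorem bd_b4 : Bd b4 := by
  obtain ⟨h1, h2, h3⟩ := cont_moments
  refine Bd.of_continuous ?_
  unfold b4 bF; fun_prop

theorem a4_nonneg {p : Fin 4 → ℝ} (hp : p ∈ Spx 4) : 0 ≤ a4 p := by
  have k := fun_nonneg hp (c := va) (by simp [funs])
  rw [mu_spx hp, dot_va] at k
  exact (mul_nonneg_iff_of_pos_left (by norm_num : (0 : ℝ) < 206158430208)).1 k

theorem b4_nonneg {p : Fin 4 → ℝ} (hp : p ∈ Spx 4) : 0 ≤ b4 p := by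
  have k := fun_nonneg hp (c := vb) (by simp [funs])
  rw [mu_spx hp, dot_vb] at k
  exact (mul_nonneg_iff_of_pos_left (by norm_num : (0 : ℝ) < 206158430208)).1 k

theorem g4_vtx (o : Fin 4) : 0 ≤ g4 (vtx o) := by
  have e2 : chi (vtx o) = 3 := by
    fin_cases o <;> (simp [chi, vtx, Fin.sum_univ_four]; norm_num)
  have e3 : thr (vtx o) = 6 := by
    fin_cases o <;> (simp [thr, vtx, Fin.sum_univ_four]; norm_num)
  have e4 : fou (vtx o) = 21 := by
    fin_cases o <;> (simp [fou, vtx, Fin.sum_univ_four]; norm_num)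
  simp only [g4, gF, e2, e3, e4, G4, G5, G6]
  norm_num

theorem cert4 {lam : ℝ} (h0 : 0 ≤ lam) (h1 : lam ≤ 1) : Nonempty (Cert 4 lam) :=
  ⟨{ g := g4, h := g4, a := a4, a' := a4, b := b4, b' := b4, eps := 1 / 256, be := 0, be' := 0,
     c := lam ^ 3, eps_pos := by norm_num, be_nonneg := le_rfl, be'_nonneg := le_rfl,
     c_nonneg := by positivity, bd_g := bd_g4, bd_h := bd_g4, bd_a := bd_a4, bd_a' := bd_a4,
     bd_b := bd_b4, bd_b' := bd_b4, a_nonneg := fun _ => a4_nonneg, a'_nonneg := fun _ => a4_nonneg,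
     b_nonneg := fun _ => b4_nonneg, b'_nonneg := fun _ => b4_nonneg,
     g_one := by simp [g4, gF, G4, G5, G6, chi, thr, fou],
     g_vtx := g4_vtx, g_ch := fun _ hp => g4_ch h0 h1 hp,
     ptA := fun p hp p' hp' => by
       have := ptA4 hp hp'
       norm_num [Nat.factorial] at this ⊢
       linarith,
     ptB := fun p hp p' hp' => by
       have := ptB4 hp hp'
       norm_num [Nat.factorial] at this ⊢
       linarith }⟩

end Crest.Agent.R163
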