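import Crest.Agent.R163.ExD

/-!
# Chi-square is subadditive on an invariant class

A certificate consists of a function `g` (class of vertex laws and partial products: `0 ≤ E L g`)
and a function `h` (class of messages, i.e. laws seen through the channel: `0 ≤ E L h`) with two
pointwise inequalities for a message `p` and a partial product `p'`.
-/

set_option autoImplicit false

namespace Crest.Agent.R163

open Crest.ProbabilityR.Broadcast

/-- the pointwise data behind non-reconstruction -/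
structure Cert (q : ℕ) (lam : ℝ) where
  g : (Fin q → ℝ) → ℝ
  h : (Fin q → ℝ) → ℝ
  a : (Fin q → ℝ) → ℝ
  a' : (Fin q → ℝ) → ℝ
  b : (Fin q → ℝ) → ℝ
  b' : (Fin q → ℝ) → ℝ
  eps : ℝ
  be : ℝ
  be' : ℝ
  c : ℝ
  eps_pos : 0 < eps
  be_nonneg : 0 ≤ be
  be'_nonneg : 0 ≤ be'
  c_nonneg : 0 ≤ c
  bd_g : Bd g
  bd_h : Bd h
  bd_a : Bd a
  bd_a' : Bd a'
  bd_b : Bd b
  bd_b' : Bd b'
  a_nonneg : ∀ p ∈ Spx q, 0 ≤ a p
  a'_nonneg : ∀ p ∈ Spx q, 0 ≤ a' p
  b_nonneg : ∀ p ∈ Spx q, 0 ≤ b p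
  b'_nonneg : ∀ p ∈ Spx q, 0 ≤ b' p
  g_one : 0 ≤ g (fun _ => 1)
  g_vtx : ∀ o, 0 ≤ g (vtx o)
  g_ch : ∀ p ∈ Spx q, c * g p ≤ h (ch lam p)
  ptA : ∀ p ∈ Spx q, ∀ p' ∈ Spx q,
    ∑ σ : Equiv.Perm (Fin q), hat chi (fun i => p i * p' (σ i)) ≤
      (Nat.factorial q : ℝ) * (chi p + chi p' - a p * g p' - h p * a' p' - be * (h p * g p')
        - eps * (chi p * chi p' * (chi p + chi p')))
  ptB : ∀ p ∈ Spx q, ∀ p' ∈ Spx q,
    (Nat.factorial q : ℝ) * (b p * g p' + h p * b' p' + be' * (h p * g p')) ≤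
      ∑ σ : Equiv.Perm (Fin q), hat g (fun i => p i * p' (σ i))

variable {q : ℕ} [NeZero q] {Ω Ω' : Type*} {lam : ℝ}

theorem Cert.leaf (C : Cert q lam) : 0 ≤ E (leaf q) C.g := by
  rw [E_leaf]
  exact div_nonneg (Finset.sum_nonneg fun o _ => C.g_vtx o) (Nat.cast_nonneg _)

theorem Cert.triv (C : Cert q lam) : 0 ≤ E (triv q) C.g := by
  rw [E_triv]
  exact C.g_one

theorem Cert.chL (C : Cert q lam) (hc : ∀ i j : Fin q, 0 ≤ channel q lam i j)
    {L : Ω → Fin q → ℝ} (hL : Ex L) (hg : 0 ≤ E L C.g) : 0 ≤ E (chL lam L) C.h := by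
  rw [E_chL lam hL]
  have h1 := E_mono hL (C.bd_g.const_mul C.c) (C.bd_h.ch hc) C.g_ch
  rw [E_const_mul] at h1
  exact (mul_nonneg C.c_nonneg hg).trans h1

/-- `pair_ge` with three products. -/
theorem Cert.pr_g (C : Cert q lam) {L : Ω → Fin q → ℝ} {L' : Ω' → Fin q → ℝ} (hL : Ex L)
    (hL' : Ex L') (hh : 0 ≤ E L C.h) (hg : 0 ≤ E L' C.g) : 0 ≤ E (pr L L') C.g := by
  have h1 := pair_ge hL hL' C.bd_g (ι := Fin 3) ![C.b, C.h, fun p => C.be' * C.h p]
    ![C.g, C.b', C.g]
    (fun k => by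
      fin_cases k
      exacts [C.bd_b, C.bd_h, C.bd_h.const_mul _])
    (fun k => by
      fin_cases k
      exacts [C.bd_g, C.bd_b', C.bd_g])
    (fun p hp p' hp' => by
      refine le_trans (le_of_eq ?_) (C.ptB p hp p' hp')
      simp only [Fin.sum_univ_three, Matrix.cons_val_zero, Matrix.cons_val_one, Matrix.cons_val]
      ring)
  simp only [Fin.sum_univ_three, Matrix.cons_val_zero, Matrix.cons_val_one, Matrix.cons_val,
    E_const_mul] at h1
  have h2 := mul_nonneg (E_nonneg hL C.b_nonneg) hg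
  have h3 := mul_nonneg hh (E_nonneg hL' C.b'_nonneg)
  have h4 := mul_nonneg (mul_nonneg C.be'_nonneg hh) hg
  linarith

/-- `pair_le` with seven products (`ι = Fin 7`), then `sq_E_le` for `E chi^2`. -/
theorem Cert.pr_chi (C : Cert q lam) {L : Ω → Fin q → ℝ} {L' : Ω' → Fin q → ℝ} (hL : Ex L)
    (hL' : Ex L') (hh : 0 ≤ E L C.h) (hg : 0 ≤ E L' C.g) :
    E (pr L L') chi ≤ E L chi + E L' chi
      - C.eps * (E L chi * E L' chi * (E L chi + E L' chi)) := by
  have h2 : Bd fun p : Fin q → ℝ => chi p ^ 2 := by simpa only [sq] using Bd.chi.mul Bd.chi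
  have h1 := pair_le hL hL' Bd.chi (ι := Fin 7)
    ![chi, fun _ => 1, fun p => -C.a p, fun p => -C.h p, fun p => -C.be * C.h p,
      fun p => -C.eps * chi p ^ 2, fun p => -C.eps * chi p]
    ![fun _ => 1, chi, C.g, C.a', C.g, chi, fun p => chi p ^ 2]
    (fun k => by
      fin_cases k
      exacts [Bd.chi, Bd.const 1, C.bd_a.neg, C.bd_h.neg, C.bd_h.const_mul _, h2.const_mul _,
        Bd.chi.const_mul _])
    (fun k => by
      fin_cases k
      exacts [Bd.const 1, Bd.chi, C.bd_g, C.bd_a', C.bd_g, Bd.chi, h2])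
    (fun p hp p' hp' => by
      refine le_trans (C.ptA p hp p' hp') (le_of_eq ?_)
      simp only [Fin.sum_univ_seven, Matrix.cons_val_zero, Matrix.cons_val_one, Matrix.cons_val]
      ring)
  simp only [Fin.sum_univ_seven, Matrix.cons_val_zero, Matrix.cons_val_one, Matrix.cons_val,
    E_const_mul, E_neg, E_const hL, E_const hL'] at h1
  have h3 := mul_nonneg (E_nonneg hL C.a_nonneg) hg
  have h4 := mul_nonneg hh (E_nonneg hL' C.a'_nonneg)
  have h5 := mul_nonneg (mul_nonneg C.be_nonneg hh) hg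
  have h6 := mul_le_mul_of_nonneg_left (sq_E_le hL Bd.chi)
    (mul_nonneg C.eps_pos.le (E_chi_nonneg hL'))
  have h7 := mul_le_mul_of_nonneg_left (sq_E_le hL' Bd.chi)
    (mul_nonneg C.eps_pos.le (E_chi_nonneg hL))
  linarith

theorem Cert.pw_g (C : Cert q lam) {L : Ω → Fin q → ℝ} (hL : Ex L) (hh : 0 ≤ E L C.h) (c : ℕ) :
    0 ≤ E (pw c L) C.g := by
  induction c with
  | zero =>
    obtain ⟨e, he⟩ := pw_zero L
    rw [he, E_equiv (R163.triv q) e]
    exact C.triv
  | succ c ih =>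
    obtain ⟨e, he⟩ := pw_succ c L
    rw [he, E_equiv (pr L (pw c L)) e]
    exact C.pr_g hL (hL.pw c) hh ih

/-- Induction on `c` with `pw_succ`; `E (pw 0 L) chi = 0`, `E (pw 1 L) chi = E L chi` (`≤` by
`pr_chi`, `≥` by `chi_le_pr`), so `c = 2` gains `2 eps X^3`; afterwards plain subadditivity. -/
theorem Cert.pw_chi (C : Cert q lam) {L : Ω → Fin q → ℝ} (hL : Ex L) (hh : 0 ≤ E L C.h) (c : ℕ) :
    E (pw c L) chi ≤ c * E L chi - (if 2 ≤ c then 2 * C.eps * (E L chi) ^ 3 else 0) := by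
  have hX := E_chi_nonneg hL
  induction c with
  | zero =>
    obtain ⟨e, he⟩ := pw_zero L
    rw [he, E_equiv (R163.triv q) e, E_triv]
    simp [chi]
  | succ c ih =>
    obtain ⟨e, he⟩ := pw_succ c L
    have h1 := C.pr_chi hL (hL.pw c) hh (C.pw_g hL hh c)
    have hY := E_chi_nonneg (hL.pw c)
    have h2 := mul_nonneg C.eps_pos.le (mul_nonneg (mul_nonneg hX hY) (add_nonneg hX hY))
    rw [he, E_equiv (pr L (pw c L)) e]
    push_cast
    by_cases h3 : 2 ≤ c
    · rw [if_pos h3] at ih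
      rw [if_pos (by omega)]
      linarith
    · rw [if_neg h3] at ih
      by_cases h4 : c = 1
      · subst h4
        have h5 : E L chi ≤ E (pw 1 L) chi := by
          obtain ⟨e', he'⟩ := pw_succ 0 L
          rw [he', E_equiv (pr L (pw 0 L)) e']
          exact chi_le_pr hL (hL.pw 0)
        have h6 : E (pw 1 L) chi = E L chi := le_antisymm (by simpa using ih) h5
        rw [h6] at h1
        rw [if_pos le_rfl]
        push_cast
        linarith
      · rw [if_neg (by omega)]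
        linarith

theorem Cert.mixL_g (C : Cert q lam) {a : ℕ → ℝ} (ha : ∀ c, 0 ≤ a c) (h1 : HasSum a 1)
    {L : Ω → Fin q → ℝ} (hL : Ex L) (hh : 0 ≤ E L C.h) : 0 ≤ E (mixL a L) C.g := by
  exact (hasSum_mixL ha h1 hL C.bd_g).nonneg fun c => mul_nonneg (ha c) (C.pw_g hL hh c)

/-- keep only the gain of the term `c = 2`. -/
theorem Cert.mixL_chi (C : Cert q lam) {a : ℕ → ℝ} (ha : ∀ c, 0 ≤ a c) (h1 : HasSum a 1) {d : ℝ}
    (hd : HasSum (fun c : ℕ => a c * c) d) {L : Ω → Fin q → ℝ} (hL : Ex L) (hh : 0 ≤ E L C.h) :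
    E (mixL a L) chi ≤ d * E L chi - a 2 * (2 * C.eps * (E L chi) ^ 3) := by
  have hX := E_chi_nonneg hL
  have h0 : 0 ≤ 2 * C.eps * (E L chi) ^ 3 := by have := C.eps_pos; positivity
  refine hasSum_le (fun c => ?_) (hasSum_mixL ha h1 hL Bd.chi)
    ((hd.mul_right (E L chi)).sub (hasSum_ite_eq 2 (a 2 * (2 * C.eps * (E L chi) ^ 3))))
  have h2 := mul_le_mul_of_nonneg_left (C.pw_chi hL hh c) (ha c)
  by_cases h3 : c = 2
  · subst h3
    rw [if_pos le_rfl] at h2
    rw [if_pos rfl]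
    linarith
  · rw [if_neg h3]
    have h4 : 0 ≤ a c * (if 2 ≤ c then 2 * C.eps * (E L chi) ^ 3 else 0) := by
      refine mul_nonneg (ha c) ?_
      split_ifs
      exacts [h0, le_rfl]
    linarith

/-- With `X l = E (regL l) chi`: `X (l+1) ≤ b lam^2 X l - 2 eps lam^6 (X l)^3`; apply
`tendsto_zero_of_cubic` (if `lam = 0` then `ρ = 0 < 1`), `tendsto_adv_of_chi`, `advantage_eq`. -/
theorem Cert.reg (C : Cert q lam) (hc : ∀ i j : Fin q, 0 ≤ channel q lam i j) {b : ℕ}
    (hb : 2 ≤ b) (hks : (b : ℝ) * lam ^ 2 ≤ 1) :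
    Filter.Tendsto (advantage q b lam) Filter.atTop (nhds 0) := by
  have hE := Ex.regL hc b
  have hg : ∀ l, 0 ≤ E (regL q b lam l) C.g := by
    intro l
    induction l with
    | zero =>
      obtain ⟨e, he⟩ := regL_zero (q := q) b lam
      rw [he, E_equiv (R163.leaf q) e]
      exact C.leaf
    | succ l ih =>
      obtain ⟨e, he⟩ := regL_succ (q := q) b lam l
      rw [he, E_equiv (pw b (R163.chL lam (regL q b lam l))) e]
      exact C.pw_g ((hE l).chL hc) (C.chL hc (hE l) ih) b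
  have he := C.eps_pos
  have h1 := tendsto_zero_of_cubic (fun l => E (regL q b lam l) chi) (b * lam ^ 2)
    (2 * C.eps * lam ^ 6) (fun l => E_chi_nonneg (hE l)) hks (by positivity)
    (by
      by_cases h0 : lam = 0
      · left; simp [h0]
      · right; positivity)
    (fun l => by
      obtain ⟨e, he⟩ := regL_succ (q := q) b lam l
      have h2 := C.pw_chi ((hE l).chL hc) (C.chL hc (hE l) (hg l)) b
      rw [if_pos hb, chi_chL lam (hE l)] at h2
      rw [he, E_equiv (pw b (R163.chL lam (regL q b lam l))) e]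
      linarith)
  rw [show advantage q b lam = fun l => E (regL q b lam l) advf from funext (advantage_eq hc b)]
  exact tendsto_adv_of_chi _ hE h1

theorem Cert.gw (C : Cert q lam) (hc : ∀ i j : Fin q, 0 ≤ channel q lam i j) {d : ℝ}
    (hd : 0 < d) (hks : d * lam ^ 2 ≤ 1) :
    Filter.Tendsto (gwAdvantage q lam d) Filter.atTop (nhds 0) := by
  have hE := Ex.gwL hc hd.le
  have ha := pois_nonneg hd.le
  have hg : ∀ l, 0 ≤ E (gwL q lam d l) C.g := by
    intro l
    induction l with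
    | zero =>
      rw [gwL_zero]
      exact C.leaf
    | succ l ih =>
      rw [gwL_succ]
      exact C.mixL_g ha (hasSum_pois d) ((hE l).chL hc) (C.chL hc (hE l) ih)
  have he := C.eps_pos
  have hp : 0 < pois d 2 := by unfold pois; positivity
  have h1 := tendsto_zero_of_cubic (fun l => E (gwL q lam d l) chi) (d * lam ^ 2)
    (pois d 2 * (2 * C.eps * lam ^ 6)) (fun l => E_chi_nonneg (hE l)) hks (by positivity)
    (by
      by_cases h0 : lam = 0
      · left; simp [h0]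
      · right; positivity)
    (fun l => by
      have h2 := C.mixL_chi ha (hasSum_pois d) (hasSum_pois_mul d) ((hE l).chL hc)
        (C.chL hc (hE l) (hg l))
      rw [chi_chL lam (hE l)] at h2
      rw [gwL_succ]
      linarith)
  rw [show gwAdvantage q lam d = fun l => E (gwL q lam d l) advf from
    funext (gwAdvantage_eq hc hd.le)]
  exact tendsto_adv_of_chi _ hE h1

end Crest.Agent.R163
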