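import Mathlib
import Crest.Prelude.Def_Broadcast
import Crest.Prelude.Def_TreeBroadcast

/-!
# Row 163 (Potts broadcasting): experiments

An *experiment* is a family `L : Ω → Fin q → ℝ` of likelihood vectors (`L o i` = probability of
the observation `o` given root spin `i`).  The posterior attached to `o` is the normalised vector
`L o / av (L o)`, a point of `Spx q` (nonnegative, average one), and it has probability
`av (L o)`.  `E L φ` is the expectation of `φ` of the posterior.
-/

set_option autoImplicit false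

namespace Crest.Agent.R163

open Crest.ProbabilityR.Broadcast

/-- average of the coordinates -/
noncomputable def av {q : ℕ} (u : Fin q → ℝ) : ℝ := (∑ i, u i) / q

/-- normalised posteriors: nonnegative vectors with average one -/
def Spx (q : ℕ) : Set (Fin q → ℝ) := {p | (∀ i, 0 ≤ p i) ∧ ∑ i, p i = (q : ℝ)}

/-- the 1-homogeneous extension of `φ` from `Spx q` to the cone (zero at zero) -/
noncomputable def hat {q : ℕ} (φ : (Fin q → ℝ) → ℝ) (u : Fin q → ℝ) : ℝ :=
  av u * φ (fun i => u i / av u)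

/-- bounded on `Spx q` -/
def Bd {q : ℕ} (φ : (Fin q → ℝ) → ℝ) : Prop := ∃ C : ℝ, ∀ p ∈ Spx q, |φ p| ≤ C

/-- a symmetric experiment -/
structure Ex {q : ℕ} {Ω : Type*} (L : Ω → Fin q → ℝ) : Prop where
  nonneg : ∀ o i, 0 ≤ L o i
  hasSum : ∀ i, HasSum (fun o => L o i) 1
  sym : ∀ σ : Equiv.Perm (Fin q), ∃ e : Ω ≃ Ω, ∀ o i, L (e o) i = L o (σ i)

/-- expectation of `φ` of the posterior -/
noncomputable def E {q : ℕ} {Ω : Type*} (L : Ω → Fin q → ℝ) (φ : (Fin q → ℝ) → ℝ) : ℝ :=
  ∑' o, hat φ (L o)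

/-- two conditionally independent experiments -/
def pr {q : ℕ} {Ω Ω' : Type*} (L : Ω → Fin q → ℝ) (L' : Ω' → Fin q → ℝ) :
    Ω × Ω' → Fin q → ℝ := fun o i => L o.1 i * L' o.2 i

/-- the channel acting on a likelihood vector -/
noncomputable def ch {q : ℕ} (lam : ℝ) (u : Fin q → ℝ) : Fin q → ℝ :=
  fun i => ∑ j, channel q lam i j * u j

/-- the experiment seen through the channel -/
noncomputable def chL {q : ℕ} {Ω : Type*} (lam : ℝ) (L : Ω → Fin q → ℝ) : Ω → Fin q → ℝ :=
  fun o => ch lam (L o)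

/-- `c` independent copies -/
def pw {q : ℕ} {Ω : Type*} (c : ℕ) (L : Ω → Fin q → ℝ) : (Fin c → Ω) → Fin q → ℝ :=
  fun o i => ∏ m, L (o m) i

/-- the spin itself is observed -/
def leaf (q : ℕ) : Fin q → Fin q → ℝ := fun o i => if o = i then 1 else 0

/-- nothing is observed -/
def triv (q : ℕ) : Unit → Fin q → ℝ := fun _ _ => 1

/-- a random number (law `a`) of independent copies, the number being observed -/
def mixL {q : ℕ} {Ω : Type*} (a : ℕ → ℝ) (L : Ω → Fin q → ℝ) : List Ω → Fin q → ℝ :=
  fun o i => a o.length * (o.map (fun o' => L o' i)).prod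

/-- the regular tree -/
noncomputable def regL (q b : ℕ) (lam : ℝ) (l : ℕ) : ((Fin l → Fin b) → Fin q) → Fin q → ℝ :=
  fun τ i => leafLaw q b lam l i τ

/-- the Poisson tree -/
noncomputable def gwL (q : ℕ) (lam d : ℝ) (l : ℕ) : PObs q l → Fin q → ℝ :=
  fun o i => gwLaw q lam d l i o

/-- Poisson weights -/
noncomputable def pois (d : ℝ) (c : ℕ) : ℝ := Real.exp (-d) * d ^ c / Nat.factorial c

/-- total variation distance of the posterior from the uniform law -/
noncomputable def advf {q : ℕ} (p : Fin q → ℝ) : ℝ := (1 / (2 * q)) * ∑ i, |p i - 1|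

/-- chi-square distance of the posterior from the uniform law -/
noncomputable def chi {q : ℕ} (p : Fin q → ℝ) : ℝ := (∑ i, (p i - 1) ^ 2) / q

/-- third central moment -/
noncomputable def thr {q : ℕ} (p : Fin q → ℝ) : ℝ := (∑ i, (p i - 1) ^ 3) / q

/-- the posterior when the spin is known to be `o` -/
def vtx {q : ℕ} (o : Fin q) : Fin q → ℝ := fun i => if o = i then (q : ℝ) else 0

/-- symmetrised monomial (sum over all permutations) -/
noncomputable def Nm {q : ℕ} (γ : Fin q → ℕ) (p : Fin q → ℝ) : ℝ :=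
  ∑ σ : Equiv.Perm (Fin q), ∏ i, p (σ i) ^ γ i

end Crest.Agent.R163
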