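import Mathlib
import Crest.Prelude.Def_TreeBroadcast

/-!
# From a flow of bounded potential to a lower bound

Let `y v = θ v / lam^(2 depth v)` for `v ≠ root`, `y root = flowMass θ =: m > 0`; then
`y v = ∑_{w child} lam^2 y w` for every `v`.  Let `A v` be the sum of `y u^2` over the non-root
vertices `u` of the path from the root to `v` (`A' 0 v = 0`, `A' (n+1) v = A' n (parent v) + y v^2`,
`A v = A' (depth v) v`).  If `v ≠ root` and `θ v > 0` there is a ray through `v` (go down through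
children with `θ > 0`, up through parents: `ξ n = parent^[depth v - n] v` for `n ≤ depth v`), so
`A v ≤ 1` (finite partial sum of `rayPotential ≤ 1`); thus `y v ≤ 1` for `v ≠ root`, and
`A root = 0`.  Let `Y = max 1 m`, `c0 > 0` with `3 K c0^2 ≤ 1`, and `η > 0` with `8 K η^2 ≤ 1`,
`2 η Y ≤ 3/2`, `2 η Y ≤ lam^2 c0/2`.  Put `ρ v = 1 + 8 K η^2 A v`, `z v = η y v ρ v`; if `y v > 0`
then `1 ≤ ρ v ≤ 2`, so always `0 ≤ z v ≤ 2 η Y`.
Claim `z v ≤ U k v` for all `k, v` (induction on `k`).  `k = 0`: `U ≥ X/2 = 3/2`.  Step: if some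
child has `X k w ≥ c0` then `U (k+1) v ≥ X (k+1) v/2 ≥ lam^2 c0/2 ≥ z v`.  Otherwise
`z w ≤ U k w ≤ c0` for all children, `f u = u - K u^3` is increasing on `[0, c0]`, and
`f (z w) = η y w (ρ w - K η^2 y w^2 ρ w^3) ≥ η y w (ρ v + 8Kη^2 y w^2 - 8Kη^2 y w^2) = η y w ρ v`
(trivial if `y w = 0`); sum over `w`.  Conclusion: `X n root ≥ U n root ≥ η m`.
-/

set_option autoImplicit false

namespace Crest.Agent.R163

open Crest.ProbabilityR.TreeBroadcast

theorem down_mono {K c a b : ℝ} (hK : 0 ≤ K) (hc : 3 * K * c ^ 2 ≤ 1) (ha : 0 ≤ a) (hab : a ≤ b)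
    (hb : b ≤ c) : a - K * a ^ 3 ≤ b - K * b ^ 3 := by
  have h1 : a ^ 2 + a * b + b ^ 2 ≤ 3 * c ^ 2 := by nlinarith
  nlinarith [mul_nonneg (sub_nonneg.2 hab)
    (show 0 ≤ 1 - K * (a ^ 2 + a * b + b ^ 2) by nlinarith [mul_le_mul_of_nonneg_left h1 hK])]

theorem down_child {V : Type*} [DecidableEq V] (T : LocFinTree V) {v w : V} :
    w ∈ T.children v ↔ T.depth w = T.depth v + 1 ∧ T.parent w = v := by
  rw [LocFinTree.children, Finset.mem_filter, T.mem_level_iff]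

theorem down_pot {V : Type*} [DecidableEq V] (T : LocFinTree V) (lam : ℝ) (h0 : 0 < lam)
    (θ : V → ℝ) (hθ : IsFlow T θ) (hray : ∀ ξ : ℕ → V, T.IsRay ξ → rayPotential lam θ ξ ≤ 1) :
    ∃ y A : V → ℝ, (∀ v, 0 ≤ y v) ∧ y T.root = flowMass T θ ∧
      (∀ v, y v = ∑ w ∈ T.children v, lam ^ 2 * y w) ∧ (∀ v, 0 ≤ A v) ∧
      (∀ v, ∀ w ∈ T.children v, A w = A v + y w ^ 2) ∧ (∀ v, 0 < y v → A v ≤ 1) ∧
      ∀ v, y v ≤ max 1 (y T.root) := by
  obtain ⟨y, hy⟩ : ∃ y : V → ℝ, ∀ v, y v = (∑ w ∈ T.children v, θ w) / lam ^ (2 * T.depth v) :=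
    ⟨_, fun _ => rfl⟩
  have hr : T.depth T.root = 0 := (T.depth_eq_zero_iff _).2 rfl
  have y0 : ∀ v, 0 ≤ y v := fun v => by
    rw [hy]
    exact div_nonneg (Finset.sum_nonneg fun w _ => hθ.1 w) (by positivity)
  have y1 : ∀ v n, T.depth v = n + 1 → y v = θ v / lam ^ (2 * (n + 1)) := fun v n h => by
    rw [hy, h, ← hθ.2 v fun e => by rw [e, hr] at h; omega]
  have ys : ∀ v, y v = ∑ w ∈ T.children v, lam ^ 2 * y w := fun v => by
    rw [hy, Finset.sum_div]
    refine Finset.sum_congr rfl fun w hw => ?_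
    rw [y1 w _ ((down_child T).1 hw).1, mul_add, pow_add]
    field_simp
  obtain ⟨A, A0, As⟩ : ∃ A : ℕ → V → ℝ, (∀ v, A 0 v = 0) ∧
      ∀ n v, A (n + 1) v = A n (T.parent v) + y v ^ 2 :=
    ⟨fun n => Nat.rec (fun _ => 0) (fun _ a v => a (T.parent v) + y v ^ 2) n, fun _ => rfl,
      fun _ _ => rfl⟩
  have A1 : ∀ n v, 0 ≤ A n v := fun n => by
    induction n with
    | zero => exact fun v => (A0 v).ge
    | succ n ih => exact fun v => As n v ▸ add_nonneg (ih _) (sq_nonneg _)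
  have hp : ∀ v n, T.depth v = n + 1 → T.depth (T.parent v) = n := fun v n h => by
    have := T.depth_parent v fun e => by rw [e, hr] at h; omega
    omega
  have key : ∀ n (ζ : ℕ → V), T.depth (ζ 0) = n → (∀ i, ζ (i + 1) ∈ T.children (ζ i)) →
      ENNReal.ofReal (A n (ζ 0)) + ∑' i, ENNReal.ofReal (y (ζ (i + 1)) ^ 2) ≤ 1 := by
    intro n
    induction n with
    | zero =>
      intro ζ h1 h2
      have h3 : ∀ i, T.depth (ζ i) = i := fun i => by
        induction i with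
        | zero => exact h1
        | succ i ih => rw [((down_child T).1 (h2 i)).1, ih]
      rw [A0, ENNReal.ofReal_zero, zero_add]
      refine le_trans (le_of_eq ?_) (hray ζ ⟨(T.depth_eq_zero_iff _).1 h1, h2⟩)
      exact tsum_congr fun i => by rw [y1 _ i (h3 _)]
    | succ n ih =>
      intro ζ h1 h2
      have h3 := ih (fun i => Nat.casesOn i (T.parent (ζ 0)) ζ) (hp _ _ h1) fun i => by
        cases i with
        | zero => exact (down_child T).2 ⟨h1.trans (congrArg (· + 1) (hp _ _ h1).symm), rfl⟩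
        | succ i => exact h2 i
      rw [tsum_eq_zero_add' ENNReal.summable] at h3
      rw [As, ENNReal.ofReal_add (A1 _ _) (sq_nonneg _), add_assoc]
      exact h3
  have A2 : ∀ v, 0 < y v → A (T.depth v) v ≤ 1 := fun v hv => by
    have h1 : ∀ u : {u // 0 < y u}, ∃ w : {u // 0 < y u}, w.1 ∈ T.children u.1 := fun u => by
      obtain ⟨w, hw, h2⟩ := Finset.exists_ne_zero_of_sum_ne_zero ((ys u.1).symm.trans_ne u.2.ne')
      exact ⟨⟨w, (y0 w).lt_of_ne' (right_ne_zero_of_mul h2)⟩, hw⟩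
    choose nx hnx using h1
    exact ENNReal.ofReal_le_one.1 (le_self_add.trans (key _ (fun i => (nx^[i] ⟨v, hv⟩).1) rfl
      fun i => by rw [Function.iterate_succ_apply']; exact hnx _))
  refine ⟨y, fun v => A (T.depth v) v, y0, by rw [hy, hr, mul_zero, pow_zero, div_one, flowMass],
    ys, fun v => A1 _ _, fun v w hw => ?_, A2, fun v => ?_⟩
  · obtain ⟨h1, h2⟩ := (down_child T).1 hw
    simp only [h1, As, h2]
  · rcases h : T.depth v with _ | n
    · exact (T.depth_eq_zero_iff _).1 h ▸ le_max_right _ _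
    · refine le_max_of_le_left (not_lt.1 fun h1 => ?_)
      have h2 := A2 v (one_pos.trans h1)
      rw [h, As] at h2
      nlinarith [A1 n (T.parent v)]

theorem low_of_flow {V : Type*} [DecidableEq V] (T : LocFinTree V) (lam : ℝ) (h0 : 0 < lam)
    (X U : ℕ → V → ℝ) (K : ℝ) (hK : 0 < K) (hX0 : ∀ v, X 0 v = 3) (hXn : ∀ k v, 0 ≤ X k v)
    (hU : ∀ k v, U k v ≤ X k v ∧ X k v ≤ 2 * U k v)
    (hrec : ∀ k v, ∑ w ∈ T.children v, lam ^ 2 * (U k w - K * U k w ^ 3) ≤ U (k + 1) v)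
    (hmono : ∀ k v, ∀ w ∈ T.children v, lam ^ 2 * X k w ≤ X (k + 1) v)
    (θ : V → ℝ) (hθ : IsFlow T θ) (hm : 0 < flowMass T θ)
    (hray : ∀ ξ : ℕ → V, T.IsRay ξ → rayPotential lam θ ξ ≤ 1) :
    ∃ δ : ℝ, 0 < δ ∧ ∀ n, δ ≤ X n T.root := by
  obtain ⟨y, A, y0, yr, ys, A0, As, A1, yY⟩ := down_pot T lam h0 θ hθ hray
  obtain ⟨Y, hY, hY'⟩ : ∃ Y : ℝ, 0 < Y ∧ ∀ v, y v ≤ Y :=
    ⟨max 1 (y T.root), lt_max_of_lt_left one_pos, yY⟩
  obtain ⟨c, c0, c1⟩ : ∃ c : ℝ, 0 < c ∧ 3 * K * c ^ 2 ≤ 1 :=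
    ⟨√(1 / (3 * K)), by positivity, by rw [Real.sq_sqrt (by positivity)]; field_simp; rfl⟩
  obtain ⟨η, η0, η1, η2, η3⟩ : ∃ η : ℝ, 0 < η ∧ 8 * K * η ^ 2 ≤ 1 ∧ η * Y * 2 ≤ 3 / 2 ∧
      η * Y * 2 ≤ lam ^ 2 * c / 2 := by
    have h1 : ∀ (f : ℝ → ℝ) (b : ℝ), Continuous f → f 0 < b →
        ∀ᶠ η in nhdsWithin (0 : ℝ) (Set.Ioi 0), f η ≤ b := fun f b hf hb =>
      ((hf.tendsto 0).eventually (eventually_le_nhds hb)).filter_mono nhdsWithin_le_nhds
    exact ((eventually_mem_nhdsWithin (a := (0 : ℝ)) (s := Set.Ioi 0)).and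
      ((h1 (fun η => 8 * K * η ^ 2) 1 (by fun_prop) (by simp)).and
        ((h1 (fun η => η * Y * 2) _ (by fun_prop) (by simp)).and
          (h1 (fun η => η * Y * 2) _ (by fun_prop) (by simp; positivity))))).exists
  have hρ : ∀ v, 0 < y v → 1 + 8 * K * η ^ 2 * A v ≤ 2 := fun v hv => by
    nlinarith [mul_le_mul η1 (A1 v hv) (A0 v) zero_le_one]
  have hρ0 : ∀ v, 1 ≤ 1 + 8 * K * η ^ 2 * A v := fun v =>
    le_add_of_nonneg_right (mul_nonneg (by positivity) (A0 v))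
  have hz : ∀ v, η * y v * (1 + 8 * K * η ^ 2 * A v) ≤ η * Y * 2 := fun v => by
    rcases (y0 v).eq_or_lt with h | h
    · rw [← h, mul_zero, zero_mul]
      positivity
    · exact mul_le_mul (mul_le_mul_of_nonneg_left (hY' v) η0.le) (hρ v h)
        (zero_le_one.trans (hρ0 v)) (by positivity)
  have key : ∀ k v, η * y v * (1 + 8 * K * η ^ 2 * A v) ≤ U k v := by
    intro k
    induction k with
    | zero => exact fun v => by linarith [hz v, (hU 0 v).2, hX0 v]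
    | succ k ih =>
      intro v
      by_cases hc : ∃ w ∈ T.children v, c ≤ X k w
      · obtain ⟨w, hw, hc⟩ := hc
        linarith [hz v, (hU (k + 1) v).2, hmono k v w hw,
          mul_le_mul_of_nonneg_left hc (sq_nonneg lam)]
      push Not at hc
      refine le_trans ?_ (hrec k v)
      rw [ys v, Finset.mul_sum, Finset.sum_mul]
      refine Finset.sum_le_sum fun w hw => ?_
      rw [mul_left_comm, mul_assoc]
      refine mul_le_mul_of_nonneg_left (le_trans ?_ (down_mono hK.le c1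
        (mul_nonneg (mul_nonneg η0.le (y0 w)) (zero_le_one.trans (hρ0 w))) (ih w)
        ((hU k w).1.trans (hc w hw).le))) (sq_nonneg _)
      rcases (y0 w).eq_or_lt with h | h
      · simp [← h]
      · have h1 := pow_le_pow_left₀ (zero_le_one.trans (hρ0 w)) (hρ w h) 3
        have h2 := mul_le_mul_of_nonneg_left h1 (show 0 ≤ K * (η * y w) ^ 3 by positivity)
        rw [mul_pow, ← mul_assoc K]
        refine le_trans (le_of_eq ?_) (sub_le_sub_left h2 _)
        rw [As v w hw]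
        ring
  refine ⟨η * y T.root, mul_pos η0 (yr ▸ hm), fun n => ?_⟩
  exact (le_mul_of_one_le_right (mul_nonneg η0.le (y0 _)) (hρ0 _)).trans
    ((key n _).trans (hU n _).1)

end Crest.Agent.R163
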