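import Crest.Agent.R163.Defs

/-!
# Basic calculus of `hat`, `Bd`, `E`

All proofs are routine: for `u ≥ 0` either `av u = 0` (then `hat φ u = 0`) or
`u / av u ∈ Spx q`; so `|hat φ u| ≤ C * av u`, and `o ↦ av (L o)` has sum one.
-/

set_option autoImplicit false

namespace Crest.Agent.R163

open Crest.ProbabilityR.Broadcast

variable {q : ℕ} [NeZero q] {Ω Ω' : Type*}

theorem av_nonneg {u : Fin q → ℝ} (hu : ∀ i, 0 ≤ u i) : 0 ≤ av u := by
  exact div_nonneg (Finset.sum_nonneg fun i _ => hu i) (Nat.cast_nonneg _)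

theorem av_of_mem {p : Fin q → ℝ} (hp : p ∈ Spx q) : av p = 1 := by
  rw [av, hp.2, div_self (Nat.cast_ne_zero.2 (NeZero.ne q))]

theorem norm_mem {u : Fin q → ℝ} (hu : ∀ i, 0 ≤ u i) (h : av u ≠ 0) :
    (fun i => u i / av u) ∈ Spx q := by
  refine ⟨fun i => div_nonneg (hu i) (av_nonneg hu), ?_⟩
  have hq : (q : ℝ) ≠ 0 := Nat.cast_ne_zero.2 (NeZero.ne q)
  rw [← Finset.sum_div, div_eq_iff h, av]
  field_simp

theorem eq_zero_of_av {u : Fin q → ℝ} (hu : ∀ i, 0 ≤ u i) (h : av u = 0) (i : Fin q) :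
    u i = 0 := by
  have hq : (q : ℝ) ≠ 0 := Nat.cast_ne_zero.2 (NeZero.ne q)
  have h0 : ∑ i, u i = 0 := by simpa [av, hq] using h
  exact (Finset.sum_eq_zero_iff_of_nonneg fun i _ => hu i).1 h0 i (Finset.mem_univ i)

theorem le_of_mem {p : Fin q → ℝ} (hp : p ∈ Spx q) (i : Fin q) : p i ≤ q := by
  rw [← hp.2]
  exact Finset.single_le_sum (fun i _ => hp.1 i) (Finset.mem_univ i)

theorem one_mem_Spx : (fun _ => (1 : ℝ)) ∈ Spx q := by
  exact ⟨fun _ => zero_le_one, by simp⟩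

theorem vtx_mem (o : Fin q) : vtx o ∈ Spx q := by
  refine ⟨fun i => ?_, by simp [vtx]⟩
  unfold vtx
  split_ifs
  · exact Nat.cast_nonneg _
  · exact le_rfl

theorem perm_mem {p : Fin q → ℝ} (hp : p ∈ Spx q) (σ : Equiv.Perm (Fin q)) :
    (fun i => p (σ i)) ∈ Spx q := by
  exact ⟨fun i => hp.1 _, (Equiv.sum_comp σ p).trans hp.2⟩

theorem hat_of_mem (φ : (Fin q → ℝ) → ℝ) {p : Fin q → ℝ} (hp : p ∈ Spx q) : hat φ p = φ p := by
  simp [hat, av_of_mem hp]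

/-- homogeneity (for `c = 0` both sides vanish; for `c ≠ 0` the normalised vectors agree). -/
theorem hat_smul (φ : (Fin q → ℝ) → ℝ) (c : ℝ) (u : Fin q → ℝ) :
    hat φ (fun i => c * u i) = c * hat φ u := by
  have e : av (fun i => c * u i) = c * av u := by
    simp only [av, ← Finset.mul_sum, mul_div_assoc]
  by_cases hc : c = 0
  · simp [hat, hc, av]
  · simp only [hat, e, mul_div_mul_left _ _ hc, mul_assoc]

theorem abs_hat_le {φ : (Fin q → ℝ) → ℝ} {C : ℝ} (h : ∀ p ∈ Spx q, |φ p| ≤ C)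
    {u : Fin q → ℝ} (hu : ∀ i, 0 ≤ u i) : |hat φ u| ≤ C * av u := by
  by_cases h0 : av u = 0
  · simp [hat, h0]
  · rw [hat, abs_mul, abs_of_nonneg (av_nonneg hu), mul_comm]
    exact mul_le_mul_of_nonneg_right (h _ (norm_mem hu h0)) (av_nonneg hu)

theorem hat_mono {φ ψ : (Fin q → ℝ) → ℝ} (h : ∀ p ∈ Spx q, φ p ≤ ψ p)
    {u : Fin q → ℝ} (hu : ∀ i, 0 ≤ u i) : hat φ u ≤ hat ψ u := by
  by_cases h0 : av u = 0
  · simp [hat, h0]
  · exact mul_le_mul_of_nonneg_left (h _ (norm_mem hu h0)) (av_nonneg hu)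

theorem Bd.const (c : ℝ) : Bd (fun _ : Fin q → ℝ => c) := by
  exact ⟨|c|, fun _ _ => le_rfl⟩

theorem Bd.add {φ ψ : (Fin q → ℝ) → ℝ} (h : Bd φ) (h' : Bd ψ) : Bd (fun p => φ p + ψ p) := by
  obtain ⟨C, hC⟩ := h
  obtain ⟨C', hC'⟩ := h'
  exact ⟨C + C', fun p hp => (abs_add_le _ _).trans (add_le_add (hC p hp) (hC' p hp))⟩

theorem Bd.neg {φ : (Fin q → ℝ) → ℝ} (h : Bd φ) : Bd (fun p => -φ p) := by
  obtain ⟨C, hC⟩ := h
  exact ⟨C, fun p hp => by rw [abs_neg]; exact hC p hp⟩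

theorem Bd.sub {φ ψ : (Fin q → ℝ) → ℝ} (h : Bd φ) (h' : Bd ψ) : Bd (fun p => φ p - ψ p) := by
  simpa only [sub_eq_add_neg] using h.add h'.neg

theorem Bd.mul {φ ψ : (Fin q → ℝ) → ℝ} (h : Bd φ) (h' : Bd ψ) : Bd (fun p => φ p * ψ p) := by
  obtain ⟨C, hC⟩ := h
  obtain ⟨C', hC'⟩ := h'
  exact ⟨C * C', fun p hp => by
    rw [abs_mul]
    exact mul_le_mul (hC p hp) (hC' p hp) (abs_nonneg _) ((abs_nonneg _).trans (hC p hp))⟩

theorem Bd.const_mul {φ : (Fin q → ℝ) → ℝ} (c : ℝ) (h : Bd φ) : Bd (fun p => c * φ p) := by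
  exact (Bd.const c).mul h

theorem Bd.abs {φ : (Fin q → ℝ) → ℝ} (h : Bd φ) : Bd (fun p => |φ p|) := by
  obtain ⟨C, hC⟩ := h
  exact ⟨C, fun p hp => by rw [abs_abs]; exact hC p hp⟩

theorem Bd.sum {ι : Type*} (s : Finset ι) {φ : ι → (Fin q → ℝ) → ℝ} (h : ∀ k ∈ s, Bd (φ k)) :
    Bd (fun p => ∑ k ∈ s, φ k p) := by
  choose! C hC using h
  exact ⟨∑ k ∈ s, C k, fun p hp => (Finset.abs_sum_le_sum_abs _ _).trans
    (Finset.sum_le_sum fun k hk => hC k hk p hp)⟩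

theorem Bd.perm {φ : (Fin q → ℝ) → ℝ} (h : Bd φ) (σ : Equiv.Perm (Fin q)) :
    Bd (fun p => φ (fun i => p (σ i))) := by
  obtain ⟨C, hC⟩ := h
  exact ⟨C, fun p hp => hC _ (perm_mem hp σ)⟩

theorem isCompact_Spx : IsCompact (Spx q) := by
  refine (isCompact_univ_pi fun _ : Fin q => isCompact_Icc (a := (0 : ℝ)) (b := q)).of_isClosed_subset
    ?_ fun p hp i _ => ⟨hp.1 i, le_of_mem hp i⟩
  have : Spx q = (⋂ i, {p : Fin q → ℝ | 0 ≤ p i}) ∩ {p | ∑ i, p i = (q : ℝ)} := by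
    ext p; simp [Spx]
  rw [this]
  exact (isClosed_iInter fun i => isClosed_le continuous_const (continuous_apply i)).inter
    (isClosed_eq (by fun_prop) continuous_const)

theorem Bd.of_continuousOn {φ : (Fin q → ℝ) → ℝ} (h : ContinuousOn φ (Spx q)) : Bd φ := by
  exact isCompact_Spx.exists_bound_of_continuousOn h

theorem Bd.of_continuous {φ : (Fin q → ℝ) → ℝ} (h : Continuous φ) : Bd φ :=
  Bd.of_continuousOn h.continuousOn

theorem Bd.chi : Bd (chi : (Fin q → ℝ) → ℝ) := by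
  exact Bd.of_continuous (by unfold R163.chi; fun_prop)

theorem Bd.thr : Bd (thr : (Fin q → ℝ) → ℝ) := by
  exact Bd.of_continuous (by unfold R163.thr; fun_prop)

theorem Bd.advf : Bd (advf : (Fin q → ℝ) → ℝ) := by
  exact Bd.of_continuous (by unfold R163.advf; fun_prop)

theorem Ex.hasSum_av {L : Ω → Fin q → ℝ} (hL : Ex L) : HasSum (fun o => av (L o)) 1 := by
  have hq : (q : ℝ) ≠ 0 := Nat.cast_ne_zero.2 (NeZero.ne q)
  have := (hasSum_sum fun i (_ : i ∈ Finset.univ) => hL.hasSum i).div_const (q : ℝ)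
  simpa [av, hq] using this

theorem Ex.summable {L : Ω → Fin q → ℝ} (hL : Ex L) {φ : (Fin q → ℝ) → ℝ} (h : Bd φ) :
    Summable (fun o => hat φ (L o)) := by
  obtain ⟨C, hC⟩ := h
  exact Summable.of_norm_bounded (hL.hasSum_av.summable.mul_left C) fun o =>
    abs_hat_le hC (hL.nonneg o)

theorem Ex.hasSum_E {L : Ω → Fin q → ℝ} (hL : Ex L) {φ : (Fin q → ℝ) → ℝ} (h : Bd φ) :
    HasSum (fun o => hat φ (L o)) (E L φ) :=
  (hL.summable h).hasSum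

theorem E_congr {L : Ω → Fin q → ℝ} (hL : Ex L) {φ ψ : (Fin q → ℝ) → ℝ}
    (h : ∀ p ∈ Spx q, φ p = ψ p) : E L φ = E L ψ := by
  exact tsum_congr fun o => le_antisymm (hat_mono (fun p hp => (h p hp).le) (hL.nonneg o))
    (hat_mono (fun p hp => (h p hp).ge) (hL.nonneg o))

theorem E_mono {L : Ω → Fin q → ℝ} (hL : Ex L) {φ ψ : (Fin q → ℝ) → ℝ} (hφ : Bd φ) (hψ : Bd ψ)
    (h : ∀ p ∈ Spx q, φ p ≤ ψ p) : E L φ ≤ E L ψ := by
  exact (hL.summable hφ).tsum_le_tsum (fun o => hat_mono h (hL.nonneg o)) (hL.summable hψ)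

theorem E_nonneg {L : Ω → Fin q → ℝ} (hL : Ex L) {φ : (Fin q → ℝ) → ℝ}
    (h : ∀ p ∈ Spx q, 0 ≤ φ p) : 0 ≤ E L φ := by
  refine tsum_nonneg fun o => ?_
  simpa [hat] using hat_mono (φ := fun _ => 0) h (hL.nonneg o)

theorem E_const {L : Ω → Fin q → ℝ} (hL : Ex L) (c : ℝ) : E L (fun _ => c) = c := by
  simpa [E, hat] using (hL.hasSum_av.mul_right c).tsum_eq

theorem E_add {L : Ω → Fin q → ℝ} (hL : Ex L) {φ ψ : (Fin q → ℝ) → ℝ} (hφ : Bd φ) (hψ : Bd ψ) :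
    E L (fun p => φ p + ψ p) = E L φ + E L ψ := by
  rw [E, E, E, ← (hL.summable hφ).tsum_add (hL.summable hψ)]
  exact tsum_congr fun o => mul_add _ _ _

theorem E_const_mul (L : Ω → Fin q → ℝ) (c : ℝ) (φ : (Fin q → ℝ) → ℝ) :
    E L (fun p => c * φ p) = c * E L φ := by
  rw [E, E, ← tsum_mul_left]
  exact tsum_congr fun o => mul_left_comm _ _ _

theorem E_mul_const (L : Ω → Fin q → ℝ) (c : ℝ) (φ : (Fin q → ℝ) → ℝ) :
    E L (fun p => φ p * c) = E L φ * c := by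
  simpa only [mul_comm] using E_const_mul L c φ

theorem E_neg (L : Ω → Fin q → ℝ) (φ : (Fin q → ℝ) → ℝ) :
    E L (fun p => -φ p) = -E L φ := by
  simpa using E_const_mul L (-1) φ

theorem E_sub {L : Ω → Fin q → ℝ} (hL : Ex L) {φ ψ : (Fin q → ℝ) → ℝ} (hφ : Bd φ) (hψ : Bd ψ) :
    E L (fun p => φ p - ψ p) = E L φ - E L ψ := by
  simp only [sub_eq_add_neg, E_add hL hφ hψ.neg, E_neg]

theorem E_sum {L : Ω → Fin q → ℝ} (hL : Ex L) {ι : Type*} (s : Finset ι)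
    {φ : ι → (Fin q → ℝ) → ℝ} (h : ∀ k ∈ s, Bd (φ k)) :
    E L (fun p => ∑ k ∈ s, φ k p) = ∑ k ∈ s, E L (φ k) := by
  rw [E, ← (hasSum_sum fun k hk => hL.hasSum_E (h k hk)).tsum_eq]
  exact tsum_congr fun o => Finset.mul_sum _ _ _

theorem abs_E_le {L : Ω → Fin q → ℝ} (hL : Ex L) {φ : (Fin q → ℝ) → ℝ} {C : ℝ}
    (h : ∀ p ∈ Spx q, |φ p| ≤ C) : |E L φ| ≤ C := by
  have hφ : Bd φ := ⟨C, h⟩
  have h1 := E_mono hL hφ (Bd.const C) fun p hp => (abs_le.1 (h p hp)).2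
  have h2 := E_mono hL (Bd.const (-C)) hφ fun p hp => (abs_le.1 (h p hp)).1
  rw [E_const hL] at h1 h2
  exact abs_le.2 ⟨h2, h1⟩

/-- Jensen for the square (expand `E (φ - E φ)^2 ≥ 0`). -/
theorem sq_E_le {L : Ω → Fin q → ℝ} (hL : Ex L) {φ : (Fin q → ℝ) → ℝ} (h : Bd φ) :
    (E L φ) ^ 2 ≤ E L (fun p => φ p ^ 2) := by
  have h2 : Bd fun p => φ p ^ 2 := by simpa only [sq] using h.mul h
  have h1 := E_mono hL (((h.const_mul (2 * E L φ))).sub (Bd.const (E L φ ^ 2))) h2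
    fun p _ => by nlinarith [sq_nonneg (φ p - E L φ)]
  rw [E_sub hL (h.const_mul _) (Bd.const _), E_const_mul, E_const hL] at h1
  linarith

theorem E_equiv (L : Ω → Fin q → ℝ) (e : Ω' ≃ Ω) (φ : (Fin q → ℝ) → ℝ) :
    E (fun o => L (e o)) φ = E L φ := by
  exact e.tsum_eq fun o => hat φ (L o)

theorem Ex.equiv {L : Ω → Fin q → ℝ} (hL : Ex L) (e : Ω' ≃ Ω) : Ex (fun o => L (e o)) := by
  refine ⟨fun o i => hL.nonneg _ i, fun i => e.hasSum_iff.2 (hL.hasSum i), fun σ => ?_⟩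
  obtain ⟨f, hf⟩ := hL.sym σ
  exact ⟨(e.trans f).trans e.symm, fun o i => by simp [hf]⟩

theorem E_perm {L : Ω → Fin q → ℝ} (hL : Ex L) (σ : Equiv.Perm (Fin q))
    (φ : (Fin q → ℝ) → ℝ) : E L (fun p => φ (fun i => p (σ i))) = E L φ := by
  obtain ⟨f, hf⟩ := hL.sym σ
  rw [← E_equiv L f φ]
  refine tsum_congr fun o => ?_
  have e : av (L (f o)) = av (L o) := by
    simp only [av, hf]
    rw [Equiv.sum_comp σ (L o)]
  simp only [hat, e, hf]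

/-- symmetrisation -/
theorem E_symm {L : Ω → Fin q → ℝ} (hL : Ex L) {φ : (Fin q → ℝ) → ℝ} (h : Bd φ) :
    E L (fun p => ∑ σ : Equiv.Perm (Fin q), φ (fun i => p (σ i)))
      = (Nat.factorial q : ℝ) * E L φ := by
  rw [E_sum hL _ fun σ _ => h.perm σ]
  simp [E_perm hL, Fintype.card_perm]

end Crest.Agent.R163
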