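import Crest.Agent.R163.ExA

/-!
# Products of experiments

`E_pr`: write `L o = av (L o) • p`, `L' o' = av (L' o') • p'` and use `hat_smul` twice (if one
average vanishes, that vector is zero and so is the product); summability on `Ω × Ω'` from
`|hat φ (u * u')| ≤ C * av (u * u')` and `Ex.pr`; then `Summable.tsum_prod`.
`pair_le`: by `E_pr` and `E_symm` (applied to `L'`), then `E_mono` twice and linearity.
For `p, p' ∈ Spx q` one has `av (p * p') ≤ q`, so `|hat φ (p * p')| ≤ C * q`.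
-/

set_option autoImplicit false

namespace Crest.Agent.R163

open Crest.ProbabilityR.Broadcast

variable {q : ℕ} [NeZero q] {Ω Ω' : Type*}

theorem av_mul_le {p p' : Fin q → ℝ} (hp : p ∈ Spx q) (hp' : p' ∈ Spx q) :
    av (fun i => p i * p' i) ≤ q := by
  have hq : (0 : ℝ) < q := Nat.cast_pos.2 (Nat.pos_of_ne_zero (NeZero.ne q))
  unfold av
  rw [div_le_iff₀ hq]
  calc ∑ i, p i * p' i ≤ ∑ i, p i * q :=
        Finset.sum_le_sum fun i _ => mul_le_mul_of_nonneg_left (le_of_mem hp' i) (hp.1 i)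
    _ = q * q := by rw [← Finset.sum_mul, hp.2]

theorem Ex.pr {L : Ω → Fin q → ℝ} {L' : Ω' → Fin q → ℝ} (hL : Ex L) (hL' : Ex L') :
    Ex (pr L L') := by
  refine ⟨fun o i => mul_nonneg (hL.nonneg _ _) (hL'.nonneg _ _), fun i => ?_, fun σ => ?_⟩
  · have := (hL.hasSum i).mul (hL'.hasSum i)
      ((hL.hasSum i).summable.mul_of_nonneg (hL'.hasSum i).summable (fun o => hL.nonneg o i)
        (fun o => hL'.nonneg o i))
    rw [one_mul] at this
    exact this
  · obtain ⟨e, he⟩ := hL.sym σ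
    obtain ⟨e', he'⟩ := hL'.sym σ
    exact ⟨e.prodCongr e', fun o i => by simp [R163.pr, he, he']⟩

theorem ExB_mul_div {u : Fin q → ℝ} (hu : ∀ i, 0 ≤ u i) (i : Fin q) :
    av u * (u i / av u) = u i := by
  by_cases h0 : av u = 0
  · rw [h0, zero_mul, eq_zero_of_av hu h0]
  · field_simp

theorem ExB_hat_mul (φ : (Fin q → ℝ) → ℝ) {u u' : Fin q → ℝ} (hu : ∀ i, 0 ≤ u i)
    (hu' : ∀ i, 0 ≤ u' i) :
    hat φ (fun i => u i * u' i) =
      av u * (av u' * hat φ (fun i => u i / av u * (u' i / av u'))) := by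
  rw [← hat_smul, ← hat_smul]
  congr 1
  funext i
  calc u i * u' i = (av u * (u i / av u)) * (av u' * (u' i / av u')) := by
        rw [ExB_mul_div hu, ExB_mul_div hu']
    _ = _ := by ring

theorem E_pr {L : Ω → Fin q → ℝ} {L' : Ω' → Fin q → ℝ} (hL : Ex L) (hL' : Ex L')
    {φ : (Fin q → ℝ) → ℝ} (h : Bd φ) :
    E (pr L L') φ = E L (fun p => E L' (fun p' => hat φ (fun i => p i * p' i))) := by
  have hs := (hL.pr hL').summable h
  unfold E
  rw [hs.tsum_prod]
  refine tsum_congr fun o => ?_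
  conv_rhs => unfold hat
  rw [← tsum_mul_left]
  refine tsum_congr fun o' => ?_
  exact ExB_hat_mul φ (hL.nonneg o) (hL'.nonneg o')

theorem E_pr_comm (L : Ω → Fin q → ℝ) (L' : Ω' → Fin q → ℝ) (φ : (Fin q → ℝ) → ℝ) :
    E (pr L L') φ = E (pr L' L) φ := by
  rw [← E_equiv (pr L' L) (Equiv.prodComm Ω Ω') φ]
  congr 1
  funext o i
  exact mul_comm _ _

theorem ExB_abs_hat_le {φ : (Fin q → ℝ) → ℝ} {C : ℝ} (hC : ∀ p ∈ Spx q, |φ p| ≤ C)
    {p p' : Fin q → ℝ} (hp : p ∈ Spx q) (hp' : p' ∈ Spx q) :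
    |hat φ (fun i => p i * p' i)| ≤ C * q := by
  have h0 : 0 ≤ C := (abs_nonneg _).trans (hC p hp)
  exact (abs_hat_le hC fun i => mul_nonneg (hp.1 i) (hp'.1 i)).trans
    (mul_le_mul_of_nonneg_left (av_mul_le hp hp') h0)

theorem pair_le {L : Ω → Fin q → ℝ} {L' : Ω' → Fin q → ℝ} (hL : Ex L) (hL' : Ex L')
    {φ : (Fin q → ℝ) → ℝ} (h : Bd φ) {ι : Type*} [Fintype ι]
    (f g : ι → (Fin q → ℝ) → ℝ) (hf : ∀ k, Bd (f k)) (hg : ∀ k, Bd (g k))
    (H : ∀ p ∈ Spx q, ∀ p' ∈ Spx q,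
      ∑ σ : Equiv.Perm (Fin q), hat φ (fun i => p i * p' (σ i))
        ≤ (Nat.factorial q : ℝ) * ∑ k, f k p * g k p') :
    E (pr L L') φ ≤ ∑ k, E L (f k) * E L' (g k) := by
  obtain ⟨C, hC⟩ := h
  have hfac : (0 : ℝ) < (Nat.factorial q : ℝ) := Nat.cast_pos.2 (Nat.factorial_pos q)
  rw [E_pr hL hL' ⟨C, hC⟩]
  have h1 : ∀ p ∈ Spx q, E L' (fun p' => hat φ (fun i => p i * p' i)) ≤
      ∑ k, f k p * E L' (g k) := fun p hp => by
    have hb : Bd (fun p' : Fin q → ℝ => hat φ (fun i => p i * p' i)) :=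
      ⟨C * q, fun p' hp' => ExB_abs_hat_le hC hp hp'⟩
    have hb2 : Bd (fun p' : Fin q → ℝ => ∑ k, f k p * g k p') :=
      Bd.sum _ fun k _ => (hg k).const_mul _
    have h2 := E_symm hL' hb
    have h3 := E_mono hL' (Bd.sum Finset.univ fun σ _ => hb.perm σ) (hb2.const_mul _) (H p hp)
    rw [h2, E_const_mul, E_sum hL' _ fun k _ => (hg k).const_mul _] at h3
    simp only [E_const_mul] at h3
    exact le_of_mul_le_mul_left h3 hfac
  have hb : Bd (fun p : Fin q → ℝ => E L' (fun p' => hat φ (fun i => p i * p' i))) :=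
    ⟨C * q, fun p hp => abs_E_le hL' fun p' hp' => ExB_abs_hat_le hC hp hp'⟩
  refine (E_mono hL hb (Bd.sum _ fun k _ => (hf k).mul (Bd.const _)) h1).trans (le_of_eq ?_)
  rw [E_sum hL _ fun k _ => (hf k).mul (Bd.const _)]
  simp only [E_mul_const]

theorem pair_ge {L : Ω → Fin q → ℝ} {L' : Ω' → Fin q → ℝ} (hL : Ex L) (hL' : Ex L')
    {φ : (Fin q → ℝ) → ℝ} (h : Bd φ) {ι : Type*} [Fintype ι]
    (f g : ι → (Fin q → ℝ) → ℝ) (hf : ∀ k, Bd (f k)) (hg : ∀ k, Bd (g k))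
    (H : ∀ p ∈ Spx q, ∀ p' ∈ Spx q,
      (Nat.factorial q : ℝ) * ∑ k, f k p * g k p'
        ≤ ∑ σ : Equiv.Perm (Fin q), hat φ (fun i => p i * p' (σ i))) :
    ∑ k, E L (f k) * E L' (g k) ≤ E (pr L L') φ := by
  have := pair_le hL hL' h.neg (fun k p => -f k p) g (fun k => (hf k).neg) hg fun p hp p' hp' => by
    have := H p hp p' hp'
    simp only [hat, mul_neg, neg_mul, Finset.sum_neg_distrib] at this ⊢
    linarith
  simp only [E_neg, neg_mul, Finset.sum_neg_distrib] at this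
  linarith

/-- multiplicativity of symmetrised monomials: for fixed `σ` reindex `τ ↦ τ * σ`. -/
theorem sum_Nm_mul (γ : Fin q → ℕ) (p p' : Fin q → ℝ) :
    ∑ τ : Equiv.Perm (Fin q), Nm γ (fun i => p i * p' (τ i)) = Nm γ p * Nm γ p' := by
  unfold Nm
  rw [Finset.sum_comm, Finset.sum_mul]
  refine Finset.sum_congr rfl fun σ _ => ?_
  rw [Finset.mul_sum, ← Equiv.sum_comp (Equiv.mulRight σ)
    (fun τ : Equiv.Perm (Fin q) => (∏ i, p (σ i) ^ γ i) * ∏ i, p' (τ i) ^ γ i)]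
  refine Finset.sum_congr rfl fun τ _ => ?_
  simp only [mul_pow, Finset.prod_mul_distrib, Equiv.coe_mulRight, Equiv.Perm.mul_apply]

theorem Nm_smul (γ : Fin q → ℕ) (c : ℝ) (p : Fin q → ℝ) :
    Nm γ (fun i => c * p i) = c ^ (∑ i, γ i) * Nm γ p := by
  unfold Nm
  simp only [mul_pow, Finset.prod_mul_distrib, Finset.prod_pow_eq_pow_sum, Finset.mul_sum]

/-- `∑_σ p (σ i) = (q-1)! ∑ p`, in the form needed on `Spx q`. -/
theorem sum_perm_apply {p : Fin q → ℝ} (hp : p ∈ Spx q) (i : Fin q) :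
    ∑ σ : Equiv.Perm (Fin q), p (σ i) = (Nat.factorial q : ℝ) := by
  have hq : (q : ℝ) ≠ 0 := Nat.cast_ne_zero.2 (NeZero.ne q)
  have h1 : ∀ j, ∑ σ : Equiv.Perm (Fin q), p (σ j) = ∑ σ : Equiv.Perm (Fin q), p (σ i) := fun j => by
    rw [← Equiv.sum_comp (Equiv.mulRight (Equiv.swap i j))
      (fun σ : Equiv.Perm (Fin q) => p (σ j))]
    simp
  have h2 : ∑ j, ∑ σ : Equiv.Perm (Fin q), p (σ j) = (Nat.factorial q : ℝ) * q := by
    rw [Finset.sum_comm]
    simp only [Equiv.sum_comp, hp.2]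
    simp [Fintype.card_perm]
  simp only [h1, Finset.sum_const, Finset.card_univ, Fintype.card_fin, nsmul_eq_mul] at h2
  exact mul_left_cancel₀ hq (h2.trans (mul_comm _ _))

theorem ExB_hat_chi_ge {u : Fin q → ℝ} (hu : ∀ i, 0 ≤ u i) (p : Fin q → ℝ) :
    2 * av (fun i => u i * p i) - av u * av (fun i => p i ^ 2) - av u ≤ hat chi u := by
  have hq : (0 : ℝ) < q := Nat.cast_pos.2 (Nat.pos_of_ne_zero (NeZero.ne q))
  have hw := av_nonneg hu
  have key : ∑ i, (2 * (u i * p i) - av u * p i ^ 2 - 2 * u i + av u) ≤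
      ∑ i, av u * (u i / av u - 1) ^ 2 := by
    refine Finset.sum_le_sum fun i _ => ?_
    have e := ExB_mul_div hu i
    set t := u i / av u
    rw [← e]
    nlinarith [mul_nonneg hw (sq_nonneg (t - p i))]
  have e2 : ∑ i, u i = q * av u := by
    unfold av
    field_simp
  rw [Finset.sum_add_distrib, Finset.sum_sub_distrib, Finset.sum_sub_distrib, ← Finset.mul_sum,
    ← Finset.mul_sum, ← Finset.mul_sum, ← Finset.mul_sum, e2, Finset.sum_const, Finset.card_univ,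
    Fintype.card_fin, nsmul_eq_mul] at key
  unfold hat chi
  set w := av u
  unfold av
  rw [← mul_div_assoc w, ← mul_div_assoc w, le_div_iff₀ hq]
  refine le_trans (le_of_eq ?_) key
  field_simp
  ring

theorem ExB_sum_av {p' : Fin q → ℝ} (hp' : p' ∈ Spx q) (a : Fin q → ℝ) :
    ∑ σ : Equiv.Perm (Fin q), av (fun i => a i * p' (σ i)) = (Nat.factorial q : ℝ) * av a := by
  unfold av
  rw [← Finset.sum_div, Finset.sum_comm, ← mul_div_assoc, Finset.mul_sum]
  congr 1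
  refine Finset.sum_congr rfl fun i _ => ?_
  rw [← Finset.mul_sum, sum_perm_apply hp', mul_comm]

theorem ExB_chi_eq {p : Fin q → ℝ} (hp : p ∈ Spx q) : chi p = av (fun i => p i ^ 2) - 1 := by
  have hq : (q : ℝ) ≠ 0 := Nat.cast_ne_zero.2 (NeZero.ne q)
  unfold chi av
  have : ∑ i, (p i - 1) ^ 2 = ∑ i, p i ^ 2 - 2 * ∑ i, p i + q := by
    rw [Finset.mul_sum, ← Finset.sum_sub_distrib]
    have : (q : ℝ) = ∑ _i : Fin q, (1 : ℝ) := by simp
    rw [this, ← Finset.sum_add_distrib]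
    exact Finset.sum_congr rfl fun i _ => by ring
  rw [this, hp.2]
  field_simp
  ring

/-- A second independent observation does not decrease chi-square.  Pointwise: for `u ≥ 0` with
`w = av u`, `hat chi u = av (u^2) / w - w ≥ 2 av (u p) - w av (p^2) - w` (expand
`av ((u - w p)^2) ≥ 0`; trivial if `w = 0`); sum over `σ` with `u = p * σ p'` and use
`sum_perm_apply`; the result is `q! (av (p^2) - 1) = q! chi p`.  Then `pair_ge`. -/
theorem chi_le_pr {L : Ω → Fin q → ℝ} {L' : Ω' → Fin q → ℝ} (hL : Ex L) (hL' : Ex L') :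
    E L chi ≤ E (pr L L') chi := by
  have := pair_ge hL hL' Bd.chi (ι := Unit) (fun _ => chi) (fun _ _ => 1) (fun _ => Bd.chi)
    (fun _ => Bd.const 1) fun p hp p' hp' => by
      refine le_trans (le_of_eq ?_) (Finset.sum_le_sum fun σ _ =>
        ExB_hat_chi_ge (fun i => mul_nonneg (hp.1 i) (hp'.1 (σ i))) p)
      have e : ∀ σ : Equiv.Perm (Fin q), (fun i => p i * p' (σ i) * p i) =
          fun i => p i ^ 2 * p' (σ i) := fun σ => funext fun i => by ring
      simp only [e, Finset.univ_unique, Finset.sum_singleton]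
      rw [Finset.sum_sub_distrib, Finset.sum_sub_distrib, ← Finset.mul_sum, ← Finset.sum_mul,
        ExB_sum_av hp', ExB_sum_av hp', av_of_mem hp, ExB_chi_eq hp]
      ring
  simpa [E_const hL'] using this

end Crest.Agent.R163
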