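import Crest.Agent.R163.ExB

/-!
# Channel, leaf, powers, mixtures

`mixL`: use `List.equivSigmaTuple : List Ω ≃ Σ n, Fin n → Ω` (or `List.ofFn`), `hat_smul`, and
`HasSum.sigma` / `summable_sigma_of_nonneg`.
-/

set_option autoImplicit false

namespace Crest.Agent.R163

open Crest.ProbabilityR.Broadcast

variable {q : ℕ} [NeZero q] {Ω Ω' : Type*}

theorem ch_apply (lam : ℝ) (u : Fin q → ℝ) (i : Fin q) :
    ch lam u i = lam * u i + (1 - lam) * av u := by
  simp only [ch, channel, add_mul, Finset.sum_add_distrib, ite_mul, zero_mul, Finset.sum_ite_eq,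
    Finset.mem_univ, if_true, ← Finset.mul_sum, av]
  ring

theorem av_ch (lam : ℝ) (u : Fin q → ℝ) : av (ch lam u) = av u := by
  have hq : (q : ℝ) ≠ 0 := Nat.cast_ne_zero.2 (NeZero.ne q)
  have : ∑ i, ch lam u i = lam * ∑ i, u i + q * ((1 - lam) * av u) := by
    simp only [ch_apply, Finset.sum_add_distrib, ← Finset.mul_sum, Finset.sum_const,
      Finset.card_univ, Fintype.card_fin, nsmul_eq_mul]
    ring
  rw [av, this, av]
  field_simp
  ring

theorem ch_sub_one (lam : ℝ) {p : Fin q → ℝ} (hp : p ∈ Spx q) (i : Fin q) :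
    ch lam p i - 1 = lam * (p i - 1) := by
  rw [ch_apply, av_of_mem hp]; ring

theorem channel_nonneg {lam : ℝ} (h0 : 0 ≤ lam) (h1 : lam ≤ 1) (i j : Fin q) :
    0 ≤ channel q lam i j := by
  unfold channel
  refine add_nonneg ?_ (div_nonneg (by linarith) (Nat.cast_nonneg _))
  split_ifs
  · exact h0
  · exact le_rfl

theorem ch_mem {lam : ℝ} (hc : ∀ i j : Fin q, 0 ≤ channel q lam i j) {p : Fin q → ℝ}
    (hp : p ∈ Spx q) : ch lam p ∈ Spx q := by
  have hq : (q : ℝ) ≠ 0 := Nat.cast_ne_zero.2 (NeZero.ne q)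
  refine ⟨fun i => Finset.sum_nonneg fun j _ => mul_nonneg (hc i j) (hp.1 j), ?_⟩
  have h := av_ch lam p
  rw [av_of_mem hp, av, div_eq_iff hq, one_mul] at h
  exact h

theorem Bd.ch {lam : ℝ} (hc : ∀ i j : Fin q, 0 ≤ channel q lam i j) {φ : (Fin q → ℝ) → ℝ}
    (h : Bd φ) : Bd (fun p => φ (ch lam p)) := by
  obtain ⟨C, hC⟩ := h
  exact ⟨C, fun p hp => hC _ (ch_mem hc hp)⟩

theorem Ex.chL {lam : ℝ} (hc : ∀ i j : Fin q, 0 ≤ channel q lam i j) {L : Ω → Fin q → ℝ}
    (hL : Ex L) : Ex (chL lam L) := by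
  have hq : (q : ℝ) ≠ 0 := Nat.cast_ne_zero.2 (NeZero.ne q)
  refine ⟨fun o i => ?_, fun i => ?_, fun σ => ?_⟩
  · unfold R163.chL ch
    exact Finset.sum_nonneg fun j _ => mul_nonneg (hc i j) (hL.nonneg o j)
  · have h := ((hL.hasSum i).mul_left lam).add (hL.hasSum_av.mul_left (1 - lam))
    simp only [R163.chL, ch_apply]
    simpa using h
  · obtain ⟨e, he⟩ := hL.sym σ
    refine ⟨e, fun o i => ?_⟩
    have h : av (L (e o)) = av (L o) := by
      simp only [av, he]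
      rw [Equiv.sum_comp σ (L o)]
    simp only [R163.chL, ch_apply, he, h]

theorem E_chL (lam : ℝ) {L : Ω → Fin q → ℝ} (hL : Ex L) (φ : (Fin q → ℝ) → ℝ) :
    E (chL lam L) φ = E L (fun p => φ (ch lam p)) := by
  refine tsum_congr fun o => ?_
  simp only [chL, hat, av_ch]
  by_cases h0 : av (L o) = 0
  · simp [h0]
  · congr 2
    funext i
    rw [ch_apply, ch_apply, av_of_mem (norm_mem (hL.nonneg o) h0)]
    field_simp

theorem chi_chL (lam : ℝ) {L : Ω → Fin q → ℝ} (hL : Ex L) :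
    E (chL lam L) chi = lam ^ 2 * E L chi := by
  rw [E_chL lam hL, ← E_const_mul]
  refine E_congr hL fun p hp => ?_
  simp only [chi, ch_sub_one lam hp, mul_pow, ← Finset.mul_sum, mul_div_assoc]

theorem thr_chL (lam : ℝ) {L : Ω → Fin q → ℝ} (hL : Ex L) :
    E (chL lam L) thr = lam ^ 3 * E L thr := by
  rw [E_chL lam hL, ← E_const_mul]
  refine E_congr hL fun p hp => ?_
  simp only [thr, ch_sub_one lam hp, mul_pow, ← Finset.mul_sum, mul_div_assoc]

theorem Ex.leaf : Ex (leaf q) := by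
  refine ⟨fun o i => ?_, fun i => hasSum_ite_eq i (1 : ℝ), fun σ => ⟨σ.symm, fun o i => ?_⟩⟩
  · unfold R163.leaf
    split_ifs
    · exact zero_le_one
    · exact le_rfl
  · simp only [R163.leaf, Equiv.symm_apply_eq]

theorem E_leaf (φ : (Fin q → ℝ) → ℝ) : E (leaf q) φ = (∑ o : Fin q, φ (vtx o)) / q := by
  have hq : (q : ℝ) ≠ 0 := Nat.cast_ne_zero.2 (NeZero.ne q)
  rw [E, tsum_fintype, Finset.sum_div]
  refine Finset.sum_congr rfl fun o _ => ?_
  have h : leaf q o = fun i => (q : ℝ)⁻¹ * vtx o i := by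
    funext i
    simp only [leaf, vtx]
    split_ifs <;> simp [hq]
  rw [h, hat_smul, hat_of_mem _ (vtx_mem o), div_eq_inv_mul]

theorem chi_leaf : E (leaf q) chi = (q : ℝ) - 1 := by
  have hq : (q : ℝ) ≠ 0 := Nat.cast_ne_zero.2 (NeZero.ne q)
  have h : ∀ o : Fin q, chi (vtx o) = (q : ℝ) - 1 := by
    intro o
    have h1 : ∀ i, (vtx o i - 1) ^ 2 = 1 + if o = i then (q : ℝ) ^ 2 - 2 * q else 0 := by
      intro i
      unfold vtx
      split_ifs <;> ring
    simp only [chi, h1, Finset.sum_add_distrib, Finset.sum_const, Finset.card_univ,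
      Fintype.card_fin, nsmul_eq_mul, Finset.sum_ite_eq, Finset.mem_univ, if_true]
    field_simp
    ring
  simp only [E_leaf, h, Finset.sum_const, Finset.card_univ, Fintype.card_fin, nsmul_eq_mul]
  field_simp

theorem Ex.triv : Ex (triv q) :=
  ⟨fun _ _ => zero_le_one, fun _ => hasSum_unique (fun _ : Unit => (1 : ℝ)),
    fun _ => ⟨Equiv.refl _, fun _ _ => rfl⟩⟩

theorem E_triv (φ : (Fin q → ℝ) → ℝ) : E (triv q) φ = φ (fun _ => 1) := by
  rw [E, tsum_fintype, Fintype.sum_unique]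
  exact hat_of_mem φ one_mem_Spx

theorem pw_zero (L : Ω → Fin q → ℝ) :
    ∃ e : (Fin 0 → Ω) ≃ Unit, pw 0 L = fun o => triv q (e o) :=
  ⟨Equiv.ofUnique _ _, by funext o i; simp [pw, triv]⟩

theorem pw_succ (c : ℕ) (L : Ω → Fin q → ℝ) :
    ∃ e : (Fin (c + 1) → Ω) ≃ Ω × (Fin c → Ω), pw (c + 1) L = fun o => pr L (pw c L) (e o) :=
  ⟨(Fin.consEquiv fun _ => Ω).symm, by
    funext o i
    simp only [pw, pr, Fin.prod_univ_succ]
    rfl⟩

theorem Ex.pw {L : Ω → Fin q → ℝ} (hL : Ex L) (c : ℕ) : Ex (pw c L) := by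
  induction c with
  | zero =>
    obtain ⟨e, he⟩ := pw_zero L
    rw [he]
    exact Ex.triv.equiv e
  | succ c ih =>
    obtain ⟨e, he⟩ := pw_succ c L
    rw [he]
    exact (hL.pr ih).equiv e

theorem ExC_mix (a : ℕ → ℝ) (L : Ω → Fin q → ℝ) (x : Σ n, Fin n → Ω) :
    mixL a L ((List.equivSigmaTuple (α := Ω)).symm x) = fun i => a x.1 * pw x.1 L x.2 i := by
  funext i
  change mixL a L (List.ofFn x.2) i = _
  simp only [mixL, pw, List.length_ofFn, List.map_ofFn, List.prod_ofFn, Function.comp_def]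

theorem Ex.mixL {a : ℕ → ℝ} (ha : ∀ c, 0 ≤ a c) (h1 : HasSum a 1) {L : Ω → Fin q → ℝ}
    (hL : Ex L) : Ex (mixL a L) := by
  refine ⟨fun o i => mul_nonneg (ha _) (List.prod_nonneg fun x hx => ?_), fun i => ?_, fun σ => ?_⟩
  · obtain ⟨y, -, rfl⟩ := List.mem_map.1 hx
    exact hL.nonneg y i
  · rw [← (List.equivSigmaTuple (α := Ω)).symm.hasSum_iff]
    have h2 : ∀ c, HasSum (fun f : Fin c → Ω => a c * R163.pw c L f i) (a c) := fun c => by
      simpa using ((hL.pw c).hasSum i).mul_left (a c)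
    have h3 : ((fun o => R163.mixL a L o i) ∘ (List.equivSigmaTuple (α := Ω)).symm) =
        fun x : Σ n, Fin n → Ω => a x.1 * R163.pw x.1 L x.2 i := by
      funext x
      exact congrFun (ExC_mix a L x) i
    rw [h3]
    refine HasSum.sigma_of_hasSum h1 h2 ?_
    rw [summable_sigma_of_nonneg fun x => mul_nonneg (ha _) ((hL.pw _).nonneg _ _)]
    refine ⟨fun c => (h2 c).summable, ?_⟩
    simp only [fun c => (h2 c).tsum_eq]
    exact h1.summable
  · obtain ⟨e, he⟩ := hL.sym σ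
    refine ⟨e.listEquivOfEquiv, fun o i => ?_⟩
    change R163.mixL a L (o.map e) i = _
    simp only [R163.mixL, List.length_map, List.map_map, Function.comp_def, he]

theorem hasSum_mixL {a : ℕ → ℝ} (ha : ∀ c, 0 ≤ a c) (h1 : HasSum a 1) {L : Ω → Fin q → ℝ}
    (hL : Ex L) {φ : (Fin q → ℝ) → ℝ} (h : Bd φ) :
    HasSum (fun c => a c * E (pw c L) φ) (E (mixL a L) φ) := by
  have h2 := (hL.mixL ha h1).hasSum_E h
  rw [← (List.equivSigmaTuple (α := Ω)).symm.hasSum_iff] at h2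
  refine HasSum.sigma h2 fun c => ?_
  simp only [Function.comp_def, ExC_mix, hat_smul]
  exact ((hL.pw c).hasSum_E h).mul_left (a c)

end Crest.Agent.R163
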