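import Crest.Agent.R163.ExC

/-!
# The regular and the Poisson model as experiments; advantage versus chi-square
-/

set_option autoImplicit false

namespace Crest.Agent.R163

open Crest.ProbabilityR.Broadcast

variable {q : ℕ} [NeZero q] {Ω Ω' : Type*}

theorem regL_zero (b : ℕ) (lam : ℝ) :
    ∃ e : ((Fin 0 → Fin b) → Fin q) ≃ Fin q, regL q b lam 0 = fun τ => leaf q (e τ) :=
  ⟨@Equiv.funUnique _ _ ⟨⟨Fin.elim0⟩, fun _ => Subsingleton.elim _ _⟩, rfl⟩

/-- `e τ m w = τ (Fin.cons m w)` (curry along `Fin.consEquiv`). -/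
theorem regL_succ (b : ℕ) (lam : ℝ) (l : ℕ) :
    ∃ e : ((Fin (l + 1) → Fin b) → Fin q) ≃ (Fin b → ((Fin l → Fin b) → Fin q)),
      regL q b lam (l + 1) = fun τ => pw b (chL lam (regL q b lam l)) (e τ) :=
  ⟨((Fin.consEquiv fun _ => Fin b).symm.arrowCongr (Equiv.refl _)).trans (Equiv.curry _ _ _), rfl⟩

theorem Ex.regL {lam : ℝ} (hc : ∀ i j : Fin q, 0 ≤ channel q lam i j) (b l : ℕ) :
    Ex (regL q b lam l) := by
  induction l with
  | zero =>
    obtain ⟨e, he⟩ := regL_zero (q := q) b lam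
    rw [he]
    exact Ex.leaf.equiv e
  | succ l ih =>
    obtain ⟨e, he⟩ := regL_succ (q := q) b lam l
    rw [he]
    exact ((ih.chL hc).pw b).equiv e

theorem gwL_zero (lam d : ℝ) : gwL q lam d 0 = leaf q := rfl

theorem gwL_succ (lam d : ℝ) (l : ℕ) :
    gwL q lam d (l + 1) = mixL (pois d) (chL lam (gwL q lam d l)) := rfl

theorem pois_nonneg {d : ℝ} (hd : 0 ≤ d) (c : ℕ) : 0 ≤ pois d c := by
  unfold pois; positivity

theorem hasSum_pois (d : ℝ) : HasSum (pois d) 1 := by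
  have h := (NormedSpace.expSeries_div_hasSum_exp d).mul_left (Real.exp (-d))
  rw [← Real.exp_eq_exp_ℝ, ← Real.exp_add, neg_add_cancel, Real.exp_zero] at h
  have e : pois d = fun i => Real.exp (-d) * (d ^ i / (i.factorial : ℝ)) := by
    funext c
    rw [pois, mul_div_assoc]
  rw [e]
  exact h

theorem hasSum_pois_mul (d : ℝ) : HasSum (fun c : ℕ => pois d c * c) d := by
  rw [← hasSum_nat_add_iff' 1]
  have h := (hasSum_pois d).mul_left d
  simp only [Finset.range_one, Finset.sum_singleton, Nat.cast_zero, mul_zero, sub_zero]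
  rw [mul_one] at h
  have e : (fun c : ℕ => pois d (c + 1) * ((c + 1 : ℕ) : ℝ)) = fun c => d * pois d c := by
    funext c
    simp only [pois, Nat.factorial_succ]
    push_cast
    field_simp
    ring
  rw [e]
  exact h

theorem Ex.gwL {lam d : ℝ} (hc : ∀ i j : Fin q, 0 ≤ channel q lam i j) (hd : 0 ≤ d) (l : ℕ) :
    Ex (gwL q lam d l) := by
  induction l with
  | zero => rw [gwL_zero]; exact Ex.leaf
  | succ l ih => rw [gwL_succ]; exact (ih.chL hc).mixL (pois_nonneg hd) (hasSum_pois d)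

theorem hat_advf {u : Fin q → ℝ} (hu : ∀ i, 0 ≤ u i) :
    hat advf u = (1 / (2 * q)) * ∑ i, |u i - (1 / q) * ∑ j, u j| := by
  have h1 : (1 / q) * ∑ j, u j = av u := by rw [av]; ring
  rw [h1]
  by_cases h0 : av u = 0
  · simp [hat, h0, eq_zero_of_av hu h0]
  · rw [hat, advf, mul_left_comm, Finset.mul_sum]
    congr 1
    refine Finset.sum_congr rfl fun i _ => ?_
    rw [← abs_of_nonneg (av_nonneg hu), ← abs_mul, abs_of_nonneg (av_nonneg hu)]
    congr 1
    field_simp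

theorem advantage_eq {lam : ℝ} (hc : ∀ i j : Fin q, 0 ≤ channel q lam i j) (b l : ℕ) :
    advantage q b lam l = E (regL q b lam l) advf := by
  rw [E, tsum_fintype, advantage, Finset.mul_sum]
  exact Finset.sum_congr rfl fun τ _ => (hat_advf ((Ex.regL hc b l).nonneg τ)).symm

theorem gwAdvantage_eq {lam d : ℝ} (hc : ∀ i j : Fin q, 0 ≤ channel q lam i j) (hd : 0 ≤ d)
    (l : ℕ) : gwAdvantage q lam d l = E (gwL q lam d l) advf := by
  rw [E, gwAdvantage, ← tsum_mul_left]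
  exact tsum_congr fun o => (hat_advf ((Ex.gwL hc hd l).nonneg o)).symm

theorem chi_nonneg (p : Fin q → ℝ) : 0 ≤ chi p := by
  unfold chi; positivity

theorem chi_le {p : Fin q → ℝ} (hp : p ∈ Spx q) : chi p ≤ (q : ℝ) - 1 := by
  have hq : (0 : ℝ) < q := Nat.cast_pos.2 (NeZero.pos q)
  have h1 : ∑ i, (p i - 1) ^ 2 ≤ ∑ i, (((q : ℝ) - 2) * p i + 1) :=
    Finset.sum_le_sum fun i _ => by nlinarith [hp.1 i, le_of_mem hp i]
  simp only [Finset.sum_add_distrib, ← Finset.mul_sum, hp.2, Finset.sum_const, Finset.card_univ,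
    Fintype.card_fin, nsmul_eq_mul] at h1
  rw [chi, div_le_iff₀ hq]
  linarith

theorem E_chi_nonneg {L : Ω → Fin q → ℝ} (hL : Ex L) : 0 ≤ E L chi :=
  E_nonneg hL fun p _ => chi_nonneg p

theorem E_chi_le {L : Ω → Fin q → ℝ} (hL : Ex L) : E L chi ≤ (q : ℝ) - 1 :=
  (E_mono hL Bd.chi (Bd.const _) fun _ hp => chi_le hp).trans (E_const hL _).le

theorem adv_nonneg {L : Ω → Fin q → ℝ} (hL : Ex L) : 0 ≤ E L advf :=
  E_nonneg hL fun p _ => by unfold advf; positivity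

/-- `advf p ^ 2 ≤ chi p / 4` (Cauchy-Schwarz), then `sq_E_le`. -/
theorem adv_sq_le {L : Ω → Fin q → ℝ} (hL : Ex L) : 4 * (E L advf) ^ 2 ≤ E L chi := by
  have hq : (0 : ℝ) < q := Nat.cast_pos.2 (NeZero.pos q)
  have h2 : Bd fun p : Fin q → ℝ => advf p ^ 2 := by simpa only [sq] using Bd.advf.mul Bd.advf
  have h1 := sq_E_le hL Bd.advf
  have h3 := E_mono hL (h2.const_mul 4) Bd.chi fun p _ => by
    have h4 := sq_sum_le_card_mul_sum_sq (s := (Finset.univ : Finset (Fin q)))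
      (f := fun i => |p i - 1|)
    simp only [Finset.card_univ, Fintype.card_fin, sq_abs] at h4
    rw [advf, chi, le_div_iff₀ hq]
    calc 4 * (1 / (2 * q) * ∑ i, |p i - 1|) ^ 2 * q = (∑ i, |p i - 1|) ^ 2 / q := by
          field_simp; ring
      _ ≤ _ := by rw [div_le_iff₀ hq]; linarith
  rw [E_const_mul] at h3
  linarith

theorem ExD_abs_le {p : Fin q → ℝ} (hp : p ∈ Spx q) (i : Fin q) : |p i - 1| ≤ q := by
  have hq : (1 : ℝ) ≤ q := by exact_mod_cast NeZero.one_le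
  rw [abs_le]
  constructor <;> linarith [hp.1 i, le_of_mem hp i]

/-- `(p i - 1)^2 ≤ q |p i - 1|`. -/
theorem chi_le_adv {L : Ω → Fin q → ℝ} (hL : Ex L) : E L chi ≤ 2 * q * E L advf := by
  have hq : (0 : ℝ) < q := Nat.cast_pos.2 (NeZero.pos q)
  rw [← E_const_mul]
  refine E_mono hL Bd.chi (Bd.advf.const_mul _) fun p hp => ?_
  have h1 : ∑ i, (p i - 1) ^ 2 ≤ ∑ i, q * |p i - 1| := Finset.sum_le_sum fun i _ => by
    rw [← sq_abs, sq]
    exact mul_le_mul_of_nonneg_right (ExD_abs_le hp i) (abs_nonneg _)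
  rw [← Finset.mul_sum] at h1
  rw [advf, chi, div_le_iff₀ hq]
  calc ∑ i, (p i - 1) ^ 2 ≤ _ := h1
    _ = _ := by field_simp

/-- `|(p i - 1)^3| ≤ q (p i - 1)^2`. -/
theorem abs_thr_le {L : Ω → Fin q → ℝ} (hL : Ex L) : |E L thr| ≤ q * E L chi := by
  have hq : (0 : ℝ) < q := Nat.cast_pos.2 (NeZero.pos q)
  have h1 : ∀ p ∈ Spx q, |thr p| ≤ q * chi p := by
    intro p hp
    rw [thr, chi, abs_div, abs_of_pos hq, ← mul_div_assoc, Finset.mul_sum]
    refine div_le_div_of_nonneg_right ((Finset.abs_sum_le_sum_abs _ _).trans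
      (Finset.sum_le_sum fun i _ => ?_)) hq.le
    rw [pow_succ', abs_mul, abs_sq]
    exact mul_le_mul_of_nonneg_right (ExD_abs_le hp i) (sq_nonneg _)
  have h2 := E_mono hL Bd.thr (Bd.chi.const_mul q) fun p hp => (abs_le.1 (h1 p hp)).2
  have h3 := E_mono hL (Bd.chi.const_mul q).neg Bd.thr fun p hp => (abs_le.1 (h1 p hp)).1
  rw [E_neg] at h3
  rw [E_const_mul] at h2 h3
  exact abs_le.2 ⟨h3, h2⟩

theorem tendsto_adv_of_chi {Ωn : ℕ → Type*} (L : ∀ n, Ωn n → Fin q → ℝ) (hL : ∀ n, Ex (L n))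
    (h : Filter.Tendsto (fun n => E (L n) chi) Filter.atTop (nhds 0)) :
    Filter.Tendsto (fun n => E (L n) advf) Filter.atTop (nhds 0) := by
  have h1 := h.sqrt
  rw [Real.sqrt_zero] at h1
  refine squeeze_zero (fun n => adv_nonneg (hL n)) (fun n => Real.le_sqrt_of_sq_le ?_) h1
  nlinarith [adv_sq_le (hL n), sq_nonneg (E (L n) advf)]

/-- If `0 ≤ X`, `X (n+1) ≤ ρ X n - c (X n)^3` with `ρ ≤ 1`, `0 ≤ c` and (`ρ < 1` or `0 < c`), then
`X → 0` (antitone, bounded below; pass to the limit). -/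
theorem tendsto_zero_of_cubic (X : ℕ → ℝ) (ρ c : ℝ) (h0 : ∀ n, 0 ≤ X n) (hρ : ρ ≤ 1)
    (hc : 0 ≤ c) (hs : ρ < 1 ∨ 0 < c) (h : ∀ n, X (n + 1) ≤ ρ * X n - c * X n ^ 3) :
    Filter.Tendsto X Filter.atTop (nhds 0) := by
  have hanti : Antitone X := antitone_nat_of_succ_le fun n => by
    nlinarith [h n, h0 n, mul_nonneg hc (pow_nonneg (h0 n) 3),
      mul_nonneg (sub_nonneg.2 hρ) (h0 n)]
  have hlim := tendsto_atTop_ciInf hanti ⟨0, by rintro _ ⟨n, rfl⟩; exact h0 n⟩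
  set x := ⨅ n, X n
  have hx0 : 0 ≤ x := ge_of_tendsto' hlim h0
  have h1 : x ≤ ρ * x - c * x ^ 3 :=
    le_of_tendsto_of_tendsto' ((Filter.tendsto_add_atTop_iff_nat 1).2 hlim)
      ((hlim.const_mul ρ).sub ((hlim.pow 3).const_mul c)) h
  have hx : x = 0 := by
    by_contra hne
    have hx1 : 0 < x := lt_of_le_of_ne hx0 (Ne.symm hne)
    have h3 : 0 < x ^ 3 := pow_pos hx1 3
    rcases hs with hs | hs
    · nlinarith [mul_nonneg hc h3.le, mul_pos (sub_pos.2 hs) hx1]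
    · nlinarith [mul_pos hs h3, mul_nonneg (sub_nonneg.2 hρ) hx0]
  rwa [hx] at hlim

end Crest.Agent.R163
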