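import Crest.Agent.R163.Cert3
import Crest.Agent.R163.Q3.FP

/-!
# Assembly of the three-state statement from the critical antiferromagnetic cases
-/

set_option autoImplicit false

namespace Crest.Agent.R163

open Crest.ProbabilityR.Broadcast

/-- For `0 ≤ lam` use `cert3` with `Cert.reg` / `Cert.gw` (see how `S0245.lean` uses them, and
`channel_nonneg`); for `lam = -mu < 0` use `Xr_zero_of_crit`, `Xg_zero_of_crit`,
`tendsto_reg_of_Xr`, `tendsto_gw_of_Xg` of `Q3/FP.lean`. -/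
theorem result_of_anti
    (HR : ∀ b : ℕ, 4 ≤ b → ∀ mu : ℝ, 0 < mu → mu ≤ 1 / 2 → (b : ℝ) * mu ^ 2 = 1 → Xr b mu ≤ 0)
    (HG : ∀ d mu : ℝ, 0 < mu → mu ≤ 1 / 2 → d * mu ^ 2 = 1 → Xg d mu ≤ 0) :
    (∀ b : ℕ, 2 ≤ b → ∀ lam : ℝ, -(1 / 2 : ℝ) ≤ lam → lam ≤ 1 → (b : ℝ) * lam ^ 2 ≤ 1 →
      Filter.Tendsto (advantage 3 b lam) Filter.atTop (nhds 0)) ∧
    (∀ d : ℝ, 1 < d → ∀ lam : ℝ, -(1 / 2 : ℝ) ≤ lam → lam ≤ 1 → d * lam ^ 2 ≤ 1 →
      Filter.Tendsto (gwAdvantage 3 lam d) Filter.atTop (nhds 0)) := by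

  refine ⟨fun b hb lam h0 h1 hks => ?_, fun d hd lam h0 h1 hks => ?_⟩ <;> rcases le_or_gt 0 lam with h | h
  · obtain ⟨C⟩ := cert3 h h1
    exact C.reg (channel_nonneg h h1) hb hks
  · have := tendsto_reg_of_Xr (mu := -lam) (by linarith) (by linarith)
      (Xr_zero_of_crit HR b (by linarith) (by linarith) (by rwa [neg_sq]))
    rwa [neg_neg] at this
  · obtain ⟨C⟩ := cert3 h h1
    exact C.gw (channel_nonneg h h1) (by linarith) hks
  · have := tendsto_gw_of_Xg (d := d) (mu := -lam) (by linarith) (by linarith) (by linarith)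
      (Xg_zero_of_crit HG (by linarith) (by linarith) (by linarith) (by rwa [neg_sq]))
    rwa [neg_neg] at this

end Crest.Agent.R163
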