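import Mathlib

/-!
# Polynomial identities over `ℕ` by Kronecker substitution; packed comparisons

`lev ev x l` is the Horner evaluation of the list `l` at `x`.  Nested lists are only used as
mathematical objects; the kernel evaluates expressions `PE` at a point made of large powers of two.
-/

set_option autoImplicit false

namespace Crest.Agent.R163.Poly

variable {α β : Type} {R : Type} [CommSemiring R]

def ladd (add : α → α → α) : List α → List α → List α
  | [], m => m
  | a :: l, [] => a :: l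
  | a :: l, b :: m => add a b :: ladd add l m

def lmul (add mul : α → α → α) (z : α) : List α → List α → List α
  | [], _ => []
  | a :: l, m => ladd add (m.map (mul a)) (z :: lmul add mul z l m)

def lev (ev : α → R) (x : R) : List α → R
  | [] => 0
  | a :: l => ev a + x * lev ev x l

@[simp] theorem lev_nil (ev : α → R) (x : R) : lev ev x [] = 0 := rfl
@[simp] theorem lev_cons (ev : α → R) (x : R) (a : α) (l : List α) :
    lev ev x (a :: l) = ev a + x * lev ev x l := rfl

theorem lev_ladd {add : α → α → α} {ev : α → R} (h : ∀ a b, ev (add a b) = ev a + ev b) (x : R) :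
    ∀ l m : List α, lev ev x (ladd add l m) = lev ev x l + lev ev x m
  | [], m => by simp [ladd]
  | a :: l, [] => by simp [ladd]
  | a :: l, b :: m => by simp only [ladd, lev_cons, h, lev_ladd h x l m]; ring

theorem lev_map {f : α → β} {ev : α → R} {ev' : β → R} {c : R} (h : ∀ a, ev' (f a) = c * ev a)
    (x : R) : ∀ l : List α, lev ev' x (l.map f) = c * lev ev x l
  | [] => by simp
  | a :: l => by simp only [List.map_cons, lev_cons, h, lev_map h x l]; ring

theorem lev_lmul {add mul : α → α → α} {z : α} {ev : α → R}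
    (h : ∀ a b, ev (add a b) = ev a + ev b) (hm : ∀ a b, ev (mul a b) = ev a * ev b)
    (hz : ev z = 0) (x : R) :
    ∀ l m : List α, lev ev x (lmul add mul z l m) = lev ev x l * lev ev x m
  | [], m => by simp [lmul]
  | a :: l, m => by
    simp only [lmul, lev_ladd h, lev_cons, hz, lev_lmul h hm hz x l m,
      lev_map (f := mul a) (ev := ev) (ev' := ev) (c := ev a) (hm a)]
    ring

theorem lev_nonneg {ev : α → ℝ} {x : ℝ} (hx : 0 ≤ x) :
    ∀ l : List α, (∀ a ∈ l, 0 ≤ ev a) → 0 ≤ lev ev x l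
  | [], _ => le_rfl
  | a :: l, h => by
    have h1 := h a (by simp)
    have h2 := lev_nonneg hx l (fun b hb => h b (by simp [hb]))
    simp only [lev_cons]; positivity

theorem lev_replicate {ev : α → R} {z : α} (hz : ev z = 0) (x : R) (a : α) :
    ∀ n : ℕ, lev ev x (List.replicate n z ++ [a]) = x ^ n * ev a
  | 0 => by simp
  | n + 1 => by
    simp only [List.replicate_succ, List.cons_append, lev_cons, hz, lev_replicate hz x a n]; ring

theorem le_lev_one {ev : α → ℕ} : ∀ {l : List α} {a : α}, a ∈ l → ev a ≤ lev ev 1 l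
  | b :: l, a, h => by
    rcases List.mem_cons.1 h with rfl | h
    · simp
    · have := le_lev_one (ev := ev) h
      simp only [lev_cons]; omega

/-! ### polynomials over `ℕ` in one to four variables -/

abbrev N1 := List ℕ
abbrev N2 := List N1
abbrev N3 := List N2
abbrev N4 := List N3

def add1 : N1 → N1 → N1 := ladd Nat.add
def add2 : N2 → N2 → N2 := ladd add1
def add3 : N3 → N3 → N3 := ladd add2
def add4 : N4 → N4 → N4 := ladd add3
def mul1 : N1 → N1 → N1 := lmul Nat.add Nat.mul 0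
def mul2 : N2 → N2 → N2 := lmul add1 mul1 []
def mul3 : N3 → N3 → N3 := lmul add2 mul2 []
def mul4 : N4 → N4 → N4 := lmul add3 mul3 []

def ev1 (x : R) : N1 → R := lev (fun a : ℕ => (a : R)) x
def ev2 (x y : R) : N2 → R := lev (ev1 y) x
def ev3 (x y z : R) : N3 → R := lev (ev2 y z) x
def ev4 (x y z t : R) : N4 → R := lev (ev3 y z t) x

theorem ncast_add (a b : ℕ) : ((Nat.add a b : ℕ) : R) = a + b := Nat.cast_add a b
theorem ncast_mul (a b : ℕ) : ((Nat.mul a b : ℕ) : R) = a * b := Nat.cast_mul a b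

theorem ev1_add (x : R) (P Q : N1) : ev1 x (add1 P Q) = ev1 x P + ev1 x Q :=
  lev_ladd ncast_add x P Q
theorem ev2_add (x y : R) (P Q : N2) : ev2 x y (add2 P Q) = ev2 x y P + ev2 x y Q :=
  lev_ladd (ev1_add y) x P Q
theorem ev3_add (x y z : R) (P Q : N3) : ev3 x y z (add3 P Q) = ev3 x y z P + ev3 x y z Q :=
  lev_ladd (ev2_add y z) x P Q
theorem ev4_add (x y z t : R) (P Q : N4) :
    ev4 x y z t (add4 P Q) = ev4 x y z t P + ev4 x y z t Q :=
  lev_ladd (ev3_add y z t) x P Q
theorem ev1_mul (x : R) (P Q : N1) : ev1 x (mul1 P Q) = ev1 x P * ev1 x Q :=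
  lev_lmul ncast_add ncast_mul (by simp) x P Q
theorem ev2_mul (x y : R) (P Q : N2) : ev2 x y (mul2 P Q) = ev2 x y P * ev2 x y Q :=
  lev_lmul (ev1_add y) (ev1_mul y) rfl x P Q
theorem ev3_mul (x y z : R) (P Q : N3) : ev3 x y z (mul3 P Q) = ev3 x y z P * ev3 x y z Q :=
  lev_lmul (ev2_add y z) (ev2_mul y z) rfl x P Q
theorem ev4_mul (x y z t : R) (P Q : N4) :
    ev4 x y z t (mul4 P Q) = ev4 x y z t P * ev4 x y z t Q :=
  lev_lmul (ev3_add y z t) (ev3_mul y z t) rfl x P Q

/-! ### degree bounds -/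

structure DegS (add mul : α → α → α) (z : α) (D : ℕ → α → Prop) : Prop where
  zero : ∀ d, D d z
  mono : ∀ {d e a}, d ≤ e → D d a → D e a
  add : ∀ {d a b}, D d a → D d b → D d (add a b)
  mul : ∀ {d e a b}, D d a → D e b → D (d + e) (mul a b)

def DL (D : ℕ → α → Prop) (d : ℕ) (l : List α) : Prop := l.length ≤ d + 1 ∧ ∀ a ∈ l, D d a

theorem length_ladd (add : α → α → α) : ∀ l m : List α,
    (ladd add l m).length = max l.length m.length
  | [], m => by simp [ladd]
  | a :: l, [] => by simp [ladd]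
  | a :: l, b :: m => by simp only [ladd, List.length_cons, length_ladd add l m]; omega

theorem mem_ladd {add : α → α → α} {G : α → Prop} (h : ∀ a b, G a → G b → G (add a b)) :
    ∀ l m : List α, (∀ a ∈ l, G a) → (∀ a ∈ m, G a) → ∀ a ∈ ladd add l m, G a
  | [], m, _, hm => by simpa [ladd] using hm
  | a :: l, [], hl, _ => by simpa [ladd] using hl
  | a :: l, b :: m, hl, hm => by
    intro c hc
    rcases List.mem_cons.1 hc with rfl | hc
    · exact h _ _ (hl a (by simp)) (hm b (by simp))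
    · exact mem_ladd h l m (fun x hx => hl x (by simp [hx])) (fun x hx => hm x (by simp [hx])) c hc

theorem length_lmul (add mul : α → α → α) (z : α) {e : ℕ} {m : List α} (hm : m.length ≤ e + 1) :
    ∀ l : List α, (lmul add mul z l m).length ≤ l.length + e
  | [] => by simp [lmul]
  | a :: l => by
    have := length_lmul add mul z hm l
    simp only [lmul, length_ladd, List.length_map, List.length_cons]; omega

theorem DegS.lift {add mul : α → α → α} {z : α} {D : ℕ → α → Prop} (S : DegS add mul z D) :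
    DegS (ladd add) (lmul add mul z) [] (DL D) where
  zero d := ⟨by simp, by simp⟩
  mono h ha := ⟨by have := ha.1; omega, fun a h' => S.mono h (ha.2 a h')⟩
  add ha hb := ⟨by rw [length_ladd]; exact max_le ha.1 hb.1,
    mem_ladd (fun _ _ => S.add) _ _ ha.2 hb.2⟩
  mul {d e l m} ha hb := by
    refine ⟨by have := length_lmul add mul z hb.1 l; have := ha.1; omega, ?_⟩
    have h2 := ha.2
    clear ha
    induction l with
    | nil => simp [lmul]
    | cons a l ih =>
      refine mem_ladd (fun _ _ => S.add) _ _ ?_ ?_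
      · intro c hc
        obtain ⟨b, hb', rfl⟩ := List.mem_map.1 hc
        exact S.mul (h2 a (by simp)) (hb.2 b hb')
      · intro c hc
        rcases List.mem_cons.1 hc with rfl | hc
        · exact S.zero _
        · exact ih (fun x hx => h2 x (by simp [hx])) c hc

def D0 (_ _ : ℕ) : Prop := True
theorem degS0 : DegS Nat.add Nat.mul 0 D0 := ⟨fun _ => trivial, fun _ _ => trivial,
  fun _ _ => trivial, fun _ _ => trivial⟩
theorem degS4 : DegS add4 mul4 [] (DL (DL (DL (DL D0)))) := degS0.lift.lift.lift.lift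

/-! ### Kronecker substitution is injective on small polynomials -/

structure EncS (G : α → Prop) (enc : α → ℕ) (ev : α → ℝ) (z : α) (B : ℕ) : Prop where
  lt : ∀ a, G a → enc a < B
  inj : ∀ a b, G a → G b → enc a = enc b → ev a = ev b
  gz : G z
  ez : enc z = 0
  vz : ev z = 0

theorem EncS.lev_lt {G : α → Prop} {enc : α → ℕ} {ev : α → ℝ} {z : α} {B : ℕ}
    (S : EncS G enc ev z B) : ∀ l : List α, (∀ a ∈ l, G a) → lev enc B l < B ^ l.length
  | [], _ => by simp
  | a :: l, h => by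
    have h1 := S.lt a (h a (by simp))
    have h2 := S.lev_lt l (fun b hb => h b (by simp [hb]))
    simp only [lev_cons, List.length_cons, pow_succ]
    nlinarith

theorem EncS.lev_zero {G : α → Prop} {enc : α → ℕ} {ev : α → ℝ} {z : α} {B : ℕ}
    (S : EncS G enc ev z B) (x : ℝ) : ∀ l : List α, (∀ a ∈ l, G a) → lev enc B l = 0 →
      lev ev x l = 0
  | [], _, _ => rfl
  | a :: l, h, h0 => by
    have hB : 0 < B := by have := S.lt z S.gz; omega
    simp only [lev_cons, Nat.add_eq_zero_iff, Nat.mul_eq_zero] at h0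
    have h1 := S.inj a z (h a (by simp)) S.gz (by rw [h0.1, S.ez])
    have h2 := S.lev_zero x l (fun b hb => h b (by simp [hb])) (by omega)
    simp [h1, h2, S.vz]

theorem EncS.lev_inj {G : α → Prop} {enc : α → ℕ} {ev : α → ℝ} {z : α} {B : ℕ}
    (S : EncS G enc ev z B) (x : ℝ) : ∀ l m : List α, (∀ a ∈ l, G a) → (∀ a ∈ m, G a) →
      lev enc B l = lev enc B m → lev ev x l = lev ev x m
  | [], m, _, hm, h => (S.lev_zero x m hm h.symm).symm
  | a :: l, [], hl, _, h => S.lev_zero x _ hl h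
  | a :: l, b :: m, hl, hm, h => by
    have ha := S.lt a (hl a (by simp))
    have hb := S.lt b (hm b (by simp))
    simp only [lev_cons] at h
    have h1 : enc a = enc b := by
      have := congrArg (· % B) h
      simpa [Nat.mod_eq_of_lt ha, Nat.mod_eq_of_lt hb] using this
    have h2 : lev enc B l = lev enc B m := by
      rw [h1] at h
      exact Nat.eq_of_mul_eq_mul_left (by omega) (Nat.add_left_cancel h)
    rw [lev_cons, lev_cons, S.inj a b (hl a (by simp)) (hm b (by simp)) h1,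
      S.lev_inj x l m (fun c hc => hl c (by simp [hc])) (fun c hc => hm c (by simp [hc])) h2]

def GLs (G : α → Prop) (l : List α) : Prop := l.length ≤ 9 ∧ ∀ a ∈ l, G a

theorem EncS.lift {G : α → Prop} {enc : α → ℕ} {ev : α → ℝ} {z : α} {B : ℕ}
    (S : EncS G enc ev z B) (x : ℝ) : EncS (GLs G) (lev enc B) (lev ev x) [] (B ^ 9) where
  lt l h := (S.lev_lt l h.2).trans_le
    (Nat.pow_le_pow_right (by have := S.lt z S.gz; omega) h.1)
  inj l m hl hm := S.lev_inj x l m hl.2 hm.2
  gz := ⟨by simp, by simp⟩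
  ez := rfl
  vz := rfl

theorem encS0 {B : ℕ} (hB : 0 < B) :
    EncS (fun a : ℕ => a < B) (fun a : ℕ => (a : ℕ)) (fun a : ℕ => (a : ℝ)) 0 B :=
  ⟨fun _ h => h, fun _ _ _ _ h => by rw [h], hB, rfl, by simp⟩

theorem good4 {B : ℕ} {P : N4} (hD : DL (DL (DL (DL D0))) 8 P) (hB : ev4 1 1 1 1 P < B) :
    GLs (GLs (GLs (GLs (fun a : ℕ => a < B)))) P := by
  refine ⟨hD.1, fun a ha => ⟨(hD.2 a ha).1, fun b hb => ⟨((hD.2 a ha).2 b hb).1, fun c hc =>
    ⟨(((hD.2 a ha).2 b hb).2 c hc).1, fun d hd => ?_⟩⟩⟩⟩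
  have h1 := le_lev_one (ev := ev3 (1 : ℕ) 1 1) ha
  have h2 := le_lev_one (ev := ev2 (1 : ℕ) 1) hb
  have h3 := le_lev_one (ev := ev1 (1 : ℕ)) hc
  have h4 := le_lev_one (ev := fun a : ℕ => ((a : ℕ) : ℕ)) hd
  exact lt_of_le_of_lt (h4.trans (h3.trans (h2.trans h1))) hB

theorem kron4 {B : ℕ} {P Q : N4} (hP : DL (DL (DL (DL D0))) 8 P) (hQ : DL (DL (DL (DL D0))) 8 Q)
    (hP' : ev4 1 1 1 1 P < B) (hQ' : ev4 1 1 1 1 Q < B)
    (h : ev4 (((B ^ 9) ^ 9) ^ 9) ((B ^ 9) ^ 9) (B ^ 9) B P
      = ev4 (((B ^ 9) ^ 9) ^ 9) ((B ^ 9) ^ 9) (B ^ 9) B Q) (x y z t : ℝ) :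
    ev4 x y z t P = ev4 x y z t Q :=
  ((((encS0 (B := B) (by omega)).lift t).lift z).lift y).lev_inj x P Q
    (good4 hP hP').2 (good4 hQ hQ').2 h

/-! ### expressions -/

inductive PE : Type
  | X | Y | Z | T
  | num (n : ℕ)
  | add (a b : PE)
  | mul (a b : PE)
  | pow (a : PE) (n : ℕ)

/-- evaluation in `ℕ` (kernel friendly) -/
noncomputable def PE.evN (x y z t : ℕ) (e : PE) : ℕ :=
  @PE.rec (fun _ => ℕ) x y z t (fun n => n) (fun _ _ u v => Nat.add u v)
    (fun _ _ u v => Nat.mul u v) (fun _ n u => Nat.pow u n) e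

noncomputable def PE.deg (e : PE) : ℕ :=
  @PE.rec (fun _ => ℕ) 1 1 1 1 (fun _ => 0) (fun _ _ u v => Nat.max u v)
    (fun _ _ u v => Nat.add u v) (fun _ n u => Nat.mul n u) e

def PE.ev (x y z t : R) : PE → R
  | .X => x
  | .Y => y
  | .Z => z
  | .T => t
  | .num n => n
  | .add a b => a.ev x y z t + b.ev x y z t
  | .mul a b => a.ev x y z t * b.ev x y z t
  | .pow a n => a.ev x y z t ^ n

theorem PE.evN_eq (x y z t : ℕ) (e : PE) : e.evN x y z t = e.ev x y z t := by
  induction e with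
  | X => rfl
  | Y => rfl
  | Z => rfl
  | T => rfl
  | num n => rfl
  | add a b ha hb => exact congrArg₂ Nat.add ha hb
  | mul a b ha hb => exact congrArg₂ Nat.mul ha hb
  | pow a n ha => exact congrArg (fun u => Nat.pow u n) ha

def pow4 (P : N4) : ℕ → N4
  | 0 => [[[[1]]]]
  | n + 1 => mul4 P (pow4 P n)

def PE.toP : PE → N4
  | .X => [[], [[[1]]]]
  | .Y => [[[], [[1]]]]
  | .Z => [[[[], [1]]]]
  | .T => [[[[0, 1]]]]
  | .num n => [[[[n]]]]
  | .add a b => add4 a.toP b.toP
  | .mul a b => mul4 a.toP b.toP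
  | .pow a n => pow4 a.toP n

theorem ev4_pow (x y z t : R) (P : N4) : ∀ n, ev4 x y z t (pow4 P n) = ev4 x y z t P ^ n
  | 0 => by simp [pow4, ev4, ev3, ev2, ev1]
  | n + 1 => by rw [pow4, ev4_mul, ev4_pow x y z t P n]; ring

theorem PE.ev_toP (x y z t : R) (e : PE) : ev4 x y z t e.toP = e.ev x y z t := by
  induction e with
  | add a b ha hb => rw [toP, ev4_add, ha, hb, ev]
  | mul a b ha hb => rw [toP, ev4_mul, ha, hb, ev]
  | pow a n ha => rw [toP, ev4_pow, ha, ev]
  | _ => simp [toP, ev, ev4, ev3, ev2, ev1]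

theorem deg_pow4 {d : ℕ} {P : N4} (h : DL (DL (DL (DL D0))) d P) :
    ∀ n, DL (DL (DL (DL D0))) (n * d) (pow4 P n)
  | 0 => by simp [pow4, DL, D0]
  | n + 1 => by
    have := degS4.mul h (deg_pow4 h n)
    rwa [show d + n * d = (n + 1) * d by ring] at this

theorem PE.deg_toP (e : PE) : DL (DL (DL (DL D0))) e.deg e.toP := by
  induction e with
  | add a b ha hb =>
    exact degS4.add (degS4.mono (Nat.le_max_left _ _) ha) (degS4.mono (Nat.le_max_right _ _) hb)
  | mul a b ha hb => exact degS4.mul ha hb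
  | pow a n ha => exact deg_pow4 ha n
  | X => show DL _ 1 _; simp [toP, DL, D0]
  | Y => show DL _ 1 _; simp [toP, DL, D0]
  | Z => show DL _ 1 _; simp [toP, DL, D0]
  | T => show DL _ 1 _; simp [toP, DL, D0]
  | num n => show DL _ 0 _; simp [toP, DL, D0]

/-- `frc n f = f n`, evaluating `n` first. -/
noncomputable def frc {γ : Type} (n : ℕ) (f : ℕ → γ) : γ :=
  @Nat.rec (fun _ => γ) (f 0) (fun m _ => f m) (Nat.succ n)

theorem frc_eq {γ : Type} (n : ℕ) (f : ℕ → γ) : frc n f = f n := rfl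

/-- the check behind a polynomial identity of degree at most eight -/
noncomputable def kchk (B B1 B2 B3 : ℕ) (a b : PE) : Bool :=
  Nat.ble a.deg 8 && Nat.ble b.deg 8 && Nat.blt (a.evN 1 1 1 1) B && Nat.blt (b.evN 1 1 1 1) B &&
    Nat.beq (a.evN B3 B2 B1 B) (b.evN B3 B2 B1 B)

noncomputable def withB (B : ℕ) (k : ℕ → ℕ → ℕ → ℕ → Bool) : Bool :=
  frc B fun B => frc (Nat.pow B 9) fun B1 => frc (Nat.pow B1 9) fun B2 =>
    frc (Nat.pow B2 9) fun B3 => k B B1 B2 B3

theorem withB_eq (B : ℕ) (k : ℕ → ℕ → ℕ → ℕ → Bool) :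
    withB B k = k B (B ^ 9) ((B ^ 9) ^ 9) (((B ^ 9) ^ 9) ^ 9) := rfl

theorem kchk_sound {B : ℕ} {a b : PE}
    (h : kchk B (B ^ 9) ((B ^ 9) ^ 9) (((B ^ 9) ^ 9) ^ 9) a b = true) (x y z t : ℝ) :
    a.ev x y z t = b.ev x y z t := by
  simp only [kchk, Bool.and_eq_true, Nat.ble_eq, Nat.blt_eq, Nat.beq_eq, PE.evN_eq] at h
  obtain ⟨⟨⟨⟨h1, h2⟩, h3⟩, h4⟩, h5⟩ := h
  rw [← PE.ev_toP] at h3 h4 h5
  rw [← PE.ev_toP _ _ _ _ b] at h5
  rw [← PE.ev_toP, ← PE.ev_toP]
  exact kron4 (degS4.mono h1 a.deg_toP) (degS4.mono h2 b.deg_toP) h3 h4 h5 x y z t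

/-! ### packed comparison of many numbers -/

theorem lev_le_half {fm : α → ℕ} {k B : ℕ} : ∀ L : List α, (∀ a ∈ L, fm a < 2 ^ k) →
    lev fm B L ≤ lev (fun _ => 2 ^ k) B L
  | [], _ => le_rfl
  | a :: L, h => by
    have h1 := h a (by simp)
    have h2 := lev_le_half (B := B) L (fun b hb => h b (by simp [hb]))
    simp only [lev_cons]
    exact Nat.add_le_add h1.le (Nat.mul_le_mul_left _ h2)

theorem packed_le {fp fm : α → ℕ} {k : ℕ} : ∀ L : List α, (∀ a ∈ L, fp a < 2 ^ k) →
    (∀ a ∈ L, fm a < 2 ^ k) →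
    (lev fp (2 ^ (k + 1)) L + lev (fun _ => 2 ^ k) (2 ^ (k + 1)) L - lev fm (2 ^ (k + 1)) L)
      &&& lev (fun _ => 2 ^ k) (2 ^ (k + 1)) L = lev (fun _ => 2 ^ k) (2 ^ (k + 1)) L →
    ∀ a ∈ L, fm a ≤ fp a
  | [], _, _, _ => by simp
  | a :: L, hp, hm, h => by
    have hpa := hp a (by simp)
    have hma := hm a (by simp)
    have hp' : ∀ b ∈ L, fp b < 2 ^ k := fun b hb => hp b (by simp [hb])
    have hm' : ∀ b ∈ L, fm b < 2 ^ k := fun b hb => hm b (by simp [hb])
    have hle := lev_le_half (B := 2 ^ (k + 1)) L hm'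
    simp only [lev_cons] at h
    set B := 2 ^ (k + 1) with hB
    have hB2 : B = 2 * 2 ^ k := by rw [hB]; ring
    set H := lev (fun _ => 2 ^ k) B L
    set n := lev fp B L + H - lev fm B L with hn
    set e := fp a + 2 ^ k - fm a with he
    have h1 : fp a + B * lev fp B L + (2 ^ k + B * H) - (fm a + B * lev fm B L) = e + B * n := by
      have : B * n = B * lev fp B L + B * H - B * lev fm B L := by
        rw [hn, Nat.mul_sub, Nat.mul_add]
      have h3 : B * lev fm B L ≤ B * H := Nat.mul_le_mul_left _ hle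
      omega
    rw [h1] at h
    have heB : e < B := by omega
    have hkB : 2 ^ k < B := by have := Nat.two_pow_pos k; omega
    have hd := congrArg (· / B) h
    have hr := congrArg (· % B) h
    simp only [hB, Nat.and_div_two_pow, Nat.and_mod_two_pow] at hd hr
    rw [← hB] at hd hr
    have hBp : 0 < B := by omega
    rw [Nat.add_mul_div_left _ _ hBp, Nat.add_mul_div_left _ _ hBp, Nat.div_eq_of_lt heB,
      Nat.div_eq_of_lt hkB, Nat.zero_add, Nat.zero_add] at hd
    rw [Nat.add_mul_mod_self_left, Nat.add_mul_mod_self_left, Nat.mod_eq_of_lt heB,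
      Nat.mod_eq_of_lt hkB] at hr
    have h2 : 2 ^ k ≤ e := by rw [← hr]; exact Nat.and_le_left
    intro b hb
    rcases List.mem_cons.1 hb with rfl | hb
    · omega
    · exact packed_le L hp' hm' hd b hb

end Crest.Agent.R163.Poly
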