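import Crest.Agent.R163.Defs

/-! # Sums over `Perm (Fin 4)` as explicit lists -/

set_option autoImplicit false

namespace Crest.Agent.R163

/-- the 24 orderings of four indices -/
def idx24 : List (Fin 4 × Fin 4 × Fin 4 × Fin 4) :=
  [(0,1,2,3),(0,1,3,2),(0,2,1,3),(0,2,3,1),(0,3,1,2),(0,3,2,1),
   (1,0,2,3),(1,0,3,2),(1,2,0,3),(1,2,3,0),(1,3,0,2),(1,3,2,0),
   (2,0,1,3),(2,0,3,1),(2,1,0,3),(2,1,3,0),(2,3,0,1),(2,3,1,0),
   (3,0,1,2),(3,0,2,1),(3,1,0,2),(3,1,2,0),(3,2,0,1),(3,2,1,0)]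

theorem idx24_nodup : idx24.Nodup := by decide

theorem image_perm4 :
    (Finset.univ : Finset (Equiv.Perm (Fin 4))).image (fun σ => (σ 0, σ 1, σ 2, σ 3))
      = idx24.toFinset := by decide +kernel

theorem sum_perm4 (f : Fin 4 × Fin 4 × Fin 4 × Fin 4 → ℝ) :
    ∑ σ : Equiv.Perm (Fin 4), f (σ 0, σ 1, σ 2, σ 3) = (idx24.map f).sum := by
  rw [← List.sum_toFinset f idx24_nodup, ← image_perm4, Finset.sum_image]
  intro σ _ τ _ h
  simp only [Prod.mk.injEq] at h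
  obtain ⟨h0, h1, h2, h3⟩ := h
  ext i
  fin_cases i <;> simp_all

theorem Nm4_eq (a b c d : ℕ) (u : Fin 4 → ℝ) :
    Nm ![a, b, c, d] u =
      (idx24.map (fun t => u t.1 ^ a * u t.2.1 ^ b * u t.2.2.1 ^ c * u t.2.2.2 ^ d)).sum := by
  rw [← sum_perm4]
  unfold Nm
  refine Finset.sum_congr rfl fun σ _ => ?_
  simp [Fin.prod_univ_four]

end Crest.Agent.R163
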