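import Crest.Agent.R163.ExD
import Crest.Agent.R163.Perm4

/-!
# Four states: exact expansions of a product (lower bounds)

Notation for `p ∈ Spx 4`: `x = chi p`, `T = thr p`, `Q = (∑ (p i - 1)^4)/4`; for `u ≥ 0`,
`w = av u`, `s = w - 1`, `N2 u = av (u^2) - w^2`, `N3 u = av ((u - w)^3)`.  If `w > 0` then
`hat chi u = N2/w`, `hat thr u = N3/w^2` (if `w = 0` then `u = 0` and everything vanishes).

* `1/w = (1 - s) + s^2/w`, so `hat chi u ≥ N2 u * (2 - w)`.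
* `1/w^2 = (1 - 2s) + (3 s^2 + 2 s^3)/w^2`, so
  `hat thr u = N3 u * (3 - 2w) + hat thr u * (3 s^2 + 2 s^3)`, and for `u = p * σ p'`:
  `0 ≤ w ≤ 4`, `|hat thr u| ≤ 12 w ≤ 48` (`|thr| ≤ 4 chi ≤ 12` on `Spx 4`), `|3s^2+2s^3| ≤ 9 s^2`.

The polynomials `N2 (2 - w)`, `N3 (3 - 2w)`, `s^2` in `u` are linear combinations of the
`Nm γ u` (`|γ| ≤ 4`); `sum_Nm_mul` sums them over `σ`.  With `M γ = Nm γ / 24`, `P = T/6`,
`F = (Q - x^2)/4`, on `Spx 4`:
`M0 = M1 = 1`, `M2 = 1 + x`, `M11 = 1 - x/3`, `M3 = 1 + 3x + 6P`, `M21 = 1 + x/3 - 2P`,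
`M111 = 1 - x + 2P`, `M4 = 1 + 6x + 24P + x^2 + 4F`, `M31 = 1 + 2x - x^2/3 - 4F/3`,
`M22 = 1 + 2x/3 - 8P + x^2 - 4F/3`, `M211 = 1 - 2x/3 - x^2/3 + 4F/3`,
`M1111 = 1 - 2x + 8P + x^2 - 4F`; and for every `u`:
`w = M1`, `w^2 = M2/4 + 3 M11/4`, `N2 = 3/4 (M2 - M11)`,
`w N2 = 3/16 M3 + 3/16 M21 - 3/8 M111`, `N3 = 6 (M3/16 - 3 M21/16 + M111/8)`,
`w N3 = 6 (M4/64 - 3 M22/64 + M1111/32)`.  Results (averages over `σ`):
`s^2 ↦ x x'/3`;  `N2 (2-w) ↦ x + x' - 4 (P x' + x P') - 6 P P'`;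
`N3 (3-2w) ↦ T + T' + 4xx' - 6(xP' + Px') - 60PP' - 12(P x'^2 + x^2 P') - 8(xF' + Fx') - 8FF'`.
Bounds on `Spx 4`: `0 ≤ x ≤ 3`, `|T| ≤ 4x`, `0 ≤ Q ≤ 16 x`.
(`Nm4_eq` turns `Nm ![a,b,c,d] u` into an explicit sum of 24 monomials.)
-/

set_option autoImplicit false

namespace Crest.Agent.R163

open Crest.ProbabilityR.Broadcast

variable {Ω Ω' : Type*}

/-- the polynomial `N2 (2 - w)` -/
noncomputable def low4F (a b c d : ℝ) : ℝ :=
  ((a ^ 2 + b ^ 2 + c ^ 2 + d ^ 2) / 4 - ((a + b + c + d) / 4) ^ 2) * (2 - (a + b + c + d) / 4)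

theorem low4_hat {u : Fin 4 → ℝ} (hu : ∀ i, 0 ≤ u i) :
    low4F (u 0) (u 1) (u 2) (u 3) ≤ hat chi u := by
  have hw : av u = (u 0 + u 1 + u 2 + u 3) / 4 := by simp [av, Fin.sum_univ_four]
  rcases (av_nonneg hu).eq_or_lt with h | h
  · have h0 := eq_zero_of_av hu h.symm
    simp [low4F, hat, h0, ← h]
  · have hN : 0 ≤ (u 0 ^ 2 + u 1 ^ 2 + u 2 ^ 2 + u 3 ^ 2) / 4 - av u ^ 2 := by
      rw [hw]
      nlinarith [sq_nonneg (u 0 - u 1), sq_nonneg (u 0 - u 2), sq_nonneg (u 0 - u 3),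
        sq_nonneg (u 1 - u 2), sq_nonneg (u 1 - u 3), sq_nonneg (u 2 - u 3)]
    have e : hat chi u = ((u 0 ^ 2 + u 1 ^ 2 + u 2 ^ 2 + u 3 ^ 2) / 4 - av u ^ 2) * (1 / av u) := by
      have hs : u 3 = 4 * av u - u 0 - u 1 - u 2 := by rw [hw]; ring
      simp only [hat, chi, Fin.sum_univ_four]
      generalize av u = w at *
      rw [hs]
      have := h.ne'
      push_cast
      field_simp
      ring
    rw [e, low4F, ← hw]
    refine mul_le_mul_of_nonneg_left ?_ hN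
    rw [le_div_iff₀ h]
    nlinarith [sq_nonneg (av u - 1)]

theorem pt_chi_low {p p' : Fin 4 → ℝ} (hp : p ∈ Spx 4) (hp' : p' ∈ Spx 4) :
    24 * (chi p + chi p' - 2 / 3 * (thr p * chi p' + chi p * thr p') - thr p * thr p' / 6) ≤
      ∑ σ : Equiv.Perm (Fin 4), hat chi (fun i => p i * p' (σ i)) := by
  refine le_trans (le_of_eq ?_) (Finset.sum_le_sum fun σ _ =>
    low4_hat (u := fun i => p i * p' (σ i)) fun i => mul_nonneg (hp.1 i) (hp'.1 _))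
  rw [sum_perm4 fun t => low4F (p 0 * p' t.1) (p 1 * p' t.2.1) (p 2 * p' t.2.2.1)
    (p 3 * p' t.2.2.2)]
  have h1 : p 3 = 4 - p 0 - p 1 - p 2 := by
    have := hp.2
    rw [Fin.sum_univ_four] at this
    push_cast at this
    linarith
  have h2 : p' 3 = 4 - p' 0 - p' 1 - p' 2 := by
    have := hp'.2
    rw [Fin.sum_univ_four] at this
    push_cast at this
    linarith
  simp only [idx24, List.map_cons, List.map_nil, List.sum_cons, List.sum_nil, low4F, chi, thr,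
    Fin.sum_univ_four, h1, h2]
  push_cast
  ring

theorem chi_pr_low {L : Ω → Fin 4 → ℝ} {L' : Ω' → Fin 4 → ℝ} (hL : Ex L) (hL' : Ex L') :
    E L chi + E L' chi - 2 / 3 * (E L thr * E L' chi + E L chi * E L' thr)
      - E L thr * E L' thr / 6 ≤ E (pr L L') chi := by
  have h := pair_ge hL hL' Bd.chi (ι := Fin 5)
    ![chi, fun _ => 1, fun p => (-2 / 3) * thr p, fun p => (-2 / 3) * chi p,
      fun p => (-1 / 6) * thr p]
    ![fun _ => 1, chi, chi, thr, thr]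
    (fun k => by
      fin_cases k
      exacts [Bd.chi, Bd.const 1, Bd.thr.const_mul _, Bd.chi.const_mul _, Bd.thr.const_mul _])
    (fun k => by
      fin_cases k
      exacts [Bd.const 1, Bd.chi, Bd.chi, Bd.thr, Bd.thr])
    (fun p hp p' hp' => by
      refine le_trans (le_of_eq ?_) (pt_chi_low hp hp')
      simp [Fin.sum_univ_five, Nat.factorial]
      ring)
  refine le_trans (le_of_eq ?_) h
  simp [Fin.sum_univ_five, E_const hL, E_const hL', E_const_mul]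
  ring

end Crest.Agent.R163
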