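import Crest.Agent.R163.ExD
import Crest.Agent.R163.Perm4

/-!
# Four states (third moment): exact expansions of a product (lower bounds)

Notation for `p ∈ Spx 4`: `x = chi p`, `T = thr p`, `Q = (∑ (p i - 1)^4)/4`; for `u ≥ 0`,
`w = av u`, `s = w - 1`, `N2 u = av (u^2) - w^2`, `N3 u = av ((u - w)^3)`.  If `w > 0` then
`hat chi u = N2/w`, `hat thr u = N3/w^2` (if `w = 0` then `u = 0` and everything vanishes).

* `1/w = (1 - s) + s^2/w`, so `hat chi u ≥ N2 u * (2 - w)`.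
* `1/w^2 = (1 - 2s) + (3 s^2 + 2 s^3)/w^2`, so
  `hat thr u = N3 u * (3 - 2w) + hat thr u * (3 s^2 + 2 s^3)`, and for `u = p * σ p'`:
  `0 ≤ w ≤ 4`, `|hat thr u| ≤ 12 w ≤ 48` (`|thr| ≤ 4 chi ≤ 12` on `Spx 4`), `|3s^2+2s^3| ≤ 9 s^2`.

The polynomials `N2 (2 - w)`, `N3 (3 - 2w)`, `s^2` in `u` are linear combinations of the
`Nm γ u` (`|γ| ≤ 4`); `sum_Nm_mul` sums them over `σ`.  With `M γ = Nm γ / 24`, `P = T/6`,
`F = (Q - x^2)/4`, on `Spx 4`: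
`M0 = M1 = 1`, `M2 = 1 + x`, `M11 = 1 - x/3`, `M3 = 1 + 3x + 6P`, `M21 = 1 + x/3 - 2P`,
`M111 = 1 - x + 2P`, `M4 = 1 + 6x + 24P + x^2 + 4F`, `M31 = 1 + 2x - x^2/3 - 4F/3`,
`M22 = 1 + 2x/3 - 8P + x^2 - 4F/3`, `M211 = 1 - 2x/3 - x^2/3 + 4F/3`,
`M1111 = 1 - 2x + 8P + x^2 - 4F`; and for every `u`:
`w = M1`, `w^2 = M2/4 + 3 M11/4`, `N2 = 3/4 (M2 - M11)`,
`w N2 = 3/16 M3 + 3/16 M21 - 3/8 M111`, `N3 = 6 (M3/16 - 3 M21/16 + M111/8)`,
`w N3 = 6 (M4/64 - 3 M22/64 + M1111/32)`.  Results (averages over `σ`):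
`s^2 ↦ x x'/3`;  `N2 (2-w) ↦ x + x' - 4 (P x' + x P') - 6 P P'`;
`N3 (3-2w) ↦ T + T' + 4xx' - 6(xP' + Px') - 60PP' - 12(P x'^2 + x^2 P') - 8(xF' + Fx') - 8FF'`.
Bounds on `Spx 4`: `0 ≤ x ≤ 3`, `|T| ≤ 4x`, `0 ≤ Q ≤ 16 x`.
(`Nm4_eq` turns `Nm ![a,b,c,d] u` into an explicit sum of 24 monomials.)
-/

set_option autoImplicit false

namespace Crest.Agent.R163

open Crest.ProbabilityR.Broadcast

variable {Ω Ω' : Type*}

private lemma Low4B_hat {u : Fin 4 → ℝ} (hu : ∀ i, 0 ≤ u i) :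
    hat thr u * av u ^ 2 = (∑ i, (u i - av u) ^ 3) / 4 := by
  by_cases h : av u = 0
  · simp [h, eq_zero_of_av hu h]
  · simp only [hat, thr, Fin.sum_univ_four]
    field_simp
    ring

private lemma Low4B_poly (u : Fin 4 → ℝ) : (∑ i, (u i - av u) ^ 3) / 4 * (3 - 2 * av u) =
    3 / 64 * Nm ![3, 0, 0, 0] u - 9 / 64 * Nm ![2, 1, 0, 0] u + 3 / 32 * Nm ![1, 1, 1, 0] u -
      1 / 128 * Nm ![4, 0, 0, 0] u + 3 / 128 * Nm ![2, 2, 0, 0] u - 1 / 64 * Nm ![1, 1, 1, 1] u := by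
  simp only [Nm4_eq, idx24, List.map_cons, List.map_nil, List.sum_cons, List.sum_nil, av,
    Fin.sum_univ_four]
  push_cast
  ring

private lemma Low4B_sq (u : Fin 4 → ℝ) : (av u - 1) ^ 2 =
    1 / 96 * Nm ![2, 0, 0, 0] u + 1 / 32 * Nm ![1, 1, 0, 0] u - 1 / 12 * Nm ![1, 0, 0, 0] u + 1 := by
  simp only [Nm4_eq, idx24, List.map_cons, List.map_nil, List.sum_cons, List.sum_nil, av,
    Fin.sum_univ_four]
  push_cast
  ring

private lemma Low4B_mom {p : Fin 4 → ℝ} (hp : p ∈ Spx 4) : ∃ P F : ℝ, thr p = 6 * P ∧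
    |P| ≤ chi p ∧ |F| ≤ 5 * chi p ∧ Nm ![1, 0, 0, 0] p = 24 ∧
    Nm ![2, 0, 0, 0] p = 24 * (1 + chi p) ∧ Nm ![1, 1, 0, 0] p = 24 * (1 - chi p / 3) ∧
    Nm ![3, 0, 0, 0] p = 24 * (1 + 3 * chi p + 6 * P) ∧
    Nm ![2, 1, 0, 0] p = 24 * (1 + chi p / 3 - 2 * P) ∧
    Nm ![1, 1, 1, 0] p = 24 * (1 - chi p + 2 * P) ∧
    Nm ![4, 0, 0, 0] p = 24 * (1 + 6 * chi p + 24 * P + chi p ^ 2 + 4 * F) ∧
    Nm ![2, 2, 0, 0] p = 24 * (1 + 2 * chi p / 3 - 8 * P + chi p ^ 2 - 4 * F / 3) ∧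
    Nm ![1, 1, 1, 1] p = 24 * (1 - 2 * chi p + 8 * P + chi p ^ 2 - 4 * F) := by
  have h0 := chi_nonneg p
  have h1 : chi p ≤ 3 := by
    have := chi_le hp
    push_cast at this
    linarith
  have h2 : ∀ i, -1 ≤ p i - 1 ∧ p i - 1 ≤ 3 := fun i => by
    have := le_of_mem hp i
    push_cast at this
    exact ⟨by linarith [hp.1 i], by linarith⟩
  have h3 : ∀ i, -(p i - 1) ^ 2 ≤ (p i - 1) ^ 3 ∧ (p i - 1) ^ 3 ≤ 3 * (p i - 1) ^ 2 ∧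
      0 ≤ (p i - 1) ^ 4 ∧ (p i - 1) ^ 4 ≤ 9 * (p i - 1) ^ 2 := fun i => by
    have h4 : (p i - 1) ^ 2 ≤ 9 := by nlinarith [h2 i]
    have h5 := sq_nonneg (p i - 1)
    exact ⟨by nlinarith [h2 i], by nlinarith [h2 i], by positivity, by nlinarith⟩
  have h4 : chi p ^ 2 ≤ 3 * chi p := by nlinarith
  have h5 : p 3 = 4 - p 0 - p 1 - p 2 := by
    have := hp.2
    rw [Fin.sum_univ_four] at this
    push_cast at this
    linarith
  have ex : chi p = ((p 0 - 1) ^ 2 + (p 1 - 1) ^ 2 + (p 2 - 1) ^ 2 + (p 3 - 1) ^ 2) / 4 := by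
    simp [chi, Fin.sum_univ_four]
  have et : thr p = ((p 0 - 1) ^ 3 + (p 1 - 1) ^ 3 + (p 2 - 1) ^ 3 + (p 3 - 1) ^ 3) / 4 := by
    simp [thr, Fin.sum_univ_four]
  refine ⟨thr p / 6, (((p 0 - 1) ^ 4 + (p 1 - 1) ^ 4 + (p 2 - 1) ^ 4 + (p 3 - 1) ^ 4) / 4 -
    chi p ^ 2) / 4, by ring, abs_le.2 ⟨?_, ?_⟩, abs_le.2 ⟨?_, ?_⟩, ?_⟩
  · linarith [(h3 0).1, (h3 1).1, (h3 2).1, (h3 3).1]
  · linarith [(h3 0).2.1, (h3 1).2.1, (h3 2).2.1, (h3 3).2.1]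
  · linarith [(h3 0).2.2.1, (h3 1).2.2.1, (h3 2).2.2.1, (h3 3).2.2.1]
  · linarith [(h3 0).2.2.2, (h3 1).2.2.2, (h3 2).2.2.2, (h3 3).2.2.2, sq_nonneg (chi p)]
  simp only [Nm4_eq, idx24, List.map_cons, List.map_nil, List.sum_cons, List.sum_nil, ex, et, h5]
  refine ⟨?_, ?_, ?_, ?_, ?_, ?_, ?_, ?_, ?_⟩ <;> ring

private lemma Low4B_est {x x' P P' F F' : ℝ} (h0 : 0 ≤ x) (h1 : x ≤ 3) (h0' : 0 ≤ x') (h1' : x' ≤ 3)
    (hP : |P| ≤ x) (hP' : |P'| ≤ x') (hF : |F| ≤ 5 * x) (hF' : |F'| ≤ 5 * x') :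
    |4 * (x * x') - 6 * (x * P' + P * x') - 60 * (P * P') - 12 * (P * x' * x' + x * P' * x) -
      8 * (x * F' + F * x') - 8 * (F * F')| ≤ 428 * (x * x') := by
  have key : ∀ {a b c d : ℝ}, |a| ≤ c → |b| ≤ d → -(c * d) ≤ a * b ∧ a * b ≤ c * d :=
    fun h h' => abs_le.1 (by
      rw [abs_mul]; exact mul_le_mul h h' (abs_nonneg _) ((abs_nonneg _).trans h))
  have hx := (abs_of_nonneg h0).le
  have hx' := (abs_of_nonneg h0').le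
  have a1 := key hx hP'
  have a2 := key hP hx'
  have a3 := key hP hP'
  have a4 := key (abs_le.2 a2) (hx'.trans h1')
  have a5 := key (abs_le.2 a1) (hx.trans h1)
  have a6 := key hx hF'
  have a7 := key hF hx'
  have a8 := key hF hF'
  have a9 := mul_nonneg h0 h0'
  rw [abs_le]
  constructor <;> linarith [a1.1, a1.2, a2.1, a2.2, a3.1, a3.2, a4.1, a4.2, a5.1, a5.2, a6.1, a6.2,
    a7.1, a7.2, a8.1, a8.2]

theorem pt_thr : ∃ C0 : ℝ, 0 ≤ C0 ∧ ∀ p ∈ Spx 4, ∀ p' ∈ Spx 4,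
    |∑ σ : Equiv.Perm (Fin 4), hat thr (fun i => p i * p' (σ i)) - 24 * (thr p + thr p')|
      ≤ 24 * (C0 * (chi p * chi p')) := by
  refine ⟨700, by norm_num, fun p hp p' hp' => ?_⟩
  have hx : ∀ p ∈ Spx 4, chi p ≤ 3 := fun p hp => by
    have := chi_le hp
    push_cast at this
    linarith
  have hT : ∀ p ∈ Spx 4, |thr p| ≤ 18 := fun p hp => by
    obtain ⟨P, F, h1, h2, -⟩ := Low4B_mom hp
    rw [h1, abs_mul, abs_of_pos (by norm_num : (0 : ℝ) < 6)]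
    linarith [hx p hp]
  have h1 : ∀ σ : Equiv.Perm (Fin 4), ∀ u : Fin 4 → ℝ, u = (fun i => p i * p' (σ i)) →
      |hat thr u - (∑ i, (u i - av u) ^ 3) / 4 * (3 - 2 * av u)| ≤ 648 * (av u - 1) ^ 2 := by
    intro σ u hu
    have h2 : ∀ i, 0 ≤ u i := fun i => by rw [hu]; exact mul_nonneg (hp.1 _) (hp'.1 _)
    have h3 : av u ≤ 4 := by
      have := av_mul_le hp (perm_mem hp' σ)
      push_cast at this
      rwa [hu]
    have h4 := av_nonneg h2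
    have h5 := abs_hat_le hT h2
    rw [← Low4B_hat h2, show hat thr u - hat thr u * av u ^ 2 * (3 - 2 * av u) =
      hat thr u * (1 + 2 * av u) * (av u - 1) ^ 2 by ring, abs_mul, abs_mul, abs_sq,
      abs_of_nonneg (by linarith : 0 ≤ 1 + 2 * av u)]
    refine mul_le_mul_of_nonneg_right ?_ (sq_nonneg _)
    nlinarith [abs_nonneg (hat thr u)]
  have h2 := (Finset.abs_sum_le_sum_abs _ _).trans
    (Finset.sum_le_sum fun σ (_ : σ ∈ Finset.univ) => h1 σ _ rfl)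
  simp only [Low4B_poly, Low4B_sq, Finset.sum_sub_distrib, Finset.sum_add_distrib, ← Finset.mul_sum,
    sum_Nm_mul, Finset.sum_const, Finset.card_univ, Fintype.card_perm, Fintype.card_fin,
    nsmul_eq_mul] at h2
  obtain ⟨P, F, e0, hP, hF, e1, e2, e3, e4, e5, e6, e7, e8, e9⟩ := Low4B_mom hp
  obtain ⟨P', F', e0', hP', hF', e1', e2', e3', e4', e5', e6', e7', e8', e9'⟩ := Low4B_mom hp'
  have h3 := abs_le.1 (Low4B_est (chi_nonneg p) (hx p hp) (chi_nonneg p') (hx p' hp') hP hP' hF hF')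
  rw [e1, e2, e3, e4, e5, e6, e7, e8, e9, e1', e2', e3', e4', e5', e6', e7', e8', e9', abs_le] at h2
  norm_num [Nat.factorial] at h2
  have h4 := mul_nonneg (chi_nonneg p) (chi_nonneg p')
  rw [e0, e0', abs_le]
  constructor <;> linarith [h2.1, h2.2, h3.1, h3.2]

theorem thr_pr.{u, v} : ∃ C0 : ℝ, 0 ≤ C0 ∧ ∀ {Ω : Type u} {Ω' : Type v} {L : Ω → Fin 4 → ℝ}
    {L' : Ω' → Fin 4 → ℝ}, Ex L → Ex L' →
    |E (pr L L') thr - E L thr - E L' thr| ≤ C0 * (E L chi * E L' chi) := by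
  obtain ⟨C0, h0, h⟩ := pt_thr
  refine ⟨C0, h0, fun hL hL' => ?_⟩
  have hf : ∀ (c : ℝ) (k : Fin 3), Bd ((![thr, fun _ => 1, fun p => c * chi p] :
      Fin 3 → (Fin 4 → ℝ) → ℝ) k) := fun c k => by
    fin_cases k
    exacts [Bd.thr, Bd.const 1, Bd.chi.const_mul c]
  have hg : ∀ k : Fin 3, Bd ((![fun _ => 1, thr, chi] : Fin 3 → (Fin 4 → ℝ) → ℝ) k) := fun k => by
    fin_cases k
    exacts [Bd.const 1, Bd.thr, Bd.chi]
  have h1 := pair_le hL hL' Bd.thr _ _ (hf C0) hg fun p hp p' hp' => by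
    have := (abs_le.1 (h p hp p' hp')).2
    simp [Fin.sum_univ_three, Nat.factorial]
    linarith
  have h2 := pair_ge hL hL' Bd.thr _ _ (hf (-C0)) hg fun p hp p' hp' => by
    have := (abs_le.1 (h p hp p' hp')).1
    simp [Fin.sum_univ_three, Nat.factorial]
    linarith
  simp only [Fin.sum_univ_three, Matrix.cons_val, E_const hL, E_const hL', E_const_mul] at h1 h2
  rw [abs_le]
  constructor <;> linarith

end Crest.Agent.R163
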