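import Mathlib

/-!
# A real-variable lemma: the Lyapunov function `X - κ T^2 / X` under a merge

Proof.  If `X = 0` then `T = 0`, `T'' = T'`, and `t ↦ t - κ T'^2/t` is increasing, so the claim
follows from `X' ≤ X''` (if also `X' = 0`, then `T' = T'' = 0`); symmetrically if `X' = 0`.
Otherwise put `S = X + X' > 0`, `V = T^2/X`, `V' = T'^2/X'`, `W = (T+T')^2/S ≤ V + V'`,
`R = X X' S`; `X'' ≥ S/2`, `X X' ≤ S^2/4`.
(i) loss `l = 2/3 (T X' + X T') + T T'/6 ≤ 4/3 (|T| X' + X |T'|)` (use `|T'| ≤ 4X'`), and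
`|T| X' ≤ (δ/4) V + X X'^2/δ`; so `l ≤ (δ/3)(V + V') + 2R/δ`; crudely `l ≤ 11 X X'`.
(ii) `T''^2 ≤ (1 + δ/3)(T+T')^2 + (1 + 3/δ) C0^2 (X X')^2`, `(X X')^2/X'' ≤ R/2`,
`(T+T')^2/X'' = W + (T+T')^2 (S - X'')/(S X'') ≤ W + 22 (T+T')^2 X X'/S^2
 ≤ W + 88 |T+T'| X X'/S ≤ W + (δ/6) W + (11616/δ)(X X')^2/S ≤ (1 + δ/6) W + 2904 R/δ`.
As `(1+δ/3)(1+δ/6) ≤ 1 + 2δ/3` and `κ ≤ 1`:
`κ T''^2/X'' ≤ (κ + 2δ/3)(V + V') + (3872 + 2 C0^2) R/δ`.  Take `K0 = 3874 + 2 C0^2`.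
-/

set_option autoImplicit false

namespace Crest.Agent.R163

theorem merge_ex {X T : ℝ} (hX : 0 ≤ X) (h : |T| ≤ 4 * X) :
    ∃ a, |a| ≤ 4 ∧ T = a * X ∧ T ^ 2 / X = a ^ 2 * X := by
  rcases hX.eq_or_lt with rfl | hX
  · exact ⟨0, by norm_num, by simpa using h, by simp⟩
  · exact ⟨T / X, by rwa [abs_div, abs_of_pos hX, div_le_iff₀ hX], by field_simp, by field_simp⟩

theorem merge_loss {a a' : ℝ} (ha' : |a'| ≤ 4) :
    2 / 3 * (a + a') + a * a' / 6 ≤ 4 / 3 * (|a| + |a'|) := by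
  have h1 : a * a' ≤ |a| * 4 := (le_abs_self _).trans (by rw [abs_mul]; gcongr)
  linarith [le_abs_self a, le_abs_self a', abs_nonneg a']

theorem merge_amgm {δ η : ℝ} (hη : 0 ≤ η) (e : δ * η = 1) (u v : ℝ) :
    2 * (u * v) ≤ δ * u ^ 2 + η * v ^ 2 := by
  have h := mul_nonneg hη (sq_nonneg (δ * u - v))
  have : η * (δ * u - v) ^ 2 = (δ * η) * (δ * u ^ 2) - 2 * (δ * η) * (u * v) + η * v ^ 2 := by ring
  rw [this, e] at h
  linarith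

theorem merge_sq {δ η P S V Z U T C0 : ℝ} (hδ : 0 < δ) (hδ1 : δ ≤ 1) (hη : 1 ≤ η) (e : δ * η = 1)
    (P0 : 0 ≤ P) (S0 : 0 ≤ S) (V0 : 0 ≤ V) (hZ0 : 0 < Z) (SZ : S ≤ 2 * Z) (PS : 4 * P ≤ S ^ 2)
    (VS : V ≤ 16 * S) (UV : U ^ 2 ≤ S * V) (hB : S - Z ≤ 11 * P)
    (hE : (T - U) ^ 2 ≤ (C0 * P) ^ 2) :
    T ^ 2 / Z ≤ (1 + 2 * δ / 3) * V + (15488 + 2 * C0 ^ 2) * (η * (P * S)) := by
  have hη0 : 0 ≤ η := by linarith
  obtain ⟨R, hR⟩ : ∃ R, R = η * (P * S) := ⟨_, rfl⟩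
  have R0 : 0 ≤ R := by rw [hR]; positivity
  have hC : U ^ 2 ≤ Z * ((1 + δ / 6) * V + 11616 * R) := by
    have h1 : 22 * P * V ≤ S * (δ / 6 * V + 11616 * R) := by
      rcases le_or_gt (132 * P) (S * δ) with h | h
      · linarith [mul_le_mul_of_nonneg_right h V0, mul_nonneg S0 R0]
      · have h2 : S ≤ 33 * S ^ 2 * η := by
          calc S = S * δ * η := by rw [mul_assoc, e, mul_one]
            _ ≤ _ := mul_le_mul_of_nonneg_right (by linarith) hη0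
        have h3 := mul_le_mul_of_nonneg_left h2 P0
        have h4 := mul_le_mul_of_nonneg_left VS P0
        have h5 : 0 ≤ S * (δ / 6 * V) := by positivity
        rw [hR]
        linarith
    have h2 := mul_le_mul_of_nonneg_right SZ (by positivity : 0 ≤ δ / 6 * V + 11616 * R)
    have h3 := mul_le_mul_of_nonneg_right hB V0
    linarith
  have hD : η * (T - U) ^ 2 ≤ C0 ^ 2 * R * Z / 2 := by
    have h2 : P ≤ S * Z / 2 := by linarith [mul_le_mul_of_nonneg_left SZ S0]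
    calc η * (T - U) ^ 2 ≤ η * (C0 * P) ^ 2 := by gcongr
      _ = C0 ^ 2 * (η * P) * P := by ring
      _ ≤ C0 ^ 2 * (η * P) * (S * Z / 2) := by gcongr
      _ = _ := by rw [hR]; ring
  rw [div_le_iff₀ hZ0, ← hR]
  have h1 := merge_amgm hη0 e U (3 * (T - U))
  have h2 := mul_le_mul_of_nonneg_left hC (by positivity : 0 ≤ 1 + δ / 3)
  have h3 := le_mul_of_one_le_left (sq_nonneg (T - U)) hη
  have h4 : δ * (Z * R) ≤ Z * R := mul_le_of_le_one_left (by positivity) hδ1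
  have h5 : δ * (δ * (Z * V)) ≤ δ * (Z * V) := mul_le_of_le_one_left (by positivity) hδ1
  have h6 : 0 ≤ δ * (Z * V) := by positivity
  linarith

theorem merge_low (C0 : ℝ) : ∃ K0 : ℝ, 0 < K0 ∧
    ∀ X X' X'' T T' T'' κ δ : ℝ, 0 ≤ X → 0 ≤ X' → |T| ≤ 4 * X → |T'| ≤ 4 * X' →
      X ≤ X'' → X' ≤ X'' →
      X + X' - 2 / 3 * (T * X' + X * T') - T * T' / 6 ≤ X'' →
      |T'' - T - T'| ≤ C0 * (X * X') → 0 ≤ κ → κ ≤ 1 → 0 < δ → δ ≤ 1 →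
      X + X' - (κ + δ) * (T ^ 2 / X + T' ^ 2 / X') - K0 / δ * (X * X' * (X + X'))
        ≤ X'' - κ * (T'' ^ 2 / X'') := by
  refine ⟨20000 + 2 * C0 ^ 2, by positivity,
    fun X X' Z T T' T'' κ δ hX hX' hT hT' hZ hZ' hl hE hκ hκ1 hδ hδ1 => ?_⟩
  obtain ⟨a, ha, rfl, e1⟩ := merge_ex hX hT
  obtain ⟨a', ha', rfl, e2⟩ := merge_ex hX' hT'
  rcases (hX.trans hZ).eq_or_lt with rfl | hZ0
  · obtain rfl : X = 0 := le_antisymm hZ hX
    obtain rfl : X' = 0 := le_antisymm hZ' hX'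
    simp
  obtain ⟨η, hη, e⟩ : ∃ η, 1 ≤ η ∧ δ * η = 1 := ⟨δ⁻¹, (one_le_inv₀ hδ).2 hδ1, mul_inv_cancel₀ hδ.ne'⟩
  rw [e1, e2, div_eq_mul_inv _ δ, ← eq_inv_of_mul_eq_one_right e]
  have hη0 : 0 ≤ η := by linarith
  obtain ⟨P, hP⟩ : ∃ P, P = X * X' := ⟨_, rfl⟩
  obtain ⟨S, hS⟩ : ∃ S, S = X + X' := ⟨_, rfl⟩
  obtain ⟨V, hV⟩ : ∃ V, V = a ^ 2 * X + a' ^ 2 * X' := ⟨_, rfl⟩
  obtain ⟨U, hU⟩ : ∃ U, U = a * X + a' * X' := ⟨_, rfl⟩
  obtain ⟨R, hR⟩ : ∃ R, R = η * (P * S) := ⟨_, rfl⟩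
  have P0 : 0 ≤ P := by rw [hP]; positivity
  have S0 : 0 ≤ S := by rw [hS]; positivity
  have V0 : 0 ≤ V := by rw [hV]; positivity
  have R0 : 0 ≤ R := by rw [hR]; positivity
  have SZ : S ≤ 2 * Z := by linarith
  have PS : 4 * P ≤ S ^ 2 := by rw [hP, hS]; linarith [sq_nonneg (X - X')]
  have VS : V ≤ 16 * S := by
    have h1 : a ^ 2 ≤ 4 ^ 2 := by rw [← sq_abs]; exact pow_le_pow_left₀ (abs_nonneg _) ha 2
    have h2 : a' ^ 2 ≤ 4 ^ 2 := by rw [← sq_abs]; exact pow_le_pow_left₀ (abs_nonneg _) ha' 2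
    rw [hV, hS]
    linarith [mul_le_mul_of_nonneg_right h1 hX, mul_le_mul_of_nonneg_right h2 hX']
  have UV : U ^ 2 ≤ S * V := by
    have := mul_nonneg P0 (sq_nonneg (a - a'))
    rw [hU, hS, hV]
    rw [hP] at this
    linarith
  have hl1 : S - Z ≤ 4 / 3 * (|a| + |a'|) * P := by
    have := mul_le_mul_of_nonneg_right (merge_loss (a := a) ha') P0
    rw [hS, hP] at *
    linarith
  have hA : S - Z ≤ δ / 3 * V + 2 * R := by
    have h1 := mul_le_mul_of_nonneg_left (merge_amgm hη0 e |a| (2 * X')) hX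
    have h2 := mul_le_mul_of_nonneg_left (merge_amgm hη0 e |a'| (2 * X)) hX'
    rw [sq_abs] at h1 h2
    rw [hV]
    rw [hR, hS, hP] at *
    linarith
  have hB : S - Z ≤ 11 * P := by
    linarith [mul_le_mul_of_nonneg_right ha P0, mul_le_mul_of_nonneg_right ha' P0]
  have hE' : (T'' - U) ^ 2 ≤ (C0 * P) ^ 2 := by
    rw [← sq_abs, hU, ← sub_sub, hP]
    exact pow_le_pow_left₀ (abs_nonneg _) hE 2
  have hF := merge_sq hδ hδ1 hη e P0 S0 V0 hZ0 SZ PS VS UV hB hE'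
  rw [← hR] at hF
  have h1 := mul_le_mul_of_nonneg_left hF hκ
  have h2 : κ * (δ * V) ≤ δ * V := mul_le_of_le_one_left (by positivity) hκ1
  have h3 : κ * ((15488 + 2 * C0 ^ 2) * R) ≤ (15488 + 2 * C0 ^ 2) * R :=
    mul_le_of_le_one_left (by positivity) hκ1
  rw [← hP, ← hS, ← hV, mul_assoc, ← hR]
  linarith

end Crest.Agent.R163
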