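import Crest.Agent.R163.Poly
import Crest.Agent.R163.Defs

/-!
# The seven products of elementary symmetric polynomials of degree six in three coordinates
-/

set_option autoImplicit false

namespace Crest.Agent.R163

open Crest.Agent.R163.Poly

/-- the 6 orderings of three indices -/
def idx6 : List (Fin 3 × Fin 3 × Fin 3) := [(0,1,2),(0,2,1),(1,0,2),(1,2,0),(2,0,1),(2,1,0)]

theorem idx6_nodup : idx6.Nodup := by decide

theorem image_perm3 :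
    (Finset.univ : Finset (Equiv.Perm (Fin 3))).image (fun σ => (σ 0, σ 1, σ 2))
      = idx6.toFinset := by decide +kernel

theorem sum_idx6 (f : Fin 3 × Fin 3 × Fin 3 → ℝ) :
    ∑ σ : Equiv.Perm (Fin 3), f (σ 0, σ 1, σ 2) = (idx6.map f).sum := by
  rw [← List.sum_toFinset f idx6_nodup, ← image_perm3, Finset.sum_image]
  intro σ _ τ _ h
  simp only [Prod.mk.injEq] at h
  obtain ⟨h0, h1, h2⟩ := h
  ext i
  fin_cases i <;> simp_all

theorem Nm3_eq (a b c : ℕ) (u : Fin 3 → ℝ) :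
    Nm ![a, b, c] u = (idx6.map (fun t => u t.1 ^ a * u t.2.1 ^ b * u t.2.2 ^ c)).sum := by
  rw [← sum_idx6]
  unfold Nm
  refine Finset.sum_congr rfl fun σ _ => ?_
  simp [Fin.prod_univ_three]

/-- exponents `(a, b, c)` of `e1^a e2^b e3^c`, `a + 2b + 3c = 6` -/
def J3 : List (ℕ × ℕ × ℕ) := [(6,0,0),(4,1,0),(3,0,1),(2,2,0),(1,1,1),(0,3,0),(0,0,2)]

noncomputable def monR3 (e1 e2 e3 : ℝ) : List ℝ :=
  J3.map (fun t => e1 ^ t.1 * e2 ^ t.2.1 * e3 ^ t.2.2)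

noncomputable def muR3 (a b c : ℝ) : List ℝ :=
  monR3 (a + b + c) (a * b + (a + b) * c) (a * b * c)

noncomputable def mu3 (p : Fin 3 → ℝ) : List ℝ := muR3 (p 0) (p 1) (p 2)

def monP3 (e1 e2 e3 : PE) : List PE :=
  J3.map (fun t => .mul (.mul (.pow e1 t.1) (.pow e2 t.2.1)) (.pow e3 t.2.2))

def muP3 (a b c : PE) : List PE :=
  monP3 (.add (.add a b) c) (.add (.mul a b) (.mul (.add a b) c)) (.mul (.mul a b) c)

theorem ev_muP3 (x y z t : ℝ) (a b c : PE) :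
    (muP3 a b c).map (PE.ev x y z t) = muR3 (a.ev x y z t) (b.ev x y z t) (c.ev x y z t) := by
  simp only [muP3, monP3, muR3, monR3, List.map_map]
  rfl

theorem mu3_eq (p : Fin 3 → ℝ) :
    mu3 p = monR3 (∑ i, p i) (((∑ i, p i) ^ 2 - ∑ i, p i ^ 2) / 2) (∏ i, p i) := by
  simp only [mu3, muR3, Fin.sum_univ_three, Fin.prod_univ_three]
  congr 1; ring

theorem mu3_perm (p : Fin 3 → ℝ) (σ : Equiv.Perm (Fin 3)) : mu3 (fun i => p (σ i)) = mu3 p := by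
  rw [mu3_eq, mu3_eq, Equiv.sum_comp σ p, Equiv.sum_comp σ (fun i => p i ^ 2),
    Equiv.prod_comp σ p]

/-- the cell spanned by `(1,1,1), (0,1,1), (0,0,1)` -/
def cell3 : List PE := muP3 (linE 1 0 0 0) (linE 1 1 0 0) (linE 1 1 1 0)

theorem cov_mu3 {B : ℕ} {X : List (ℕ × ℕ × ℕ × ℕ)} {LA : List (List ℕ)}
    (hA : withB B (fun B B1 B2 B3 => chkCols B B1 B2 B3 X cell3 LA) = true)
    {p : Fin 3 → ℝ} (hp : ∀ i, 0 ≤ p i) : Cov LA (mu3 p) := by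
  rw [← mu3_perm p (Tuple.sort p)]
  have hm := Tuple.monotone_sort p
  set r : Fin 3 → ℝ := fun i => p (Tuple.sort p i) with hr
  have h0 : 0 ≤ r 0 := hp _
  have h01 : r 0 ≤ r 1 := hm (by decide : (0 : Fin 3) ≤ 1)
  have h12 : r 1 ≤ r 2 := hm (by decide : (1 : Fin 3) ≤ 2)
  have := cov_of_chkCols hA (x := r 0) (y := r 1 - r 0) (z := r 2 - r 1) (t := 0) h0
    (by linarith) (by linarith) le_rfl
  rw [cell3, ev_muP3] at this
  unfold mu3
  convert this using 2 <;> (rw [ev_linE]; push_cast; ring)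

def varE3 : Fin 3 → PE := ![.X, .Y, .Z]

def NP3 (g : ℕ × ℕ × ℕ) : PE :=
  sumE (idx6.map (fun t => .mul (.mul (.pow (varE3 t.1) g.1) (.pow (varE3 t.2.1) g.2.1))
    (.pow (varE3 t.2.2) g.2.2)))

def gam3 (g : ℕ × ℕ × ℕ) : Fin 3 → ℕ := ![g.1, g.2.1, g.2.2]
def dg3 (g : ℕ × ℕ × ℕ) : ℕ := g.1 + g.2.1 + g.2.2

theorem sum_gam3 (g : ℕ × ℕ × ℕ) : ∑ i, gam3 g i = dg3 g := by
  simp [gam3, dg3, Fin.sum_univ_three]

theorem ev_varE3 (p : Fin 3 → ℝ) (i : Fin 3) : (varE3 i).ev (p 0) (p 1) (p 2) 0 = p i := by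
  fin_cases i <;> rfl

theorem ev_NP3 (g : ℕ × ℕ × ℕ) (p : Fin 3 → ℝ) :
    (NP3 g).ev (p 0) (p 1) (p 2) 0 = Nm (gam3 g) p := by
  rw [NP3, ev_sumE, gam3, Nm3_eq, List.map_map]
  refine congrArg List.sum (List.map_congr_left fun t _ => ?_)
  simp only [Function.comp, PE.ev, ev_varE3]

/-- `3^|g| N_g e1^(6-|g|) = ∑ A_j μ_j` as polynomials -/
noncomputable def chkN3 (B B1 B2 B3 : ℕ) (g : ℕ × ℕ × ℕ) (A : List ℤ) : Bool :=
  Nat.ble (dg3 g) 6 && kchk B B1 B2 B3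
    (.add (.mul (.num (3 ^ dg3 g)) (.mul (NP3 g) (.pow (linE 1 1 1 0) (6 - dg3 g))))
      (combE (np A) (muP3 .X .Y .Z)))
    (combE (pp A) (muP3 .X .Y .Z))

theorem Nm_of_chkN3 {B : ℕ} {g : ℕ × ℕ × ℕ} {A : List ℤ}
    (h : chkN3 B (B ^ 9) ((B ^ 9) ^ 9) (((B ^ 9) ^ 9) ^ 9) g A = true) {p : Fin 3 → ℝ}
    (hp : p ∈ Spx 3) : dotR A (mu3 p) = 729 * Nm (gam3 g) p := by
  simp only [chkN3, Bool.and_eq_true, Nat.ble_eq] at h
  have h1 := kchk_sound h.2 (p 0) (p 1) (p 2) 0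
  simp only [PE.ev, ev_combE, ev_muP3, ev_linE, ev_NP3] at h1
  have hs : p 0 + p 1 + p 2 = 3 := by
    have := hp.2; rw [Fin.sum_univ_three] at this; exact_mod_cast this
  have h8 : (729 : ℝ) = 3 ^ dg3 g * 3 ^ (6 - dg3 g) := by
    rw [← pow_add, show dg3 g + (6 - dg3 g) = 6 by omega]; norm_num
  push_cast at h1
  simp only [one_mul, mul_zero, add_zero] at h1
  rw [hs] at h1
  rw [h8, dotR_pp_np, mu3]
  linarith

end Crest.Agent.R163
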