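import Crest.Agent.R163.Poly
import Crest.Agent.R163.Perm4

/-!
# The fifteen products of elementary symmetric polynomials of degree eight in four coordinates
-/

set_option autoImplicit false

namespace Crest.Agent.R163

open Crest.Agent.R163.Poly

/-- exponents `(a, b, c, d)` of `e1^a e2^b e3^c e4^d`, `a + 2b + 3c + 4d = 8` -/
def J4 : List (ℕ × ℕ × ℕ × ℕ) :=
  [(8,0,0,0),(6,1,0,0),(5,0,1,0),(4,2,0,0),(4,0,0,1),(3,1,1,0),(2,3,0,0),(2,1,0,1),(2,0,2,0),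
   (1,2,1,0),(1,0,1,1),(0,4,0,0),(0,2,0,1),(0,1,2,0),(0,0,0,2)]

noncomputable def monR (e1 e2 e3 e4 : ℝ) : List ℝ :=
  J4.map (fun t => e1 ^ t.1 * e2 ^ t.2.1 * (e3 ^ t.2.2.1 * e4 ^ t.2.2.2))

noncomputable def mu4 (a b c d : ℝ) : List ℝ :=
  monR (a + b + (c + d)) (a * b + c * d + (a + b) * (c + d)) (a * b * (c + d) + (a + b) * (c * d))
    (a * b * (c * d))

noncomputable def mu (p : Fin 4 → ℝ) : List ℝ := mu4 (p 0) (p 1) (p 2) (p 3)

def monP (e1 e2 e3 e4 : PE) : List PE :=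
  J4.map (fun t => .mul (.mul (.pow e1 t.1) (.pow e2 t.2.1))
    (.mul (.pow e3 t.2.2.1) (.pow e4 t.2.2.2)))

def muP (a b c d : PE) : List PE :=
  monP (.add (.add a b) (.add c d))
    (.add (.add (.mul a b) (.mul c d)) (.mul (.add a b) (.add c d)))
    (.add (.mul (.mul a b) (.add c d)) (.mul (.add a b) (.mul c d)))
    (.mul (.mul a b) (.mul c d))

theorem ev_muP (x y z t : ℝ) (a b c d : PE) :
    (muP a b c d).map (PE.ev x y z t)
      = mu4 (a.ev x y z t) (b.ev x y z t) (c.ev x y z t) (d.ev x y z t) := by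
  simp only [muP, monP, mu4, monR, List.map_map]
  rfl

theorem mu_eq (p : Fin 4 → ℝ) : mu p = monR (∑ i, p i) (((∑ i, p i) ^ 2 - ∑ i, p i ^ 2) / 2)
    (((∑ i, p i) ^ 3 - 3 * (∑ i, p i) * (∑ i, p i ^ 2) + 2 * ∑ i, p i ^ 3) / 6) (∏ i, p i) := by
  simp only [mu, mu4, Fin.sum_univ_four, Fin.prod_univ_four]
  congr 1 <;> ring

theorem mu_perm (p : Fin 4 → ℝ) (σ : Equiv.Perm (Fin 4)) : mu (fun i => p (σ i)) = mu p := by
  rw [mu_eq, mu_eq, Equiv.sum_comp σ p, Equiv.sum_comp σ (fun i => p i ^ 2),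
    Equiv.sum_comp σ (fun i => p i ^ 3), Equiv.prod_comp σ p]

/-- the cell spanned by `(1,1,1,5), (0,1,1,1), (0,0,1,1), (0,0,0,1)` -/
def cellA : List PE := muP (linE 1 0 0 0) (linE 1 1 0 0) (linE 1 1 1 0) (linE 5 1 1 1)
/-- the cell spanned by `(1,1,1,1), (0,1,1,1), (0,0,1,1), (1,1,1,5)` -/
def cellB : List PE := muP (linE 1 0 0 1) (linE 1 1 0 1) (linE 1 1 1 1) (linE 1 1 1 5)

theorem cov_mu {B : ℕ} {X : List (ℕ × ℕ × ℕ × ℕ)} {LA LB : List (List ℕ)}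
    (hA : withB B (fun B B1 B2 B3 => chkCols B B1 B2 B3 X cellA LA) = true)
    (hB : withB B (fun B B1 B2 B3 => chkCols B B1 B2 B3 X cellB LB) = true)
    {p : Fin 4 → ℝ} (hp : ∀ i, 0 ≤ p i) : Cov (LA ++ LB) (mu p) := by
  rw [← mu_perm p (Tuple.sort p)]
  have hm := Tuple.monotone_sort p
  set r : Fin 4 → ℝ := fun i => p (Tuple.sort p i) with hr
  have h0 : 0 ≤ r 0 := hp _
  have h01 : r 0 ≤ r 1 := hm (by decide : (0 : Fin 4) ≤ 1)
  have h12 : r 1 ≤ r 2 := hm (by decide : (1 : Fin 4) ≤ 2)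
  have h23 : r 2 ≤ r 3 := hm (by decide : (2 : Fin 4) ≤ 3)
  rcases le_total (4 * r 0) (r 3 - r 2) with h | h
  · have := cov_of_chkCols hA (x := r 0) (y := r 1 - r 0) (z := r 2 - r 1)
      (t := r 3 - r 2 - 4 * r 0) h0 (by linarith) (by linarith) (by linarith)
    rw [cellA, ev_muP] at this
    refine Cov.mono ?_ fun v hv => List.mem_append_left _ hv
    unfold mu
    convert this using 2 <;> (rw [ev_linE]; push_cast; ring)
  · have := cov_of_chkCols hB (x := r 0 - (r 3 - r 2) / 4) (y := r 1 - r 0) (z := r 2 - r 1)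
      (t := (r 3 - r 2) / 4) (by linarith) (by linarith) (by linarith) (by linarith)
    rw [cellB, ev_muP] at this
    refine Cov.mono ?_ fun v hv => List.mem_append_right _ hv
    unfold mu
    convert this using 2 <;> (rw [ev_linE]; push_cast; ring)

def varE : Fin 4 → PE := ![.X, .Y, .Z, .T]

def NP (g : ℕ × ℕ × ℕ × ℕ) : PE :=
  sumE (idx24.map (fun t => .mul (.mul (.mul (.pow (varE t.1) g.1) (.pow (varE t.2.1) g.2.1))
    (.pow (varE t.2.2.1) g.2.2.1)) (.pow (varE t.2.2.2) g.2.2.2)))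

def gam (g : ℕ × ℕ × ℕ × ℕ) : Fin 4 → ℕ := ![g.1, g.2.1, g.2.2.1, g.2.2.2]
def dg (g : ℕ × ℕ × ℕ × ℕ) : ℕ := g.1 + g.2.1 + g.2.2.1 + g.2.2.2

theorem sum_gam (g : ℕ × ℕ × ℕ × ℕ) : ∑ i, gam g i = dg g := by
  simp [gam, dg, Fin.sum_univ_four]

theorem ev_varE (p : Fin 4 → ℝ) (i : Fin 4) : (varE i).ev (p 0) (p 1) (p 2) (p 3) = p i := by
  fin_cases i <;> rfl

theorem ev_NP (g : ℕ × ℕ × ℕ × ℕ) (p : Fin 4 → ℝ) :
    (NP g).ev (p 0) (p 1) (p 2) (p 3) = Nm (gam g) p := by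
  rw [NP, ev_sumE, gam, Nm4_eq, List.map_map]
  refine congrArg List.sum (List.map_congr_left fun t _ => ?_)
  simp only [Function.comp, PE.ev, ev_varE]

/-- `4^|g| N_g e1^(8-|g|) = ∑ A_j μ_j` as polynomials -/
noncomputable def chkN (B B1 B2 B3 : ℕ) (g : ℕ × ℕ × ℕ × ℕ) (A : List ℤ) : Bool :=
  Nat.ble (dg g) 8 && kchk B B1 B2 B3
    (.add (.mul (.num (4 ^ dg g)) (.mul (NP g) (.pow (linE 1 1 1 1) (8 - dg g))))
      (combE (np A) (muP .X .Y .Z .T)))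
    (combE (pp A) (muP .X .Y .Z .T))

theorem Nm_of_chkN {B : ℕ} {g : ℕ × ℕ × ℕ × ℕ} {A : List ℤ}
    (h : chkN B (B ^ 9) ((B ^ 9) ^ 9) (((B ^ 9) ^ 9) ^ 9) g A = true) {p : Fin 4 → ℝ}
    (hp : p ∈ Spx 4) : dotR A (mu p) = 65536 * Nm (gam g) p := by
  simp only [chkN, Bool.and_eq_true, Nat.ble_eq] at h
  have h1 := kchk_sound h.2 (p 0) (p 1) (p 2) (p 3)
  simp only [PE.ev, ev_combE, ev_muP, ev_linE, ev_NP] at h1
  have hs : p 0 + p 1 + p 2 + p 3 = 4 := by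
    have := hp.2; rw [Fin.sum_univ_four] at this; exact_mod_cast this
  have h8 : (65536 : ℝ) = 4 ^ dg g * 4 ^ (8 - dg g) := by
    rw [← pow_add, show dg g + (8 - dg g) = 8 by omega]; norm_num
  push_cast at h1
  simp only [one_mul] at h1
  rw [hs] at h1
  rw [h8, dotR_pp_np, mu]
  linarith

end Crest.Agent.R163
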