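import Crest.Agent.R163.Kron

/-!
# Cones spanned by integer vectors ("lanes") and kernel-checkable positivity certificates
-/

set_option autoImplicit false

namespace Crest.Agent.R163.Poly

/-! ### vectors -/

noncomputable def dotRR : List ℝ → List ℝ → ℝ
  | a :: l, b :: m => a * b + dotRR l m
  | _, _ => 0

@[simp] theorem dotRR_nil (m : List ℝ) : dotRR [] m = 0 := by cases m <;> rfl
@[simp] theorem dotRR_nil' (l : List ℝ) : dotRR l [] = 0 := by cases l <;> rfl
@[simp] theorem dotRR_cons (a : ℝ) (l : List ℝ) (b : ℝ) (m : List ℝ) :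
    dotRR (a :: l) (b :: m) = a * b + dotRR l m := rfl

theorem dotRR_comm : ∀ l m : List ℝ, dotRR l m = dotRR m l
  | [], m => by simp
  | a :: l, [] => by simp
  | a :: l, b :: m => by simp only [dotRR_cons, dotRR_comm l m]; ring

noncomputable def zc (v : List ℤ) : List ℝ := v.map (fun a : ℤ => (a : ℝ))
noncomputable def nc (v : List ℕ) : List ℝ := v.map (fun a : ℕ => (a : ℝ))
@[simp] theorem zc_nil : zc [] = [] := rfl
@[simp] theorem zc_cons (a : ℤ) (l : List ℤ) : zc (a :: l) = (a : ℝ) :: zc l := rfl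
@[simp] theorem nc_nil : nc [] = [] := rfl
@[simp] theorem nc_cons (a : ℕ) (l : List ℕ) : nc (a :: l) = (a : ℝ) :: nc l := rfl

/-- pairing of an integer functional with a real vector -/
noncomputable def dotR (c : List ℤ) (m : List ℝ) : ℝ := dotRR (zc c) m

@[simp] theorem dotR_nil (m : List ℝ) : dotR [] m = 0 := by simp [dotR]
@[simp] theorem dotR_nil' (l : List ℤ) : dotR l [] = 0 := by simp [dotR]
@[simp] theorem dotR_cons (a : ℤ) (l : List ℤ) (b : ℝ) (m : List ℝ) :
    dotR (a :: l) (b :: m) = a * b + dotR l m := rfl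

def vadd : List ℤ → List ℤ → List ℤ := ladd Int.add
def madd : List (List ℤ) → List (List ℤ) → List (List ℤ) := ladd vadd
def vsmul (c : ℤ) (v : List ℤ) : List ℤ := v.map (Int.mul c)

theorem cast_add' (a b : ℤ) : ((Int.add a b : ℤ) : ℝ) = a + b := Int.cast_add a b
theorem cast_mul' (a b : ℤ) : ((Int.mul a b : ℤ) : ℝ) = a * b := Int.cast_mul a b

theorem dotR_add : ∀ (u v : List ℤ) (m : List ℝ), dotR (vadd u v) m = dotR u m + dotR v m
  | [], v, m => by simp [vadd, ladd]
  | a :: u, [], m => by simp [vadd, ladd]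
  | a :: u, b :: v, [] => by simp
  | a :: u, b :: v, c :: m => by
    have := dotR_add u v m
    simp only [vadd] at this
    simp only [vadd, ladd, dotR_cons, this, cast_add']; ring

theorem dotR_smul (c : ℤ) : ∀ (v : List ℤ) (m : List ℝ), dotR (vsmul c v) m = c * dotR v m
  | [], m => by simp [vsmul]
  | a :: v, [] => by simp
  | a :: v, b :: m => by
    have := dotR_smul c v m
    simp only [vsmul] at this
    simp only [vsmul, List.map_cons, dotR_cons, this, cast_mul']; ring

/-- kernel-friendly dot product of lists of naturals -/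
noncomputable def dotN (l : List ℕ) : List ℕ → ℕ :=
  @List.rec ℕ (fun _ => List ℕ → ℕ) (fun _ => 0)
    (fun a _ ih m => @List.rec ℕ (fun _ => ℕ) 0 (fun b m' _ => Nat.add (Nat.mul a b) (ih m')) m) l

@[simp] theorem dotN_nil (m : List ℕ) : dotN [] m = 0 := rfl
@[simp] theorem dotN_nil' (l : List ℕ) : dotN l [] = 0 := by cases l <;> rfl
@[simp] theorem dotN_cons (a : ℕ) (l : List ℕ) (b : ℕ) (m : List ℕ) :
    dotN (a :: l) (b :: m) = a * b + dotN l m := rfl

theorem cast_dotN : ∀ l m : List ℕ, (dotN l m : ℝ) = dotRR (nc l) (nc m)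
  | [], m => by simp
  | a :: l, [] => by simp
  | a :: l, b :: m => by simp [cast_dotN l m]

/-- positive and negative parts -/
def pp (c : List ℤ) : List ℕ := c.map Int.toNat
def np (c : List ℤ) : List ℕ := c.map (fun a => Int.toNat (-a))

theorem dotR_pp_np : ∀ (c : List ℤ) (m : List ℝ),
    dotR c m = dotRR (nc (pp c)) m - dotRR (nc (np c)) m
  | [], m => by simp [pp, np]
  | a :: c, [] => by simp
  | a :: c, b :: m => by
    have h := dotR_pp_np c m
    have h2 : ((a.toNat : ℕ) : ℝ) - (((-a).toNat : ℕ) : ℝ) = a := by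
      exact_mod_cast Int.toNat_sub_toNat_neg a
    simp only [pp, np] at h
    simp only [pp, np, List.map_cons, nc_cons, dotRR_cons, dotR_cons, h]
    rw [← h2]; ring

/-- the real vector `μ` lies in the closed cone spanned by the vectors in `L` -/
def Cov (L : List (List ℕ)) (μ : List ℝ) : Prop :=
  ∀ l : List ℝ, (∀ v ∈ L, 0 ≤ dotRR l (nc v)) → 0 ≤ dotRR l μ

theorem Cov.mono {L L' : List (List ℕ)} {μ : List ℝ} (h : Cov L μ) (hL : ∀ v ∈ L, v ∈ L') :
    Cov L' μ := fun l hl => h l fun v hv => hl v (hL v hv)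

/-! ### lanes from polynomial identities -/

def monE (b : ℕ × ℕ × ℕ × ℕ) : PE :=
  .mul (.mul (.pow .X b.1) (.pow .Y b.2.1)) (.mul (.pow .Z b.2.2.1) (.pow .T b.2.2.2))

/-- `∑ (head v) * monomial` -/
def colE : List (List ℕ) → List (ℕ × ℕ × ℕ × ℕ) → PE
  | v :: L, b :: X => .add (.mul (.num (v.headD 0)) (monE b)) (colE L X)
  | _, _ => .num 0

noncomputable def wsum (x y z t : ℝ) (l : List ℝ) : List (List ℕ) → List (ℕ × ℕ × ℕ × ℕ) → ℝ
  | v :: L, b :: X => (monE b).ev x y z t * dotRR l (nc v) + wsum x y z t l L X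
  | _, _ => 0

theorem wsum_nonneg {x y z t : ℝ} (hx : 0 ≤ x) (hy : 0 ≤ y) (hz : 0 ≤ z) (ht : 0 ≤ t)
    (l : List ℝ) : ∀ (L : List (List ℕ)) (X : List (ℕ × ℕ × ℕ × ℕ)),
      (∀ v ∈ L, 0 ≤ dotRR l (nc v)) → 0 ≤ wsum x y z t l L X
  | [], X, _ => by cases X <;> exact le_rfl
  | v :: L, [], _ => le_rfl
  | v :: L, b :: X, h => by
    have h1 := h v (by simp)
    have h2 := wsum_nonneg hx hy hz ht l L X (fun w hw => h w (by simp [hw]))
    simp only [wsum, monE, PE.ev]
    positivity

theorem wsum_nil (x y z t : ℝ) : ∀ (L : List (List ℕ)) (X : List (ℕ × ℕ × ℕ × ℕ)),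
    wsum x y z t [] L X = 0
  | [], X => by cases X <;> rfl
  | v :: L, [] => rfl
  | v :: L, b :: X => by simp [wsum, wsum_nil x y z t L X]

theorem wsum_empty (x y z t : ℝ) (l : List ℝ) :
    ∀ (L : List (List ℕ)) (X : List (ℕ × ℕ × ℕ × ℕ)), L.all List.isEmpty = true →
      wsum x y z t l L X = 0
  | [], X, _ => by cases X <;> rfl
  | v :: L, [], _ => rfl
  | v :: L, b :: X, h => by
    simp only [List.all_cons, Bool.and_eq_true, List.isEmpty_iff] at h
    simp [wsum, wsum_empty x y z t l L X h.2, h.1]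

theorem wsum_cons (x y z t a : ℝ) (l : List ℝ) :
    ∀ (L : List (List ℕ)) (X : List (ℕ × ℕ × ℕ × ℕ)),
      wsum x y z t (a :: l) L X
        = a * (colE L X).ev x y z t + wsum x y z t l (L.map List.tail) X
  | [], X => by cases X <;> simp [wsum, colE, PE.ev]
  | v :: L, [] => by simp [wsum, colE, PE.ev]
  | v :: L, b :: X => by
    simp only [wsum, colE, PE.ev, List.map_cons, wsum_cons x y z t a l L X]
    cases v <;> simp <;> ring

noncomputable def chkCols (B B1 B2 B3 : ℕ) (X : List (ℕ × ℕ × ℕ × ℕ)) (ms : List PE) :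
    List (List ℕ) → Bool :=
  @List.rec PE (fun _ => List (List ℕ) → Bool) (fun L => L.all List.isEmpty)
    (fun m _ ih L => kchk B B1 B2 B3 m (colE L X) && ih (L.map List.tail)) ms

theorem chkCols_sound {B : ℕ} (X : List (ℕ × ℕ × ℕ × ℕ)) (x y z t : ℝ) :
    ∀ (ms : List PE) (L : List (List ℕ)) (l : List ℝ),
      chkCols B (B ^ 9) ((B ^ 9) ^ 9) (((B ^ 9) ^ 9) ^ 9) X ms L = true →
      dotRR l (ms.map (PE.ev x y z t)) = wsum x y z t l L X
  | [], L, l, h => by rw [wsum_empty x y z t l L X h]; simp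
  | m :: ms, L, [], _ => by rw [wsum_nil]; simp
  | m :: ms, L, a :: l, h => by
    have h' : (kchk B (B ^ 9) ((B ^ 9) ^ 9) (((B ^ 9) ^ 9) ^ 9) m (colE L X) &&
      chkCols B (B ^ 9) ((B ^ 9) ^ 9) (((B ^ 9) ^ 9) ^ 9) X ms (L.map List.tail)) = true := h
    rw [Bool.and_eq_true] at h'
    rw [wsum_cons, List.map_cons, dotRR_cons, kchk_sound h'.1,
      chkCols_sound X x y z t ms _ l h'.2]

theorem cov_of_chkCols {B : ℕ} {X : List (ℕ × ℕ × ℕ × ℕ)} {ms : List PE} {L : List (List ℕ)}
    (h : withB B (fun B B1 B2 B3 => chkCols B B1 B2 B3 X ms L) = true) {x y z t : ℝ}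
    (hx : 0 ≤ x) (hy : 0 ≤ y) (hz : 0 ≤ z) (ht : 0 ≤ t) : Cov L (ms.map (PE.ev x y z t)) := by
  intro l hl
  rw [chkCols_sound X x y z t ms L l h]
  exact wsum_nonneg hx hy hz ht l L X hl

/-- `∑ a_j m_j` -/
def combE : List ℕ → List PE → PE
  | a :: l, m :: ms => .add (.mul (.num a) m) (combE l ms)
  | _, _ => .num 0

theorem ev_combE (x y z t : ℝ) : ∀ (l : List ℕ) (ms : List PE),
    (combE l ms).ev x y z t = dotRR (nc l) (ms.map (PE.ev x y z t))
  | [], ms => by cases ms <;> simp [combE, PE.ev]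
  | a :: l, [] => by simp [combE, PE.ev]
  | a :: l, m :: ms => by simp [combE, PE.ev, ev_combE x y z t l ms]

def sumE : List PE → PE
  | [] => .num 0
  | m :: ms => .add m (sumE ms)

theorem ev_sumE (x y z t : ℝ) : ∀ ms : List PE,
    (sumE ms).ev x y z t = (ms.map (PE.ev x y z t)).sum
  | [] => by simp [sumE, PE.ev]
  | m :: ms => by simp [sumE, PE.ev, ev_sumE x y z t ms]

/-- the linear form `a x + b y + c z + d t` -/
def linE (a b c d : ℕ) : PE :=
  .add (.add (.mul (.num a) .X) (.mul (.num b) .Y)) (.add (.mul (.num c) .Z) (.mul (.num d) .T))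

theorem ev_linE (x y z t : ℝ) (a b c d : ℕ) :
    (linE a b c d).ev x y z t = a * x + b * y + c * z + d * t := by
  simp [linE, PE.ev]; ring

/-! ### packed lanes -/

/-- `v + B w` -/
noncomputable def axpy (B : ℕ) (v : List ℕ) : List ℕ → List ℕ :=
  @List.rec ℕ (fun _ => List ℕ → List ℕ) (fun w => w.map (Nat.mul B))
    (fun a v' ih w => @List.rec ℕ (fun _ => List ℕ) (a :: v')
      (fun b w' _ => Nat.add a (Nat.mul B b) :: ih w') w) v

theorem dotN_map_mul (B : ℕ) : ∀ c w : List ℕ, dotN c (w.map (Nat.mul B)) = B * dotN c w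
  | [], w => by simp
  | a :: c, [] => by simp
  | a :: c, b :: w => by
    simp only [List.map_cons, dotN_cons, dotN_map_mul B c w, Nat.mul_eq]; ring

theorem dotN_axpy (B : ℕ) : ∀ c v w : List ℕ, dotN c (axpy B v w) = dotN c v + B * dotN c w
  | [], v, w => by simp
  | a :: c, [], w => by
    show dotN (a :: c) (w.map (Nat.mul B)) = _
    rw [dotN_map_mul]; simp
  | a :: c, b :: v, [] => by
    show dotN (a :: c) (b :: v) = _
    simp
  | a :: c, b :: v, d :: w => by
    show dotN (a :: c) (Nat.add b (Nat.mul B d) :: axpy B v w) = _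
    simp only [dotN_cons, dotN_axpy B c v w, Nat.add_eq, Nat.mul_eq]; ring

/-- force the entries of a list -/
noncomputable def frcL {γ : Type} (l : List ℕ) : (List ℕ → γ) → γ :=
  @List.rec ℕ (fun _ => (List ℕ → γ) → γ) (fun k => k [])
    (fun a _ ih k => frc a fun a' => ih fun l' => k (a' :: l')) l

theorem frcL_eq {γ : Type} : ∀ (l : List ℕ) (k : List ℕ → γ), frcL l k = k l
  | [], _ => rfl
  | a :: l, k => frcL_eq l (fun l' => k (a :: l'))

/-- the columns of `L`, each packed into one number in base `B` -/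
noncomputable def cols (B : ℕ) (L : List (List ℕ)) : List ℕ :=
  @List.rec (List ℕ) (fun _ => List ℕ) [] (fun v _ ih => axpy B v ih) L

theorem dotN_cols (B : ℕ) (c : List ℕ) : ∀ L : List (List ℕ),
    dotN c (cols B L) = lev (dotN c) B L
  | [] => by show dotN c [] = _; simp
  | v :: L => by
    show dotN c (axpy B v (cols B L)) = _
    rw [dotN_axpy, dotN_cols B c L, lev_cons]

noncomputable def mask (h B : ℕ) (L : List (List ℕ)) : ℕ :=
  @List.rec (List ℕ) (fun _ => ℕ) 0 (fun _ _ ih => Nat.add h (Nat.mul B ih)) L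

theorem mask_eq (h B : ℕ) : ∀ L : List (List ℕ), mask h B L = lev (fun _ => h) B L
  | [] => rfl
  | _ :: L => congrArg (fun u => h + B * u) (mask_eq h B L)

noncomputable def cmp (h H sp sm tp tm : ℕ) : Bool :=
  Nat.blt tp h && Nat.blt tm h && Nat.beq (Nat.land (Nat.sub (Nat.add sp H) sm) H) H

theorem cmp_sound {L : List (List ℕ)} {fp fm : List ℕ → ℕ} {k : ℕ}
    (h : cmp (2 ^ k) (mask (2 ^ k) (2 ^ (k + 1)) L) (lev fp (2 ^ (k + 1)) L)
      (lev fm (2 ^ (k + 1)) L) (lev fp 1 L) (lev fm 1 L) = true) : ∀ v ∈ L, fm v ≤ fp v := by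
  simp only [cmp, Bool.and_eq_true, Nat.blt_eq, Nat.beq_eq, mask_eq] at h
  exact packed_le L (fun a ha => (le_lev_one ha).trans_lt h.1.1)
    (fun a ha => (le_lev_one ha).trans_lt h.1.2) h.2

/-- prepare the packed columns, the column sums and the mask -/
noncomputable def withL (k : ℕ) (L : List (List ℕ)) (f : ℕ → ℕ → List ℕ → List ℕ → Bool) : Bool :=
  frc (Nat.pow 2 k) fun h => frc (Nat.pow 2 (Nat.succ k)) fun B => frc (mask h B L) fun H =>
    frcL (cols B L) fun P => frcL (cols 1 L) fun S => f h H P S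

theorem withL_eq (k : ℕ) (L : List (List ℕ)) (f : ℕ → ℕ → List ℕ → List ℕ → Bool) :
    withL k L f = f (2 ^ k) (mask (2 ^ k) (2 ^ (k + 1)) L) (cols (2 ^ (k + 1)) L) (cols 1 L) := by
  simp only [withL, frc_eq, frcL_eq]; rfl

/-- all functionals in `C` are nonnegative on all lanes -/
noncomputable def chkF (k : ℕ) (L : List (List ℕ)) (C : List (List ℤ)) : Bool :=
  withL k L fun h H P S => C.all fun c => frcL (pp c) fun cp => frcL (np c) fun cm =>
    cmp h H (dotN cp P) (dotN cm P) (dotN cp S) (dotN cm S)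

theorem Cov.of_chkF {L : List (List ℕ)} {μ : List ℝ} (h : Cov L μ) {k : ℕ} {C : List (List ℤ)}
    (hc : chkF k L C = true) {c : List ℤ} (hm : c ∈ C) : 0 ≤ dotR c μ := by
  simp only [chkF, withL_eq, frcL_eq, List.all_eq_true, dotN_cols] at hc
  refine h _ fun v hv => ?_
  have := cmp_sound (hc c hm) v hv
  show 0 ≤ dotR c (nc v)
  rw [dotR_pp_np, ← cast_dotN, ← cast_dotN, sub_nonneg]
  exact_mod_cast this

/-! ### bilinear forms given by rows -/

/-- `∑_j μ_j ⟨Q_j, μ'⟩` -/
noncomputable def bil (Q : List (List ℤ)) (μ μ' : List ℝ) : ℝ :=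
  dotRR (Q.map (fun r => dotR r μ')) μ

/-- `∑_j v_j Q_j` -/
noncomputable def rowc : List ℕ → List (List ℤ) → List ℤ
  | a :: l, r :: Q => vadd (vsmul a r) (rowc l Q)
  | _, _ => []

theorem dotR_rowc (y : List ℝ) : ∀ (v : List ℕ) (Q : List (List ℤ)),
    dotR (rowc v Q) y = dotRR (Q.map (fun r => dotR r y)) (nc v)
  | [], Q => by cases Q <;> simp [rowc]
  | a :: v, [] => by simp [rowc]
  | a :: v, r :: Q => by
    simp only [rowc, dotR_add, dotR_smul, dotR_rowc y v Q, List.map_cons, nc_cons, dotRR_cons]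
    push_cast; ring

theorem dotN_map_lev (B : ℕ) (L : List (List ℕ)) (f : List ℤ → List ℕ) :
    ∀ (v : List ℕ) (Q : List (List ℤ)),
      dotN v (Q.map fun r => lev (dotN (f r)) B L)
        = lev (fun w => dotN v (Q.map fun r => dotN (f r) w)) B L := by
  induction L with
  | nil =>
    intro v Q
    induction Q generalizing v with
    | nil => simp
    | cons r Q ih => cases v <;> simp_all
  | cons w L ihL =>
    intro v Q
    rw [lev_cons, ← ihL]
    induction Q generalizing v with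
    | nil => simp
    | cons r Q ih =>
      cases v with
      | nil => simp
      | cons a v =>
        rw [List.map_cons, List.map_cons, List.map_cons, dotN_cons, dotN_cons, dotN_cons, ih v,
          lev_cons]
        ring

theorem dotRR_map_pp_np (w : List ℕ) : ∀ (Q : List (List ℤ)) (v : List ℕ),
    dotRR (Q.map (fun r => dotR r (nc w))) (nc v)
      = (dotN v (Q.map fun r => dotN (pp r) w) : ℝ) - (dotN v (Q.map fun r => dotN (np r) w) : ℝ)
  | [], v => by simp
  | r :: Q, [] => by simp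
  | r :: Q, a :: v => by
    simp only [List.map_cons, nc_cons, dotRR_cons, dotN_cons, dotRR_map_pp_np w Q v]
    rw [dotR_pp_np, ← cast_dotN, ← cast_dotN]
    push_cast; ring

noncomputable def chkQ (k : ℕ) (L L' : List (List ℕ)) (Q : List (List ℤ)) : Bool :=
  withL k L' fun h H P S =>
    frcL (Q.map fun r => dotN (pp r) P) fun Rp => frcL (Q.map fun r => dotN (np r) P) fun Rm =>
    frcL (Q.map fun r => dotN (pp r) S) fun Tp => frcL (Q.map fun r => dotN (np r) S) fun Tm =>
      L.all fun v => cmp h H (dotN v Rp) (dotN v Rm) (dotN v Tp) (dotN v Tm)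

theorem chkQ_sound {L L' : List (List ℕ)} {μ' : List ℝ} (h' : Cov L' μ') {k : ℕ}
    {Q : List (List ℤ)} (hc : chkQ k L L' Q = true) :
    ∀ v ∈ L, 0 ≤ dotRR (Q.map (fun r => dotR r μ')) (nc v) := by
  simp only [chkQ, withL_eq, frcL_eq, List.all_eq_true, dotN_cols, dotN_map_lev] at hc
  intro v hv
  rw [← dotR_rowc]
  refine h' _ fun w hw => ?_
  have := cmp_sound (hc v hv) w hw
  show 0 ≤ dotR (rowc v Q) (nc w)
  rw [dotR_rowc, dotRR_map_pp_np, sub_nonneg]
  exact_mod_cast this

/-- `c u ⊗ v` -/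
def outer (c : ℤ) (u v : List ℤ) : List (List ℤ) := u.map (fun a => vsmul (Int.mul c a) v)

theorem bil_outer (c : ℤ) (v : List ℤ) (μ' : List ℝ) : ∀ (u : List ℤ) (μ : List ℝ),
    bil (outer c u v) μ μ' = c * (dotR u μ * dotR v μ')
  | [], μ => by simp [bil, outer]
  | a :: u, [] => by simp [bil]
  | a :: u, b :: μ => by
    have := bil_outer c v μ' u μ
    simp only [bil, outer] at this
    simp only [bil, outer, List.map_cons, dotRR_cons, this, dotR_smul, dotR_cons, cast_mul']
    ring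

theorem bil_add (μ' : List ℝ) : ∀ (Q Q' : List (List ℤ)) (μ : List ℝ),
    bil (madd Q Q') μ μ' = bil Q μ μ' + bil Q' μ μ'
  | [], Q', μ => by simp [bil, madd, ladd]
  | r :: Q, [], μ => by simp [bil, madd, ladd]
  | r :: Q, r' :: Q', [] => by simp [bil]
  | r :: Q, r' :: Q', b :: μ => by
    have := bil_add μ' Q Q' μ
    simp only [bil, madd] at this
    simp only [bil, madd, ladd, List.map_cons, dotRR_cons, this, dotR_add]
    ring

def form : List (ℤ × List ℤ × List ℤ) → List (List ℤ)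
  | [] => []
  | t :: l => madd (outer t.1 t.2.1 t.2.2) (form l)

theorem bil_form (μ μ' : List ℝ) : ∀ l : List (ℤ × List ℤ × List ℤ),
    bil (form l) μ μ' = (l.map (fun t => (t.1 : ℝ) * (dotR t.2.1 μ * dotR t.2.2 μ'))).sum
  | [] => by simp [form, bil]
  | t :: l => by
    simp only [form, bil_add, bil_outer, bil_form μ μ' l, List.map_cons, List.sum_cons]

/-! ### vector-valued polynomials in one variable on an interval -/

/-- `∑ w^n c v` -/
def upoly : List (ℕ × ℤ × List ℤ) → List (List ℤ)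
  | [] => []
  | t :: l => madd (List.replicate t.1 [] ++ [vsmul t.2.1 t.2.2]) (upoly l)

theorem lev_upoly (μ : List ℝ) (w : ℝ) : ∀ l : List (ℕ × ℤ × List ℤ),
    lev (fun v => dotR v μ) w (upoly l)
      = (l.map (fun t => w ^ t.1 * ((t.2.1 : ℝ) * dotR t.2.2 μ))).sum
  | [] => by simp [upoly]
  | t :: l => by
    have h := lev_ladd (add := vadd) (ev := fun v => dotR v μ) (fun u v => dotR_add u v μ) w
      (List.replicate t.1 [] ++ [vsmul t.2.1 t.2.2]) (upoly l)
    rw [lev_replicate (by simp), lev_upoly μ w l, dotR_smul] at h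
    simpa only [upoly, madd, List.map_cons, List.sum_cons] using h

/-- multiply a vector polynomial in `y` by `a + b y` -/
def mulLin (a b : ℤ) (Φ : List (List ℤ)) : List (List ℤ) :=
  madd (Φ.map (vsmul a)) ([] :: Φ.map (vsmul b))

theorem lev_mulLin (μ : List ℝ) (y : ℝ) (a b : ℤ) (Φ : List (List ℤ)) :
    lev (fun v => dotR v μ) y (mulLin a b Φ) = (a + b * y) * lev (fun v => dotR v μ) y Φ := by
  have h := lev_ladd (add := vadd) (ev := fun v => dotR v μ) (fun u v => dotR_add u v μ) y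
    (Φ.map (vsmul a)) ([] :: Φ.map (vsmul b))
  rw [lev_cons, lev_map (ev := fun v => dotR v μ) (c := (a : ℝ)) (fun v => dotR_smul a v μ),
    lev_map (ev := fun v => dotR v μ) (c := (b : ℝ)) (fun v => dotR_smul b v μ)] at h
  rw [mulLin, madd, h, dotR_nil]; ring

/-- binomial coefficients times a vector: `(1 + y)^n v` -/
def binV (n : ℕ) (v : List ℤ) : List (List ℤ) :=
  (List.range (n + 1)).map fun i => vsmul (n.choose i) v

theorem lev_range_map (μ : List ℝ) (y : ℝ) (f : ℕ → List ℤ) (n : ℕ) :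
    lev (fun v => dotR v μ) y ((List.range n).map f)
      = ∑ i ∈ Finset.range n, y ^ i * dotR (f i) μ := by
  induction n generalizing f with
  | zero => simp
  | succ n ih =>
    rw [List.range_succ_eq_map, List.map_cons, List.map_map, lev_cons, ih, Finset.sum_range_succ',
      Finset.mul_sum]
    simp only [Function.comp, pow_zero, one_mul, pow_succ]
    rw [add_comm]
    congr 1
    exact Finset.sum_congr rfl fun i _ => by ring

theorem lev_binV (μ : List ℝ) (y : ℝ) (n : ℕ) (v : List ℤ) :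
    lev (fun v => dotR v μ) y (binV n v) = (1 + y) ^ n * dotR v μ := by
  rw [binV, lev_range_map, add_comm 1 y, add_pow, Finset.sum_mul]
  refine Finset.sum_congr rfl fun i _ => ?_
  rw [dotR_smul]; push_cast; ring

/-- `(1+y)^n Φ((w0 + w1 y)/(1 + y))` for a list `Φ` of length `n + 1` -/
def hsub (w0 w1 : ℤ) : List (List ℤ) → List (List ℤ)
  | [] => []
  | v :: Φ => madd (binV Φ.length v) (mulLin w0 w1 (hsub w0 w1 Φ))

theorem lev_hsub (w0 w1 : ℤ) (μ : List ℝ) (y w : ℝ) (hw : w0 + w1 * y = w * (1 + y)) :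
    ∀ Φ : List (List ℤ), lev (fun v => dotR v μ) y (hsub w0 w1 Φ) * (1 + y)
      = (1 + y) ^ Φ.length * lev (fun v => dotR v μ) w Φ
  | [] => by simp [hsub]
  | v :: Φ => by
    have h := lev_ladd (add := vadd) (ev := fun v => dotR v μ) (fun u v => dotR_add u v μ) y
      (binV Φ.length v) (mulLin w0 w1 (hsub w0 w1 Φ))
    have h2 := lev_hsub w0 w1 μ y w hw Φ
    rw [lev_binV, lev_mulLin, hw] at h
    rw [hsub, madd, h, lev_cons, List.length_cons, pow_succ, add_mul, mul_assoc (w * (1 + y)), h2]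
    ring

/-- nonnegativity on `[w0, w1)` -/
theorem lev_nonneg_of_hsub {μ : List ℝ} {w0 w1 : ℤ} {Φ : List (List ℤ)}
    (hc : ∀ c ∈ hsub w0 w1 Φ, 0 ≤ dotR c μ) {w : ℝ} (h0 : (w0 : ℝ) ≤ w) (h1 : w < w1) :
    0 ≤ lev (fun v => dotR v μ) w Φ := by
  have hd : 0 < (w1 : ℝ) - w := by linarith
  have hy : 0 ≤ (w - w0) / (w1 - w) := div_nonneg (by linarith) hd.le
  have h2 := lev_hsub w0 w1 μ ((w - w0) / (w1 - w)) w (by field_simp; ring) Φ
  have h3 := lev_nonneg (ev := fun v => dotR v μ) hy _ hc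
  have hs : 0 < 1 + (w - w0) / (w1 - w) := by linarith
  have h4 := mul_nonneg h3 hs.le
  rw [h2] at h4
  exact (mul_nonneg_iff_of_pos_left (pow_pos hs _)).1 h4

theorem continuous_lev (f : List ℤ → ℝ) : ∀ Φ : List (List ℤ), Continuous fun w : ℝ => lev f w Φ
  | [] => continuous_const
  | v :: Φ => by
    have := continuous_lev f Φ
    simp only [lev_cons]
    fun_prop

/-- nonnegativity on `[w0, w1]` -/
theorem lev_nonneg_Icc {μ : List ℝ} {w0 w1 : ℤ} {Φ : List (List ℤ)} (h01 : w0 < w1)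
    (hc : ∀ c ∈ hsub w0 w1 Φ, 0 ≤ dotR c μ) {w : ℝ} (h0 : (w0 : ℝ) ≤ w) (h1 : w ≤ w1) :
    0 ≤ lev (fun v => dotR v μ) w Φ := by
  have hcl : IsClosed {w : ℝ | 0 ≤ lev (fun v => dotR v μ) w Φ} :=
    isClosed_le continuous_const (continuous_lev _ Φ)
  have hsub' : Set.Ico (w0 : ℝ) w1 ⊆ {w : ℝ | 0 ≤ lev (fun v => dotR v μ) w Φ} :=
    fun u hu => lev_nonneg_of_hsub hc hu.1 hu.2
  have h := hcl.closure_subset_iff.2 hsub'
  rw [closure_Ico (by exact_mod_cast h01.ne)] at h
  exact h ⟨h0, h1⟩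

end Crest.Agent.R163.Poly
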