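import Crest.Agent.R163.ExD

/-!
# Subtree experiments of a locally finite tree

`sub k v φ i` is the weight of the subtree below `v`, cut `k` levels down, with leaf weights `φ`.
Key identity (`sum_levelLaw`, induction on `n` for all `φ`): at level `n + 1` exchange the sums,
`∑_τ ∏_v f v (τ v) = ∏_v ∑_j f v j` (`Finset.prod_univ_sum` / `Fintype.piFinset`), group the
vertices of level `n + 1` by their parent (`Finset.prod_fiberwise_of_maps_to`), and use
`sub_step : sub k v (step φ) = sub (k+1) v φ`.  Taking `φ = ind S τ` gives `levelLaw`.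
-/

set_option autoImplicit false

namespace Crest.Agent.R163

open Crest.ProbabilityR.Broadcast Crest.ProbabilityR.TreeBroadcast

variable {V : Type*} [DecidableEq V]

/-- descendants of `v` exactly `k` levels below `v` -/
def desc (T : LocFinTree V) : ℕ → V → Finset V
  | 0, v => {v}
  | k + 1, v => (T.children v).biUnion (desc T k)

/-- subtree weight with leaf weights `φ` -/
noncomputable def sub (T : LocFinTree V) {q : ℕ} (lam : ℝ) :
    ℕ → V → (V → Fin q → ℝ) → Fin q → ℝ
  | 0, v, φ => φ v
  | k + 1, v, φ => fun i => ∏ w ∈ T.children v, ch lam (sub T lam k w φ) i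

/-- the leaf weights of an observed configuration on `S` -/
def ind {q : ℕ} (S : Finset V) (τ : S → Fin q) : V → Fin q → ℝ :=
  fun v j => if h : v ∈ S then (if τ ⟨v, h⟩ = j then 1 else 0) else 0

/-- the experiment "spin at `v`, observe the spins `k` levels below" -/
noncomputable def subL (T : LocFinTree V) (q : ℕ) (lam : ℝ) (k : ℕ) (v : V) :
    (desc T k v → Fin q) → Fin q → ℝ :=
  fun τ => sub T lam k v (ind _ τ)

/-- the same, looking only below the children in `C` -/
noncomputable def partL (T : LocFinTree V) (q : ℕ) (lam : ℝ) (k : ℕ) (C : Finset V) :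
    (C.biUnion (desc T k) → Fin q) → Fin q → ℝ :=
  fun τ i => ∏ w ∈ C, ch lam (sub T lam k w (ind _ τ)) i

variable (T : LocFinTree V) {q : ℕ} [NeZero q] (lam : ℝ)

theorem mem_children {v w : V} :
    w ∈ T.children v ↔ T.depth w = T.depth v + 1 ∧ T.parent w = v := by
  simp [LocFinTree.children, T.mem_level_iff]

theorem depth_of_mem_desc {k : ℕ} {v u : V} (h : u ∈ desc T k v) :
    T.depth u = T.depth v + k := by
  induction k generalizing v with
  | zero => rw [Finset.mem_singleton.1 h, add_zero]
  | succ k ih =>
    obtain ⟨w, hw, hu⟩ := Finset.mem_biUnion.1 h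
    rw [ih hu, ((mem_children T).1 hw).1]
    omega

theorem iterate_parent_of_mem_desc {k : ℕ} {v u : V} (h : u ∈ desc T k v) :
    T.parent^[k] u = v := by
  induction k generalizing v with
  | zero => exact Finset.mem_singleton.1 h
  | succ k ih =>
    obtain ⟨w, hw, hu⟩ := Finset.mem_biUnion.1 h
    rw [Function.iterate_succ_apply', ih hu, ((mem_children T).1 hw).2]

omit [DecidableEq V] in
theorem tree_depth_parent {n : ℕ} {v : V} (h : T.depth v = n + 1) : T.depth (T.parent v) = n := by
  have hne : v ≠ T.root := fun e => by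
    have := (T.depth_eq_zero_iff v).2 e
    omega
  have := T.depth_parent v hne
  omega

omit [DecidableEq V] in
theorem tree_depth_iterate (k : ℕ) {n : ℕ} {u : V} (h : T.depth u = n + k) :
    T.depth (T.parent^[k] u) = n := by
  induction k generalizing n with
  | zero => exact h
  | succ k ih =>
    rw [Function.iterate_succ_apply']
    exact tree_depth_parent T (ih (by omega))

theorem tree_mem_desc {k : ℕ} {v u : V} (h1 : T.depth u = T.depth v + k)
    (h2 : T.parent^[k] u = v) : u ∈ desc T k v := by
  induction k generalizing v with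
  | zero => exact Finset.mem_singleton.2 h2
  | succ k ih =>
    have h3 : T.depth (T.parent^[k] u) = T.depth v + 1 := tree_depth_iterate T k (by omega)
    rw [Function.iterate_succ_apply'] at h2
    exact Finset.mem_biUnion.2 ⟨_, (mem_children T).2 ⟨h3, h2⟩, ih (by omega) rfl⟩

theorem desc_root (n : ℕ) : desc T n T.root = T.level n := by
  have h0 : T.depth T.root = 0 := (T.depth_eq_zero_iff _).2 rfl
  ext u
  rw [T.mem_level_iff]
  refine ⟨fun h => by rw [depth_of_mem_desc T h, h0, zero_add], fun h => ?_⟩
  exact tree_mem_desc T (by omega)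
    ((T.depth_eq_zero_iff _).1 (tree_depth_iterate T n (by omega)))

theorem disjoint_desc (k : ℕ) {w w' : V} (h : w ≠ w') : Disjoint (desc T k w) (desc T k w') := by
  exact Finset.disjoint_left.2 fun u h1 h2 =>
    h ((iterate_parent_of_mem_desc T h1).symm.trans (iterate_parent_of_mem_desc T h2))

/-- `sub k v φ` only depends on `φ` on `desc k v`. -/
theorem sub_congr (k : ℕ) (v : V) {φ ψ : V → Fin q → ℝ} (h : ∀ u ∈ desc T k v, φ u = ψ u) :
    sub T lam k v φ = sub T lam k v ψ := by
  induction k generalizing v with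
  | zero => exact h v (Finset.mem_singleton_self v)
  | succ k ih =>
    funext i
    refine Finset.prod_congr rfl fun w hw => ?_
    rw [ih w fun u hu => h u (Finset.mem_biUnion.2 ⟨w, hw, hu⟩)]

omit [NeZero q] in
theorem tree_sub_step (k : ℕ) (v : V) (φ : V → Fin q → ℝ) :
    sub T lam k v (fun u => sub T lam 1 u φ) = sub T lam (k + 1) v φ := by
  induction k generalizing v with
  | zero => rfl
  | succ k ih =>
    funext i
    exact Finset.prod_congr rfl fun w _ => by rw [ih w]

theorem tree_prod_level (n : ℕ) (g : V → V → ℝ) :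
    ∏ v ∈ T.level (n + 1), g (T.parent v) v = ∏ u ∈ T.level n, ∏ w ∈ T.children u, g u w := by
  rw [← Finset.prod_fiberwise_of_maps_to (t := T.level n) (g := T.parent) fun v hv =>
    (T.mem_level_iff _ _).2 (tree_depth_parent T ((T.mem_level_iff _ _).1 hv))]
  refine Finset.prod_congr rfl fun u hu => ?_
  rw [LocFinTree.children, (T.mem_level_iff _ _).1 hu]
  exact Finset.prod_congr rfl fun w hw => by rw [(Finset.mem_filter.1 hw).2]

theorem sum_levelLaw (n : ℕ) (i : Fin q) (φ : V → Fin q → ℝ) :
    ∑ τ : T.level n → Fin q, levelLaw q T lam n i τ * ∏ v : T.level n, φ v (τ v)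
      = sub T lam n T.root φ i := by
  induction n generalizing φ with
  | zero =>
    have hr : T.root ∈ T.level 0 := (T.mem_level_iff _ _).2 ((T.depth_eq_zero_iff _).2 rfl)
    have : Subsingleton (T.level 0) := ⟨fun a b => Subtype.ext
      (((T.depth_eq_zero_iff _).1 ((T.mem_level_iff _ _).1 a.2)).trans
        ((T.depth_eq_zero_iff _).1 ((T.mem_level_iff _ _).1 b.2)).symm)⟩
    have e : ∀ τ : T.level 0 → Fin q, levelLaw q T lam 0 i τ * ∏ v : T.level 0, φ v (τ v) =
        ∏ v : T.level 0, (if τ v = i then 1 else 0) * φ v (τ v) := by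
      intro τ
      rw [Fintype.prod_subsingleton _ (⟨T.root, hr⟩ : T.level 0),
        Fintype.prod_subsingleton _ (⟨T.root, hr⟩ : T.level 0)]
      rfl
    simp only [e]
    rw [← Fintype.piFinset_univ, ← Finset.prod_univ_sum (fun _ => Finset.univ)
      fun (v : T.level 0) j => (if j = i then 1 else 0) * φ v j,
      Fintype.prod_subsingleton _ (⟨T.root, hr⟩ : T.level 0)]
    simp [sub]
  | succ n ih =>
    have hp : ∀ v : T.level (n + 1), T.parent v ∈ T.level n := fun v =>
      (T.mem_level_iff _ _).2 (tree_depth_parent T ((T.mem_level_iff _ _).1 v.2))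
    have e : ∀ τ : T.level (n + 1) → Fin q, levelLaw q T lam (n + 1) i τ =
        ∑ τ' : T.level n → Fin q, levelLaw q T lam n i τ' *
          ∏ v : T.level (n + 1), channel q lam (τ' ⟨T.parent v, hp v⟩) (τ v) := fun _ => rfl
    rw [← tree_sub_step, ← ih]
    simp only [e, Finset.sum_mul]
    rw [Finset.sum_comm]
    refine Finset.sum_congr rfl fun τ' _ => ?_
    simp only [mul_assoc, ← Finset.mul_sum, ← Finset.prod_mul_distrib]
    congr 1
    rw [← Fintype.piFinset_univ, ← Finset.prod_univ_sum (fun _ => Finset.univ)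
      fun (v : T.level (n + 1)) j => channel q lam (τ' ⟨T.parent v, hp v⟩) j * φ v j]
    set σ : V → Fin q := fun u => if h : u ∈ T.level n then τ' ⟨u, h⟩ else 0 with hσ
    calc ∏ v : T.level (n + 1), ∑ j, channel q lam (τ' ⟨T.parent v, hp v⟩) j * φ v j
        = ∏ v : T.level (n + 1), ch lam (φ v) (σ (T.parent v)) :=
          Finset.prod_congr rfl fun v _ => by simp only [hσ, dif_pos (hp v), ch]
      _ = ∏ u ∈ T.level n, ∏ w ∈ T.children u, ch lam (φ w) (σ u) := by
          rw [Finset.prod_coe_sort (T.level (n + 1)) fun v => ch lam (φ v) (σ (T.parent v)),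
            tree_prod_level T n fun u w => ch lam (φ w) (σ u)]
      _ = _ := by
          rw [← Finset.prod_coe_sort (T.level n)]
          refine Finset.prod_congr rfl fun u _ => ?_
          simp only [hσ, dif_pos u.2]
          rfl

theorem levelLaw_eq (n : ℕ) (i : Fin q) (τ : T.level n → Fin q) :
    levelLaw q T lam n i τ = sub T lam n T.root (ind _ τ) i := by
  rw [← sum_levelLaw, Finset.sum_eq_single τ]
  · rw [Finset.prod_eq_one fun v _ => ?_, mul_one]
    simp [ind]
  · intro τ' _ hne
    obtain ⟨v, hv⟩ := Function.ne_iff.1 hne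
    rw [Finset.prod_eq_zero (Finset.mem_univ v), mul_zero]
    simp [ind, hv.symm]
  · simp

theorem subL_succ (k : ℕ) (v : V) :
    subL T q lam (k + 1) v = partL T q lam k (T.children v) := rfl

end Crest.Agent.R163
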