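import Crest.Agent.R163.Tree

/-! # Product structure of the subtree experiments -/

set_option autoImplicit false

namespace Crest.Agent.R163

open Crest.ProbabilityR.Broadcast Crest.ProbabilityR.TreeBroadcast

variable {V : Type*} [DecidableEq V] (T : LocFinTree V) {q : ℕ} [NeZero q] (lam : ℝ)

/-- restriction of a configuration to a subset -/
def treeBRes {β : Type*} {S S' : Finset V} (h : S ⊆ S') (τ : S' → β) : S → β :=
  fun u => τ ⟨u.1, h u.2⟩

/-- configurations on a disjoint union -/
def treeBEquiv {β : Type*} {S A B : Finset V} (hA : A ⊆ S) (hB : B ⊆ S) (hS : ∀ u ∈ S, u ∉ A → u ∈ B)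
    (hd : Disjoint A B) : (S → β) ≃ (A → β) × (B → β) where
  toFun τ := (treeBRes hA τ, treeBRes hB τ)
  invFun p := fun u => if h : u.1 ∈ A then p.1 ⟨u.1, h⟩ else p.2 ⟨u.1, hS u.1 u.2 h⟩
  left_inv τ := by
    funext u
    simp only [treeBRes]
    split_ifs <;> rfl
  right_inv p := by
    refine Prod.ext (funext fun u => ?_) (funext fun u => ?_)
    · simp only [treeBRes]
      rw [dif_pos u.2]
    · simp only [treeBRes]
      rw [dif_neg (Finset.disjoint_right.1 hd u.2)]

omit [DecidableEq V] [NeZero q] in
theorem treeB_ind [DecidableEq V] {S S' : Finset V} (h : S ⊆ S') (τ : S' → Fin q) {u : V} (hu : u ∈ S) :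
    ind S' τ u = ind S (treeBRes h τ) u := by
  funext j
  simp only [ind, treeBRes]
  rw [dif_pos hu, dif_pos (h hu)]
  rfl

theorem subL_zero (v : V) :
    ∃ e : (desc T 0 v → Fin q) ≃ Fin q, subL T q lam 0 v = fun τ => leaf q (e τ) := by
  have hv : v ∈ desc T 0 v := Finset.mem_singleton_self v
  refine ⟨⟨fun τ => τ ⟨v, hv⟩, fun j _ => j, fun τ => funext fun u => ?_, fun j => rfl⟩, ?_⟩
  · have : u = ⟨v, hv⟩ := Subtype.ext (Finset.mem_singleton.1 u.2)
    rw [this]
  · funext τ j
    simp only [subL, sub, ind, leaf, Equiv.coe_fn_mk]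
    rw [dif_pos hv]

theorem partL_empty (k : ℕ) :
    ∃ e : ((∅ : Finset V).biUnion (desc T k) → Fin q) ≃ Unit,
      partL T q lam k ∅ = fun τ => triv q (e τ) := by
  have h0 : ∀ u : V, u ∉ (∅ : Finset V).biUnion (desc T k) := fun u => by simp
  refine ⟨⟨fun _ => (), fun _ u => absurd u.2 (h0 u.1), fun τ => funext fun u => absurd u.2 (h0 u.1),
    fun _ => rfl⟩, ?_⟩
  funext τ j
  simp [partL, triv]

/-- `(insert w C).biUnion (desc k) = desc k w ∪ C.biUnion (desc k)` is a disjoint union; `e τ` is
the pair of restrictions (build the `Equiv` by hand or from `Equiv.piFinsetUnion`); use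
`sub_congr` to replace `ind _ τ` by the `ind` of the restriction. -/
theorem partL_insert (k : ℕ) {w : V} {C : Finset V} (hw : w ∉ C) :
    ∃ e : ((insert w C).biUnion (desc T k) → Fin q) ≃
        (desc T k w → Fin q) × (C.biUnion (desc T k) → Fin q),
      partL T q lam k (insert w C) =
        fun τ => pr (chL lam (subL T q lam k w)) (partL T q lam k C) (e τ) := by
  have hA : desc T k w ⊆ (insert w C).biUnion (desc T k) :=
    Finset.subset_biUnion_of_mem _ (Finset.mem_insert_self w C)
  have hB : C.biUnion (desc T k) ⊆ (insert w C).biUnion (desc T k) :=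
    Finset.biUnion_subset_biUnion_of_subset_left _ (Finset.subset_insert w C)
  have hS : ∀ u ∈ (insert w C).biUnion (desc T k), u ∉ desc T k w → u ∈ C.biUnion (desc T k) := by
    intro u hu hu'
    rw [Finset.biUnion_insert, Finset.mem_union] at hu
    exact hu.resolve_left hu'
  have hd : Disjoint (desc T k w) (C.biUnion (desc T k)) :=
    (Finset.disjoint_biUnion_right _ _ _).2 fun w' hw' =>
      disjoint_desc T k fun e => hw (e ▸ hw')
  refine ⟨treeBEquiv hA hB hS hd, ?_⟩
  funext τ i
  simp only [partL, pr, chL, subL, treeBEquiv, Equiv.coe_fn_mk]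
  rw [Finset.prod_insert hw, sub_congr T lam k w fun u hu => treeB_ind hA τ hu]
  congr 1
  refine Finset.prod_congr rfl fun w' hw' => ?_
  rw [sub_congr T lam k w' fun u hu => treeB_ind hB τ (Finset.subset_biUnion_of_mem _ hw' hu)]

theorem Ex.partL (hc : ∀ i j : Fin q, 0 ≤ channel q lam i j) (k : ℕ)
    (h : ∀ w, Ex (subL T q lam k w)) (C : Finset V) : Ex (partL T q lam k C) := by
  induction C using Finset.induction_on with
  | empty =>
    obtain ⟨e, he⟩ := partL_empty T lam k (q := q)
    rw [he]
    exact Ex.triv.equiv e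
  | insert w C hw ih =>
    obtain ⟨e, he⟩ := partL_insert T lam k hw (q := q)
    rw [he]
    exact (((h w).chL hc).pr ih).equiv e

theorem Ex.subL (hc : ∀ i j : Fin q, 0 ≤ channel q lam i j) (k : ℕ) (v : V) :
    Ex (subL T q lam k v) := by
  induction k generalizing v with
  | zero =>
    obtain ⟨e, he⟩ := subL_zero T lam v (q := q)
    rw [he]
    exact Ex.leaf.equiv e
  | succ k ih => exact Ex.partL T lam hc k ih (T.children v)

/-- transport the sum along `desc_root` (state it for an arbitrary `S = T.level n` and `subst`),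
`levelLaw_eq`, `hat_advf`. -/
theorem treeAdvantage_eq (hc : ∀ i j : Fin q, 0 ≤ channel q lam i j) (n : ℕ) :
    treeAdvantage q T lam n = E (subL T q lam n T.root) advf := by
  have hEx := Ex.subL T lam hc n T.root
  have key : ∀ S : Finset V, S = desc T n T.root →
      (1 / (2 * (q : ℝ))) * ∑ τ : S → Fin q, ∑ i : Fin q,
        |sub T lam n T.root (ind S τ) i - (1 / q) * ∑ j : Fin q, sub T lam n T.root (ind S τ) j| =
        E (R163.subL T q lam n T.root) advf := by
    intro S hS
    subst hS
    rw [E, tsum_fintype, Finset.mul_sum]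
    exact Finset.sum_congr rfl fun τ _ => (hat_advf (hEx.nonneg τ)).symm
  rw [← key (T.level n) (desc_root T n).symm, treeAdvantage]
  simp only [levelLaw_eq]

end Crest.Agent.R163
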