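import Crest.Agent.R163.TreeUp
import Crest.Agent.R163.Low4
import Crest.Agent.R163.Low4B
import Crest.Agent.R163.Merge

/-!
# Lower recursion on a tree with bounded degree (four states)

`X k v = E (subL k v) chi`, `Tm k v = E (subL k v) thr`, `|Tm| ≤ 4X` so `Tm^2/X ≤ 16 X`.
Let `κ0 = 1/32`, `κ = lam^2 κ0`, `δ = (κ0 - κ)/(B+1)`, `κ i = κ0 - i δ ≥ κ` for `i ≤ B + 1`,
`U k v = X - κ Tm^2/X ∈ [X/2, X]`.  For a set `D` of at most `B` vertices, with
`Y w = lam^2 X k w` (chi-square of the message, third moment `lam^3 Tm k w`), induction on `D`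
(`partL_insert`, `merge_low` with `κ (i+1)` and `δ`, `chi_pr_low`, `thr_pr`, `chi_le_pr`,
`E_pr_comm`, and `X_D ≤ ∑ Y` from `Cert.partL_chi`) gives
`X_D - κ |D| T_D^2/X_D ≥ ∑_{w ∈ D} lam^2 U k w - (K0/δ) (∑ Y)^3`, because
`Y - κ0 (lam^3 Tm)^2/Y = lam^2 U` and `Y S (Y + S) ≤ (Y + S)^3 - S^3`.  Finally
`(∑ Y)^3 ≤ B^2 ∑ Y^3 ≤ B^2 ∑ lam^2 (2U)^3`; `K = 8 B^2 K0/δ + 1`.  The last claim: induction on
`D ∋ w` (`chi_le_pr`, `E_pr_comm`), i.e. `Y w ≤ X_D`.
-/

set_option autoImplicit false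

namespace Crest.Agent.R163

open Crest.ProbabilityR.Broadcast Crest.ProbabilityR.TreeBroadcast

variable {V : Type*} [DecidableEq V] (T : LocFinTree V) {lam : ℝ}

theorem treeLow_abs {Ω : Type*} {L : Ω → Fin 4 → ℝ} (hL : Ex L) : |E L thr| ≤ 4 * E L chi := by
  simpa using abs_thr_le hL

theorem treeLow_div {X t : ℝ} (hX : 0 ≤ X) (h : |t| ≤ 4 * X) :
    0 ≤ t ^ 2 / X ∧ t ^ 2 / X ≤ 16 * X := by
  refine ⟨div_nonneg (sq_nonneg _) hX, ?_⟩
  rcases hX.eq_or_lt with h0 | h0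
  · simp [← h0]
  · rw [div_le_iff₀ h0, ← sq_abs]
    nlinarith [abs_nonneg t]

/-- the purely real induction over the set of children -/
theorem treeLow_ind {Y t : V → ℝ} {X S : Finset V → ℝ} {κ0 δ K0 : ℝ} {B : ℕ} (hK : 0 ≤ K0)
    (hδ : 0 < δ) (hY : ∀ w, 0 ≤ Y w) (hX : ∀ D, 0 ≤ X D) (hXle : ∀ D, X D ≤ ∑ w ∈ D, Y w)
    (hstep : ∀ w D, w ∉ D → (D.card : ℝ) + 1 ≤ B →
      Y w + X D - ((κ0 - (D.card + 1) * δ) + δ) * (t w ^ 2 / Y w + S D ^ 2 / X D)
        - K0 * (Y w * X D * (Y w + X D)) ≤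
      X (insert w D) - (κ0 - (D.card + 1) * δ) * (S (insert w D) ^ 2 / X (insert w D)))
    (D : Finset V) (hD : D.card ≤ B) :
    ∑ w ∈ D, (Y w - κ0 * (t w ^ 2 / Y w)) - K0 * (∑ w ∈ D, Y w) ^ 3 ≤
      X D - (κ0 - D.card * δ) * (S D ^ 2 / X D) := by
  induction D using Finset.induction_on with
  | empty =>
    have h0 : X ∅ = 0 := le_antisymm (by simpa using hXle ∅) (hX ∅)
    simp [h0]
  | insert w D hw ih =>
    rw [Finset.card_insert_of_notMem hw] at hD
    have h1 := ih (by omega)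
    have h2 := hstep w D hw (by exact_mod_cast hD)
    rw [Finset.sum_insert hw, Finset.sum_insert hw, Finset.card_insert_of_notMem hw]
    push_cast
    have h3 := hXle D
    have h4 := hX D
    have h5 := hY w
    generalize ∑ w ∈ D, Y w = A at *
    have h6 : Y w * X D * (Y w + X D) ≤ (Y w + A) ^ 3 - A ^ 3 := by
      have h8 : 0 ≤ A := h4.trans h3
      have h7 : Y w * X D * (Y w + X D) ≤ Y w * A * (Y w + A) := by gcongr
      have h9 : 0 ≤ Y w * A * (Y w + A) := by positivity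
      have h10 : 0 ≤ Y w ^ 3 := by positivity
      nlinarith
    have h7 := mul_le_mul_of_nonneg_left h6 hK
    have h8 : 0 ≤ D.card * δ * (t w ^ 2 / Y w) := by positivity
    linarith

theorem treeLow_thr (hc : ∀ i j : Fin 4, 0 ≤ channel 4 lam i j) : ∃ C0 : ℝ, ∀ k w D,
    |E (pr (chL lam (subL T 4 lam k w)) (partL T 4 lam k D)) thr
      - E (chL lam (subL T 4 lam k w)) thr - E (partL T 4 lam k D) thr| ≤
      C0 * (E (chL lam (subL T 4 lam k w)) chi * E (partL T 4 lam k D) chi) := by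
  obtain ⟨C0, -, h⟩ := thr_pr.{u_1, u_1}
  exact ⟨C0, fun k w D => h ((Ex.subL T lam hc k w).chL hc)
    (Ex.partL T lam hc k (Ex.subL T lam hc k) D)⟩

theorem tree_low (C : Cert 4 lam) (h0 : 0 < lam) (h1 : lam < 1) (B : ℕ)
    (hB : ∀ v, (T.children v).card ≤ B) :
    ∃ (U : ℕ → V → ℝ) (K : ℝ), 0 < K ∧
      (∀ k v, U k v ≤ E (subL T 4 lam k v) chi ∧ E (subL T 4 lam k v) chi ≤ 2 * U k v) ∧
      (∀ k v, ∑ w ∈ T.children v, lam ^ 2 * (U k w - K * U k w ^ 3) ≤ U (k + 1) v) ∧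
      (∀ k v, ∀ w ∈ T.children v,
        lam ^ 2 * E (subL T 4 lam k w) chi ≤ E (subL T 4 lam (k + 1) v) chi) := by
  have hc : ∀ i j : Fin 4, 0 ≤ channel 4 lam i j := channel_nonneg h0.le h1.le
  have hS := Ex.subL T lam hc
  have hM := fun k w => (hS k w).chL hc
  have hP := fun k => Ex.partL T lam hc k (hS k)
  obtain ⟨C0, hC0⟩ := treeLow_thr T hc
  obtain ⟨K0, hK0, hmerge⟩ := merge_low C0
  have hl2 : lam ^ 2 < 1 := by nlinarith
  have hl0 : 0 < lam ^ 2 := by positivity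
  obtain ⟨δ, hδ⟩ : ∃ δ : ℝ, δ = (1 / 32 - lam ^ 2 / 32) / (B + 1) := ⟨_, rfl⟩
  have hB1 : (0 : ℝ) < B + 1 := by positivity
  have hδ1 : (B + 1) * δ = 1 / 32 - lam ^ 2 / 32 := by rw [hδ]; field_simp
  have hδ0 : 0 < δ := by rw [hδ]; exact div_pos (by linarith) hB1
  have hBδ : 0 ≤ B * δ := by positivity
  have hins : ∀ k w D, w ∉ D → ∀ φ, E (partL T 4 lam k (insert w D)) φ =
      E (pr (chL lam (subL T 4 lam k w)) (partL T 4 lam k D)) φ := by
    intro k w D hw φ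
    obtain ⟨e, he⟩ := partL_insert T (q := 4) lam k hw
    rw [he, E_equiv (pr (chL lam (subL T 4 lam k w)) (partL T 4 lam k D)) e]
  have hsucc : ∀ k v φ, E (subL T 4 lam (k + 1) v) φ = E (partL T 4 lam k (T.children v)) φ :=
    fun k v φ => rfl
  have hU : ∀ k v, E (subL T 4 lam k v) chi - lam ^ 2 / 32 *
      (E (subL T 4 lam k v) thr ^ 2 / E (subL T 4 lam k v) chi) ≤ E (subL T 4 lam k v) chi ∧
      E (subL T 4 lam k v) chi ≤ 2 * (E (subL T 4 lam k v) chi - lam ^ 2 / 32 *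
        (E (subL T 4 lam k v) thr ^ 2 / E (subL T 4 lam k v) chi)) := by
    intro k v
    obtain ⟨h2, h3⟩ := treeLow_div (E_chi_nonneg (hS k v)) (treeLow_abs (hS k v))
    constructor <;> nlinarith
  refine ⟨fun k v => E (subL T 4 lam k v) chi - lam ^ 2 / 32 *
    (E (subL T 4 lam k v) thr ^ 2 / E (subL T 4 lam k v) chi), 8 * B ^ 2 * (K0 / δ) + 1,
    by positivity, hU, fun k v => ?_, fun k v w hw => ?_⟩
  · have key := treeLow_ind (Y := fun w => E (chL lam (subL T 4 lam k w)) chi)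
      (t := fun w => E (chL lam (subL T 4 lam k w)) thr)
      (X := fun D => E (partL T 4 lam k D) chi) (S := fun D => E (partL T 4 lam k D) thr)
      (κ0 := 1 / 32) (δ := δ) (K0 := K0 / δ) (B := B) (by positivity) hδ0
      (fun w => E_chi_nonneg (hM k w)) (fun D => E_chi_nonneg (hP k D))
      (fun D => by simpa only [chi_chL lam (hS k _)] using C.partL_chi T hc k D)
      (fun w D hw hD => by
        have h2 : (D.card + 1) * δ ≤ B * δ := mul_le_mul_of_nonneg_right hD hδ0.le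
        have h3 : 0 ≤ (D.card + 1) * δ := by positivity
        simp only [hins k w D hw]
        exact hmerge _ _ _ _ _ _ _ _ (E_chi_nonneg (hM k w)) (E_chi_nonneg (hP k D))
          (treeLow_abs (hM k w)) (treeLow_abs (hP k D)) (chi_le_pr (hM k w) (hP k D))
          (by rw [E_pr_comm]; exact chi_le_pr (hP k D) (hM k w)) (chi_pr_low (hM k w) (hP k D))
          (hC0 k w D) (by linarith) (by linarith) hδ0 (by linarith))
      (T.children v) (hB v)
    simp only [chi_chL lam (hS k _), thr_chL lam (hS k _)] at key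
    simp only [hsucc]
    have hcard : ((T.children v).card : ℝ) ≤ B := by exact_mod_cast hB v
    have h2 := (treeLow_div (E_chi_nonneg (hP k (T.children v)))
      (treeLow_abs (hP k (T.children v)))).1
    have h3 : lam ^ 2 / 32 ≤ 1 / 32 - (T.children v).card * δ := by
      have := mul_le_mul_of_nonneg_right hcard hδ0.le
      linarith
    have h4 := mul_le_mul_of_nonneg_right h3 h2
    have h5 := pow_sum_le_card_mul_sum_pow (s := T.children v)
      (f := fun w => lam ^ 2 * E (subL T 4 lam k w) chi)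
      (fun w _ => mul_nonneg hl0.le (E_chi_nonneg (hS k w))) 2
    have h6 : ((T.children v).card : ℝ) ^ 2 *
        ∑ w ∈ T.children v, (lam ^ 2 * E (subL T 4 lam k w) chi) ^ (2 + 1) ≤
        B ^ 2 * ∑ w ∈ T.children v, (lam ^ 2 * E (subL T 4 lam k w) chi) ^ 3 :=
      mul_le_mul_of_nonneg_right (pow_le_pow_left₀ (Nat.cast_nonneg _) hcard 2)
        (Finset.sum_nonneg fun w _ => pow_nonneg (mul_nonneg hl0.le (E_chi_nonneg (hS k w))) _)
    have h7 := mul_le_mul_of_nonneg_left (h5.trans h6) (show 0 ≤ K0 / δ by positivity)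
    refine le_trans ?_ (le_trans (sub_le_sub_left h7 _) (key.trans (by linarith)))
    rw [Finset.mul_sum, Finset.mul_sum, ← Finset.sum_sub_distrib]
    refine Finset.sum_le_sum fun w _ => ?_
    obtain ⟨a1, a2⟩ := hU k w
    have a0 := E_chi_nonneg (hS k w)
    generalize E (subL T 4 lam k w) chi = x at *
    generalize E (subL T 4 lam k w) thr = t at *
    have a3 : (lam ^ 3 * t) ^ 2 / (lam ^ 2 * x) = lam ^ 4 * (t ^ 2 / x) := by
      rcases eq_or_ne x 0 with h | h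
      · simp [h]
      · field_simp
    rw [a3]
    generalize hu : x - lam ^ 2 / 32 * (t ^ 2 / x) = u at *
    have a4 : lam ^ 2 * x - 1 / 32 * (lam ^ 4 * (t ^ 2 / x)) = lam ^ 2 * u := by rw [← hu]; ring
    rw [a4]
    have a5 : 0 ≤ u := by linarith
    have a6 : (lam ^ 2 * x) ^ 3 ≤ lam ^ 2 * (8 * u ^ 3) := by
      have b1 : x ^ 3 ≤ (2 * u) ^ 3 := pow_le_pow_left₀ a0 a2 3
      have b2 : (lam ^ 2) ^ 3 ≤ lam ^ 2 := pow_le_of_le_one hl0.le hl2.le (by norm_num)
      calc (lam ^ 2 * x) ^ 3 = (lam ^ 2) ^ 3 * x ^ 3 := by ring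
        _ ≤ lam ^ 2 * (2 * u) ^ 3 := mul_le_mul b2 b1 (by positivity) hl0.le
        _ = _ := by ring
    have a7 := mul_le_mul_of_nonneg_left a6 (show 0 ≤ K0 / δ * B ^ 2 by positivity)
    have a8 : 0 ≤ lam ^ 2 * u ^ 3 := by positivity
    linarith
  · rw [hsucc, ← Finset.insert_erase hw, hins k w _ (Finset.notMem_erase w _),
      ← chi_chL lam (hS k w)]
    exact chi_le_pr (hM k w) (hP k _)

end Crest.Agent.R163
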