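import Crest.Agent.R163.Cls
import Crest.Agent.R163.TreeB

/-!
# Upper recursion on a tree

By induction on `k` and on the set `C` of children (`partL_empty`, `partL_insert`, `Cert.chL`,
`Cert.pr_g`, `Cert.pr_chi`, `E_equiv`).  With `G t = t + (eps/3) t^3`: if
`0 ≤ Z ≤ S - eps X Y S`, `S = X + Y`, `X, Y ≥ 0`, then `Z ≤ S` and
`G Z ≤ S - eps X Y S + (eps/3) S^3 = G X + G Y`.
-/

set_option autoImplicit false

namespace Crest.Agent.R163

open Crest.ProbabilityR.Broadcast Crest.ProbabilityR.TreeBroadcast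

variable {V : Type*} [DecidableEq V] (T : LocFinTree V) {q : ℕ} [NeZero q] {lam : ℝ}

theorem Cert.partL_g (C : Cert q lam) (hc : ∀ i j : Fin q, 0 ≤ channel q lam i j) (k : ℕ)
    (h : ∀ w, 0 ≤ E (subL T q lam k w) C.g) (D : Finset V) : 0 ≤ E (partL T q lam k D) C.g := by
  induction D using Finset.induction_on with
  | empty =>
    obtain ⟨e, he⟩ := partL_empty T (q := q) lam k
    rw [he, E_equiv (R163.triv q) e]
    exact C.triv
  | insert w D hw ih =>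
    obtain ⟨e, he⟩ := partL_insert T (q := q) lam k hw
    rw [he, E_equiv (pr (R163.chL lam (subL T q lam k w)) (partL T q lam k D)) e]
    exact C.pr_g ((Ex.subL T lam hc k w).chL hc)
      (Ex.partL T lam hc k (fun w => Ex.subL T lam hc k w) D)
      (C.chL hc (Ex.subL T lam hc k w) (h w)) ih

theorem Cert.subL_g (C : Cert q lam) (hc : ∀ i j : Fin q, 0 ≤ channel q lam i j) (k : ℕ) (v : V) :
    0 ≤ E (subL T q lam k v) C.g := by
  induction k generalizing v with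
  | zero =>
    obtain ⟨e, he⟩ := subL_zero T (q := q) lam v
    rw [he, E_equiv (R163.leaf q) e]
    exact C.leaf
  | succ k ih =>
    rw [subL_succ]
    exact Cert.partL_g T C hc k ih _

/-- one step of the recursion on the set of children -/
theorem treeup_step (C : Cert q lam) (hc : ∀ i j : Fin q, 0 ≤ channel q lam i j) (k : ℕ)
    {w : V} {D : Finset V} (hw : w ∉ D) :
    E (partL T q lam k (insert w D)) chi ≤
      lam ^ 2 * E (subL T q lam k w) chi + E (partL T q lam k D) chi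
        - C.eps * (lam ^ 2 * E (subL T q lam k w) chi * E (partL T q lam k D) chi
          * (lam ^ 2 * E (subL T q lam k w) chi + E (partL T q lam k D) chi)) := by
  obtain ⟨e, he⟩ := partL_insert T (q := q) lam k hw
  have h1 := C.pr_chi ((Ex.subL T lam hc k w).chL hc)
      (Ex.partL T lam hc k (fun w => Ex.subL T lam hc k w) D)
      (C.chL hc (Ex.subL T lam hc k w) (Cert.subL_g T C hc k w))
      (Cert.partL_g T C hc k (Cert.subL_g T C hc k) D)
  rw [chi_chL lam (Ex.subL T lam hc k w)] at h1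
  rw [he, E_equiv (pr (R163.chL lam (subL T q lam k w)) (partL T q lam k D)) e]
  exact h1

theorem treeup_empty (k : ℕ) : E (partL T q lam k (∅ : Finset V)) chi = 0 := by
  obtain ⟨e, he⟩ := partL_empty T (q := q) lam k
  rw [he, E_equiv (R163.triv q) e, E_triv]
  simp [chi]

theorem treeup_arith {e X Y Z : ℝ} (he : 0 < e) (hX : 0 ≤ X) (hY : 0 ≤ Y) (hZ : 0 ≤ Z)
    (h : Z ≤ X + Y - e * (X * Y * (X + Y))) :
    Z + e / 3 * Z ^ 3 ≤ (X + e / 3 * X ^ 3) + (Y + e / 3 * Y ^ 3) := by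
  have h1 : 0 ≤ e * (X * Y * (X + Y)) := by positivity
  have h2 : Z ≤ X + Y := by linarith
  have h3 : Z ^ 3 ≤ (X + Y) ^ 3 := pow_le_pow_left₀ hZ h2 3
  have h4 : e / 3 * Z ^ 3 ≤ e / 3 * (X + Y) ^ 3 := mul_le_mul_of_nonneg_left h3 (by positivity)
  have h5 : e / 3 * (X + Y) ^ 3 = e / 3 * X ^ 3 + e / 3 * Y ^ 3 + e * (X * Y * (X + Y)) := by ring
  linarith

theorem Cert.partL_chi (C : Cert q lam) (hc : ∀ i j : Fin q, 0 ≤ channel q lam i j) (k : ℕ)
    (D : Finset V) :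
    E (partL T q lam k D) chi ≤ ∑ w ∈ D, lam ^ 2 * E (subL T q lam k w) chi := by
  induction D using Finset.induction_on with
  | empty => rw [treeup_empty, Finset.sum_empty]
  | insert w D hw ih =>
    have h1 := treeup_step T C hc k hw
    have hX : 0 ≤ lam ^ 2 * E (subL T q lam k w) chi :=
      mul_nonneg (sq_nonneg _) (E_chi_nonneg (Ex.subL T lam hc k w))
    have hY := E_chi_nonneg (Ex.partL T lam hc k (fun w => Ex.subL T lam hc k w) D)
    have h2 := mul_nonneg C.eps_pos.le (mul_nonneg (mul_nonneg hX hY) (add_nonneg hX hY))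
    rw [Finset.sum_insert hw]
    linarith

theorem Cert.partL_G (C : Cert q lam) (hc : ∀ i j : Fin q, 0 ≤ channel q lam i j) (k : ℕ)
    (D : Finset V) :
    E (partL T q lam k D) chi + C.eps / 3 * (E (partL T q lam k D) chi) ^ 3 ≤
      ∑ w ∈ D, (lam ^ 2 * E (subL T q lam k w) chi
        + C.eps / 3 * (lam ^ 2 * E (subL T q lam k w) chi) ^ 3) := by
  induction D using Finset.induction_on with
  | empty => rw [treeup_empty, Finset.sum_empty]; simp
  | insert w D hw ih =>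
    have h1 := treeup_step T C hc k hw
    have hX : 0 ≤ lam ^ 2 * E (subL T q lam k w) chi :=
      mul_nonneg (sq_nonneg _) (E_chi_nonneg (Ex.subL T lam hc k w))
    have hY := E_chi_nonneg (Ex.partL T lam hc k (fun w => Ex.subL T lam hc k w) D)
    have hZ := E_chi_nonneg (Ex.partL T lam hc k (fun w => Ex.subL T lam hc k w) (insert w D))
    have h2 := treeup_arith C.eps_pos hX hY hZ h1
    rw [Finset.sum_insert hw]
    linarith

theorem treeup_arith2 {κ A X Q : ℝ} (hκ : 0 < κ) (hX : 0 ≤ X) (hXQ : X ≤ Q)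
    (hA : A = 1 + κ * Q ^ 2) : X + κ * X ^ 3 ≤ A * X := by
  have h1 : X ^ 2 ≤ Q ^ 2 := pow_le_pow_left₀ hX hXQ 2
  have h2 : κ * X * X ^ 2 ≤ κ * X * Q ^ 2 := mul_le_mul_of_nonneg_left h1 (by positivity)
  rw [hA]
  nlinarith

theorem treeup_arith3 {κ A X c l : ℝ} (hκ : 0 < κ) (hX : 0 ≤ X) (hA : 0 < A) (hl0 : 0 ≤ l)
    (hc0 : 0 ≤ c) (hc : c ≤ κ * (1 - l ^ 2) / A ^ 3) (hP : X + κ * X ^ 3 ≤ A * X) :
    l * X + κ * (l * X) ^ 3 ≤ l * ((X + κ * X ^ 3) * (1 - c * (X + κ * X ^ 3) ^ 2)) := by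
  have hP0 : 0 ≤ X + κ * X ^ 3 := by positivity
  have h1 : (X + κ * X ^ 3) ^ 3 ≤ (A * X) ^ 3 := pow_le_pow_left₀ hP0 hP 3
  have h2 : c * A ^ 3 ≤ κ * (1 - l ^ 2) := (le_div_iff₀ (by positivity)).1 hc
  have h3 : c * (X + κ * X ^ 3) ^ 3 ≤ c * (A * X) ^ 3 := mul_le_mul_of_nonneg_left h1 hc0
  have h4 : c * A ^ 3 * X ^ 3 ≤ κ * (1 - l ^ 2) * X ^ 3 :=
    mul_le_mul_of_nonneg_right h2 (by positivity)
  have h5 : c * (X + κ * X ^ 3) ^ 3 ≤ κ * (1 - l ^ 2) * X ^ 3 := by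
    calc _ ≤ c * (A * X) ^ 3 := h3
      _ = c * A ^ 3 * X ^ 3 := by ring
      _ ≤ _ := h4
  have h6 := mul_le_mul_of_nonneg_left h5 hl0
  have e1 : l * ((X + κ * X ^ 3) * (1 - c * (X + κ * X ^ 3) ^ 2))
      = l * X + l * κ * X ^ 3 - l * (c * (X + κ * X ^ 3) ^ 3) := by ring
  have e2 : l * X + κ * (l * X) ^ 3
      = l * X + l * κ * X ^ 3 - l * (κ * (1 - l ^ 2) * X ^ 3) := by ring
  rw [e1, e2]
  linarith

/-- `Φ = X + κ X^3`, `κ = eps/3`, `0 ≤ X ≤ q`; put `A = 1 + κ q^2`, so `X ≤ Φ ≤ A X ≤ A q =: M`.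
`lam^2 X + κ lam^6 X^3 = lam^2 (Φ - κ (1 - lam^4) X^3) ≤ lam^2 (Φ - c Φ^3)` for every
`c ≤ κ (1 - lam^4)/A^3`; take `c = min (κ (1 - lam^4)/A^3) (1/M^2)`. -/
theorem Cert.tree_rec (C : Cert q lam) (hc : ∀ i j : Fin q, 0 ≤ channel q lam i j)
    (hl : lam ^ 2 < 1) :
    ∃ (Φ : ℕ → V → ℝ) (c M : ℝ), 0 < c ∧ c * M ^ 2 ≤ 1 ∧ (∀ k v, 0 ≤ Φ k v ∧ Φ k v ≤ M) ∧
      (∀ k v, E (subL T q lam k v) chi ≤ Φ k v) ∧
      (∀ k v, Φ (k + 1) v ≤ ∑ w ∈ T.children v, lam ^ 2 * (Φ k w * (1 - c * Φ k w ^ 2))) := by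
  have he := C.eps_pos
  obtain ⟨κ, hκ⟩ : ∃ κ : ℝ, κ = C.eps / 3 := ⟨_, rfl⟩
  have hκ0 : 0 < κ := by rw [hκ]; positivity
  have hq : (0 : ℝ) < q := Nat.cast_pos.2 (Nat.pos_of_ne_zero (NeZero.ne q))
  obtain ⟨A, hA⟩ : ∃ A : ℝ, A = 1 + κ * (q : ℝ) ^ 2 := ⟨_, rfl⟩
  have hA0 : 0 < A := by rw [hA]; positivity
  have hl0 : 0 ≤ lam ^ 2 := sq_nonneg _
  have hl4 : 0 < 1 - (lam ^ 2) ^ 2 := by nlinarith
  have hX0 : ∀ k v, 0 ≤ E (subL T q lam k v) chi := fun k v =>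
    E_chi_nonneg (Ex.subL T lam hc k v)
  have hX1 : ∀ k v, E (subL T q lam k v) chi ≤ q := fun k v => by
    have := E_chi_le (Ex.subL T lam hc k v)
    linarith
  have hP : ∀ k v, E (subL T q lam k v) chi + κ * E (subL T q lam k v) chi ^ 3
      ≤ A * E (subL T q lam k v) chi := fun k v => treeup_arith2 hκ0 (hX0 k v) (hX1 k v) hA
  have hc0 : 0 < min (κ * (1 - (lam ^ 2) ^ 2) / A ^ 3) (1 / (A * q) ^ 2) :=
    lt_min (by positivity) (by positivity)
  refine ⟨fun k v => E (subL T q lam k v) chi + κ * E (subL T q lam k v) chi ^ 3,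
    min (κ * (1 - (lam ^ 2) ^ 2) / A ^ 3) (1 / (A * q) ^ 2), A * q, hc0, ?_, ?_, ?_, ?_⟩
  · exact (le_div_iff₀ (by positivity)).1 (min_le_right _ _)
  · intro k v
    have h0 := hX0 k v
    refine ⟨by positivity, (hP k v).trans ?_⟩
    exact mul_le_mul_of_nonneg_left (hX1 k v) hA0.le
  · intro k v
    have h0 := hX0 k v
    have : 0 ≤ κ * E (subL T q lam k v) chi ^ 3 := by positivity
    beta_reduce
    linarith
  · intro k v
    beta_reduce
    have h1 := Cert.partL_G T C hc k (T.children v)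
    rw [← hκ] at h1
    rw [subL_succ]
    refine h1.trans (Finset.sum_le_sum fun w _ => ?_)
    exact treeup_arith3 hκ0 (hX0 k w) hA0 hl0 hc0.le (min_le_left _ _) (hP k w)

end Crest.Agent.R163
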