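import Mathlib
import Crest.Prelude.Def_TreeBroadcast

/-!
# From the upper recursion to a flow of bounded potential

Step 1 (limit).  Let `𝒰 = Filter.hyperfilter ℕ` and `F v = lim_{n → 𝒰} Φ (n - depth v) v ∈ [0, M]`
(`IsCompact.ultrafilter_le_nhds` for `Set.Icc 0 M`).  For `n > depth v` and a child `w`,
`n - depth v = (n - depth w) + 1`, so passing to the limit `F v ≤ H v := ∑_{w child} h w`,
`h w = lam^2 F w (1 - c F w^2) ≥ 0`, and `δ ≤ F root`.
Step 2 (flow).  Define `θ' n w` by recursion on `n`: `θ' 0 w = F root`,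
`θ' (n+1) w = θ' n (parent w) * h w / H (parent w)`, and `θ w = θ' (depth w) w`, so
`θ w = θ v * h w / H v` for a child `w` of `v`.  Define likewise `r w` (`r root = 1`,
`r w = r v (1 - c F w^2)`), `0 ≤ r w ≤ r v ≤ 1`.  Induction: `0 ≤ θ w ≤ r w lam^(2 depth w) F w`
(if `H v = 0` then `θ w = 0`; else `F v ≤ H v`).  Hence `θ v > 0 → F v > 0 → H v > 0`, which
gives `∑_{w child} θ w = θ v` for every `v` (also the root: mass `= F root > 0`).
Along a ray: `c (θ w/lam^(2 depth w))^2 ≤ c r w^2 F w^2 ≤ c (r v) F w^2 = r v - r w`, which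
telescopes to at most `1`.  The flow is `√c θ`.  For the `ENNReal` sum use
`ENNReal.tsum_le_of_sum_range_le` and `ENNReal.ofReal_sum_of_nonneg`; `depth (ξ n) = n`.
-/

set_option autoImplicit false

namespace Crest.Agent.R163

open Crest.ProbabilityR.TreeBroadcast

open Filter Topology

theorem up_mem_children {V : Type*} [DecidableEq V] {T : LocFinTree V} {v w : V} :
    w ∈ T.children v ↔ T.depth w = T.depth v + 1 ∧ T.parent w = v := by
  rw [LocFinTree.children, Finset.mem_filter, T.mem_level_iff]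

theorem up_induction {V : Type*} [DecidableEq V] (T : LocFinTree V) {P : V → Prop} (h0 : P T.root)
    (h1 : ∀ v, ∀ w ∈ T.children v, P v → P w) (v : V) : P v := by
  induction hn : T.depth v generalizing v with
  | zero => rwa [(T.depth_eq_zero_iff v).1 hn]
  | succ n ih =>
    have hne : v ≠ T.root := fun h => by
      have := (T.depth_eq_zero_iff v).2 h
      omega
    have hd := T.depth_parent v hne
    exact h1 (T.parent v) v (up_mem_children.2 ⟨hd.symm, rfl⟩) (ih _ (by omega))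

/-- products along the path from the root -/
noncomputable def upProd {V : Type*} (T : LocFinTree V) (a : ℝ) (g : V → ℝ) : ℕ → V → ℝ
  | 0, _ => a
  | n + 1, w => upProd T a g n (T.parent w) * g w

theorem up_exists_prod {V : Type*} [DecidableEq V] (T : LocFinTree V) (a : ℝ) (g : V → ℝ) :
    ∃ θ : V → ℝ, θ T.root = a ∧ ∀ v, ∀ w ∈ T.children v, θ w = θ v * g w := by
  refine ⟨fun w => upProd T a g (T.depth w) w, ?_, fun v w hw => ?_⟩
  · simp only [(T.depth_eq_zero_iff T.root).2 rfl, upProd]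
  · obtain ⟨h1, h2⟩ := up_mem_children.1 hw
    simp only [h1, upProd, h2]

theorem up_flow {V : Type*} [DecidableEq V] (T : LocFinTree V) (lam : ℝ) (h0 : 0 < lam)
    (F : V → ℝ) (c : ℝ) (hc : 0 < c) (hF0 : ∀ v, 0 ≤ F v) (hF1 : ∀ v, c * F v ^ 2 ≤ 1)
    (hrec : ∀ v, F v ≤ ∑ w ∈ T.children v, lam ^ 2 * (F w * (1 - c * F w ^ 2)))
    (hroot : 0 < F T.root) :
    ∃ θ : V → ℝ, IsFlow T θ ∧ 0 < flowMass T θ ∧
      ∀ ξ : ℕ → V, T.IsRay ξ → rayPotential lam θ ξ ≤ 1 := by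
  obtain ⟨H, hH⟩ : ∃ H : V → ℝ, ∀ v,
    H v = ∑ w ∈ T.children v, lam ^ 2 * (F w * (1 - c * F w ^ 2)) := ⟨_, fun _ => rfl⟩
  have hFH : ∀ v, F v ≤ H v := fun v => by rw [hH]; exact hrec v
  have hH0 : ∀ v, 0 ≤ H v := fun v => (hF0 v).trans (hFH v)
  have hs : ∀ v, 0 ≤ 1 - c * F v ^ 2 := fun v => sub_nonneg.2 (hF1 v)
  obtain ⟨θ, hθ0, hθ⟩ := up_exists_prod T (F T.root)
    fun w => lam ^ 2 * (F w * (1 - c * F w ^ 2)) / H (T.parent w)
  obtain ⟨r, hr0, hr⟩ := up_exists_prod T 1 fun w => 1 - c * F w ^ 2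
  have hr1 : ∀ v, 0 ≤ r v ∧ r v ≤ 1 := by
    refine up_induction T (by simp [hr0]) fun v w hw hv => ?_
    rw [hr v w hw]
    have : 0 ≤ c * F w ^ 2 := by positivity
    exact ⟨mul_nonneg hv.1 (hs w), mul_le_one₀ hv.2 (hs w) (by linarith)⟩
  have hθ1 : ∀ v, 0 ≤ θ v ∧ θ v ≤ r v * lam ^ (2 * T.depth v) * F v := by
    refine up_induction T ?_ fun v w hw hv => ?_
    · simp [hθ0, hr0, (T.depth_eq_zero_iff T.root).2 rfl, hF0]
    · obtain ⟨h1, h2⟩ := up_mem_children.1 hw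
      have hh : 0 ≤ lam ^ 2 * (F w * (1 - c * F w ^ 2)) :=
        mul_nonneg (sq_nonneg _) (mul_nonneg (hF0 w) (hs w))
      rw [hθ v w hw, hr v w hw, h1, h2]
      refine ⟨mul_nonneg hv.1 (div_nonneg hh (hH0 v)), ?_⟩
      have a0 : 0 ≤ r v * lam ^ (2 * T.depth v) := mul_nonneg (hr1 v).1 (by positivity)
      have a1 : θ v / H v ≤ r v * lam ^ (2 * T.depth v) :=
        div_le_of_le_mul₀ (hH0 v) a0 (hv.2.trans (mul_le_mul_of_nonneg_left (hFH v) a0))
      calc θ v * (lam ^ 2 * (F w * (1 - c * F w ^ 2)) / H v)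
          = θ v / H v * (lam ^ 2 * (F w * (1 - c * F w ^ 2))) := by ring
        _ ≤ r v * lam ^ (2 * T.depth v) * (lam ^ 2 * (F w * (1 - c * F w ^ 2))) :=
          mul_le_mul_of_nonneg_right a1 hh
        _ = _ := by ring
  have hsum : ∀ v, ∑ w ∈ T.children v, θ w = θ v := fun v => by
    have h1 : ∑ w ∈ T.children v, θ w = θ v * (H v / H v) := by
      nth_rewrite 1 [hH v]
      rw [Finset.sum_div, Finset.mul_sum]
      exact Finset.sum_congr rfl fun w hw => by rw [hθ v w hw, (up_mem_children.1 hw).2]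
    rw [h1]
    rcases (hH0 v).eq_or_lt with h | h
    · have h2 : F v = 0 := le_antisymm (h ▸ hFH v) (hF0 v)
      have h3 : θ v = 0 := le_antisymm (by simpa [h2] using (hθ1 v).2) (hθ1 v).1
      rw [h3, zero_mul]
    · rw [div_self h.ne', mul_one]
  have hsq : 0 < Real.sqrt c := Real.sqrt_pos.2 hc
  refine ⟨fun v => Real.sqrt c * θ v, ⟨fun v => mul_nonneg hsq.le (hθ1 v).1, fun v _ => ?_⟩, ?_,
    fun ξ hξ => ?_⟩
  · rw [← Finset.mul_sum, hsum]
  · rw [flowMass, ← Finset.mul_sum, hsum, hθ0]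
    positivity
  · have hd : ∀ n, T.depth (ξ n) = n := fun n => by
      induction n with
      | zero => rw [hξ.1, (T.depth_eq_zero_iff T.root).2 rfl]
      | succ n ih => rw [(up_mem_children.1 (hξ.2 n)).1, ih]
    have hstep : ∀ n, (Real.sqrt c * θ (ξ (n + 1)) / lam ^ (2 * (n + 1))) ^ 2 ≤
        r (ξ n) - r (ξ (n + 1)) := fun n => by
      have a1 : θ (ξ (n + 1)) / lam ^ (2 * (n + 1)) ≤ r (ξ (n + 1)) * F (ξ (n + 1)) := by
        rw [div_le_iff₀ (by positivity)]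
        have := (hθ1 (ξ (n + 1))).2
        rw [hd] at this
        linarith
      have a2 : 0 ≤ θ (ξ (n + 1)) / lam ^ (2 * (n + 1)) := div_nonneg (hθ1 _).1 (by positivity)
      have a3 := hr _ _ (hξ.2 n)
      have a4 : r (ξ (n + 1)) ^ 2 ≤ r (ξ n) := by
        have b1 : r (ξ (n + 1)) ≤ r (ξ n) := by
          rw [a3]
          have : 0 ≤ c * F (ξ (n + 1)) ^ 2 := by positivity
          exact mul_le_of_le_one_right (hr1 _).1 (by linarith)
        exact (pow_le_of_le_one (hr1 _).1 (hr1 _).2 two_ne_zero).trans b1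
      calc (Real.sqrt c * θ (ξ (n + 1)) / lam ^ (2 * (n + 1))) ^ 2
          = c * (θ (ξ (n + 1)) / lam ^ (2 * (n + 1))) ^ 2 := by
            rw [mul_div_assoc, mul_pow, Real.sq_sqrt hc.le]
        _ ≤ c * (r (ξ (n + 1)) * F (ξ (n + 1))) ^ 2 := by gcongr
        _ = r (ξ (n + 1)) ^ 2 * (c * F (ξ (n + 1)) ^ 2) := by ring
        _ ≤ r (ξ n) * (c * F (ξ (n + 1)) ^ 2) := by gcongr
        _ = _ := by rw [a3]; ring
    refine ENNReal.tsum_le_of_sum_range_le fun n => ?_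
    rw [← ENNReal.ofReal_sum_of_nonneg fun _ _ => sq_nonneg _, ← ENNReal.ofReal_one]
    refine ENNReal.ofReal_le_ofReal ((Finset.sum_le_sum fun i _ => hstep i).trans ?_)
    rw [Finset.sum_range_sub' fun i => r (ξ i)]
    linarith [(hr1 (ξ 0)).2, (hr1 (ξ n)).1]

theorem flow_of_rec {V : Type*} [DecidableEq V] (T : LocFinTree V) (lam : ℝ) (h0 : 0 < lam)
    (Φ : ℕ → V → ℝ) (c M δ : ℝ) (hc : 0 < c) (hM : c * M ^ 2 ≤ 1)
    (hb : ∀ k v, 0 ≤ Φ k v ∧ Φ k v ≤ M)
    (hrec : ∀ k v, Φ (k + 1) v ≤ ∑ w ∈ T.children v, lam ^ 2 * (Φ k w * (1 - c * Φ k w ^ 2)))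
    (hδ : 0 < δ) (hroot : ∀ n, δ ≤ Φ n T.root) :
    ∃ θ : V → ℝ, IsFlow T θ ∧ 0 < flowMass T θ ∧
      ∀ ξ : ℕ → V, T.IsRay ξ → rayPotential lam θ ξ ≤ 1 := by
  have hlim : ∀ v, ∃ x ∈ Set.Icc 0 M,
      Tendsto (fun n => Φ (n - T.depth v) v) (hyperfilter ℕ) (𝓝 x) := fun v =>
    isCompact_Icc.ultrafilter_le_nhds ((hyperfilter ℕ).map fun n => Φ (n - T.depth v) v)
      (le_principal_iff.2 (mem_map.2 (univ_mem' fun n => hb _ v)))
  choose F hF hFt using hlim
  refine up_flow T lam h0 F c hc (fun v => (hF v).1) (fun v => le_trans ?_ hM) (fun v => ?_)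
    (hδ.trans_le (ge_of_tendsto' (hFt T.root) fun n => hroot _))
  · exact mul_le_mul_of_nonneg_left (pow_le_pow_left₀ (hF v).1 (hF v).2 2) hc.le
  · refine le_of_tendsto_of_tendsto (hFt v) (tendsto_finsetSum _ fun w _ =>
      ((hFt w).mul ((((hFt w).pow 2).const_mul c).const_sub 1)).const_mul (lam ^ 2)) ?_
    filter_upwards [Nat.hyperfilter_le_atTop (eventually_gt_atTop (T.depth v))] with n hn
    have h1 : n - T.depth v = n - (T.depth v + 1) + 1 := by omega
    rw [h1]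
    refine (hrec _ v).trans (le_of_eq (Finset.sum_congr rfl fun w hw => ?_))
    rw [(up_mem_children.1 hw).1]

end Crest.Agent.R163
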